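import Vale.Agent.P111.Base

namespace Vale.Agent.P111

open Finset
open scoped BigOperators

open MeasureTheory

theorem AnalytAux_sq (c y : ℝ) : ‖(c : ℂ) + y * Complex.I‖ ^ 2 = c ^ 2 + y ^ 2 := by
  rw [Complex.sq_norm, Complex.normSq_add_mul_I]

theorem AnalytAux_ge (c y : ℝ) : c ≤ ‖(c : ℂ) + y * Complex.I‖ := by
  simpa using Complex.re_le_norm ((c : ℂ) + y * Complex.I)

theorem AnalytAux_eq {t : ℝ} (ht : 0 < t) (y : ℝ) :
    ((1 / t) ^ 2 + y ^ 2)⁻¹ = t ^ 2 * (1 + (t * y) ^ 2)⁻¹ := by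
  field_simp

theorem AnalytAux_int {t : ℝ} (ht : 0 < t) :
    Integrable (fun y : ℝ => ((1 / t) ^ 2 + y ^ 2)⁻¹) ∧
      ∫ y : ℝ, ((1 / t) ^ 2 + y ^ 2)⁻¹ = Real.pi * t := by
  simp only [AnalytAux_eq ht]
  refine ⟨(integrable_inv_one_add_sq.comp_mul_left' ht.ne').const_mul _, ?_⟩
  rw [integral_const_mul, Measure.integral_comp_mul_left (fun x : ℝ => (1 + x ^ 2)⁻¹),
    integral_univ_inv_one_add_sq, abs_of_pos (inv_pos.2 ht), smul_eq_mul]
  field_simp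

theorem AnalytAux_coord {t c : ℝ} (ht : 0 < t) (hc : 1 / t ≤ c) :
    Integrable fun y : ℝ =>
      Complex.exp (y * t * Complex.I) * (((c : ℂ) + y * Complex.I)⁻¹) ^ 3 := by
  have ha : 0 < 1 / t := by positivity
  have hne : ∀ y : ℝ, (c : ℂ) + y * Complex.I ≠ 0 := fun y =>
    norm_pos_iff.1 ((ha.trans_le hc).trans_le (AnalytAux_ge c y))
  refine ((AnalytAux_int ht).1.const_mul t).mono' (Continuous.aestronglyMeasurable ?_)
    (Filter.Eventually.of_forall fun y => ?_)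
  · exact (by fun_prop : Continuous fun y : ℝ => Complex.exp (y * t * Complex.I)).mul
      ((Continuous.inv₀ (by fun_prop) hne).pow 3)
  · have e : ‖Complex.exp (y * t * Complex.I)‖ = 1 := by
      rw [← Complex.ofReal_mul, Complex.norm_exp_ofReal_mul_I]
    rw [norm_mul, e, one_mul, norm_pow, norm_inv, pow_succ', inv_pow, AnalytAux_sq]
    refine mul_le_mul ?_ (inv_anti₀ (by positivity) ?_) (by positivity) ht.le
    · have := inv_anti₀ ha (hc.trans (AnalytAux_ge c y))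
      rwa [one_div, inv_inv] at this
    · have := pow_le_pow_left₀ ha.le hc 2
      linarith

theorem AnalytAux_bd {ι : Type} [Fintype ι] {E : Type*} [NormedAddCommGroup E] [NormedSpace ℝ E]
    {Ψ : (ι → ℂ) →L[ℝ] E} (hΨ : Mult Ψ) {R : ℝ} (hR : 0 ≤ R) {e μ : ℂ} (he : ‖e‖ = 1)
    (hμ : μ ≠ 0) {r : ι → ℂ} (hr : ‖Ψ r‖ ≤ R / ‖μ‖) :
    ‖Ψ (e • (r * r + (-μ) • (r * (r * r))))‖ ≤ (4 * R ^ 2 + 16 * R ^ 3) * (‖μ‖ ^ 2)⁻¹ := by
  have hm : 0 < ‖μ‖ := norm_pos_iff.2 hμ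
  have h1 : ‖Ψ (r * r)‖ ≤ 2 * (R / ‖μ‖) * (R / ‖μ‖) := (hΨ.mul r r).trans (by gcongr)
  have h2 : ‖Ψ (r * (r * r))‖ ≤ 2 * (R / ‖μ‖) * (2 * (R / ‖μ‖) * (R / ‖μ‖)) :=
    (hΨ.mul r _).trans (by gcongr)
  have h3 : ‖Ψ ((-μ) • (r * (r * r)))‖ ≤
      2 * ‖μ‖ * (2 * (R / ‖μ‖) * (2 * (R / ‖μ‖) * (R / ‖μ‖))) :=
    (hΨ.smul _ _).trans (by rw [norm_neg]; gcongr)
  refine (hΨ.smul _ _).trans ?_
  rw [he, map_add]
  refine (mul_le_mul_of_nonneg_left ((norm_add_le _ _).trans (add_le_add h1 h3))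
    (by norm_num)).trans (le_of_eq ?_)
  field_simp
  ring

theorem analyt {ι : Type} [Fintype ι] {E : Type*} [NormedAddCommGroup E] [NormedSpace ℝ E]
    [CompleteSpace E] {Ψ : (ι → ℂ) →L[ℝ] E} (hΨ : Mult Ψ) (d : ι → ℕ) {R : ℝ} (hR : 0 ≤ R)
    (hF : ∀ c t : ℝ, 0 < c → 0 < t →
      ∫ y : ℝ, Complex.exp (y * t * Complex.I) * (((c : ℂ) + y * Complex.I)⁻¹) ^ 3 =
        ((Real.pi * t ^ 2 * Real.exp (-(c * t)) : ℝ) : ℂ))
    (hres : ∀ a : ℝ, 0 < a → ∀ y : ℝ,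
      ‖Ψ fun i => ((a : ℂ) + y * Complex.I + d i)⁻¹‖ ≤ R / ‖(a : ℂ) + y * Complex.I‖)
    {t : ℝ} (ht : 0 < t) :
    ‖Ψ fun i => ((d i * Real.exp (-(t * d i)) : ℝ) : ℂ)‖ ≤ 3 * (4 * R ^ 2 + 16 * R ^ 3) / t := by
  have ha : 0 < 1 / t := by positivity
  set a : ℝ := 1 / t with hat
  set F : ℝ → ι → ℂ := fun y i => (d i : ℂ) * (Complex.exp (y * t * Complex.I) *
    ((((a + d i : ℝ) : ℂ) + y * Complex.I)⁻¹) ^ 3) with hFd
  have hc : ∀ i, a ≤ a + d i := fun i => le_add_of_nonneg_right (Nat.cast_nonneg _)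
  have hi : ∀ i, Integrable fun y => F y i := fun i => (AnalytAux_coord ht (hc i)).const_mul _
  have hI : Integrable F := Integrable.of_eval hi
  have hv : ∫ y, F y = (Real.pi * t ^ 2 * Real.exp (-1)) •
      fun i => ((d i * Real.exp (-(t * d i)) : ℝ) : ℂ) := by
    funext i
    rw [eval_integral hi, hFd]
    simp only
    rw [integral_const_mul, hF _ t (ha.trans_le (hc i)) ht]
    have e : -((a + d i) * t) = -1 + -(t * d i) := by
      rw [hat]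
      field_simp
      ring
    rw [e, Real.exp_add, Pi.smul_apply, Complex.real_smul]
    push_cast
    ring
  have hb : ∀ y : ℝ, ‖Ψ (F y)‖ ≤ (4 * R ^ 2 + 16 * R ^ 3) * (a ^ 2 + y ^ 2)⁻¹ := fun y => by
    have hne : ∀ c : ℝ, a ≤ c → (c : ℂ) + y * Complex.I ≠ 0 := fun c h =>
      norm_pos_iff.1 ((ha.trans_le h).trans_le (AnalytAux_ge c y))
    have e : ‖Complex.exp (y * t * Complex.I)‖ = 1 := by
      rw [← Complex.ofReal_mul, Complex.norm_exp_ofReal_mul_I]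
    have h := AnalytAux_bd hΨ hR e (hne a le_rfl) (hres a ha y)
    rw [AnalytAux_sq] at h
    refine le_trans (le_of_eq (congrArg (fun z => ‖Ψ z‖) ?_)) h
    funext i
    have h1 := hne _ (hc i)
    have e1 : (a : ℂ) + y * Complex.I + d i = ((a + d i : ℝ) : ℂ) + y * Complex.I := by
      push_cast
      ring
    have e2 : (a : ℂ) + y * Complex.I = ((a + d i : ℝ) : ℂ) + y * Complex.I - d i := by
      push_cast
      ring
    simp only [hFd, Pi.smul_apply, Pi.add_apply, Pi.mul_apply, smul_eq_mul, e1]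
    rw [e2]
    generalize ((a + d i : ℝ) : ℂ) + y * Complex.I = z at h1
    field_simp
    ring
  have h1 := norm_integral_le_of_norm_le ((AnalytAux_int ht).1.const_mul _)
    (Filter.Eventually.of_forall hb)
  rw [Ψ.integral_comp_comm hI, hv, map_smul, norm_smul, integral_const_mul, (AnalytAux_int ht).2,
    Real.norm_of_nonneg (by positivity)] at h1
  have h2 : Real.exp (-1) * 3 ≥ 1 := by
    rw [Real.exp_neg, ge_iff_le, inv_mul_eq_div, one_le_div (Real.exp_pos 1)]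
    linarith [Real.exp_one_lt_d9]
  generalize ‖Ψ fun i => ((d i * Real.exp (-(t * d i)) : ℝ) : ℂ)‖ = N at h1 ⊢
  have h3 : t * Real.exp (-1) * N ≤ 4 * R ^ 2 + 16 * R ^ 3 := by
    refine le_of_mul_le_mul_left ?_ (mul_pos Real.pi_pos ht)
    linarith
  rw [le_div_iff₀ ht]
  by_cases hN : 0 ≤ N
  · nlinarith [mul_nonneg hN ht.le]
  · have : N * t ≤ 0 := mul_nonpos_of_nonpos_of_nonneg (not_le.1 hN).le ht.le
    have : 0 ≤ 4 * R ^ 2 + 16 * R ^ 3 := by positivity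
    linarith

end Vale.Agent.P111
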