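import Vale.Agent.P111.Fourier

/-! Working definitions for the proof of the cotype-cotype conjecture. -/

namespace Vale.Agent.P111

open Finset
open scoped BigOperators

/-- A bicharacter with values in `{-1, 1}`. -/
structure IsBi {A B : Type} [AddCommGroup A] [AddCommGroup B] (σ : A → B → ℝ) : Prop where
  addl : ∀ a a' b, σ (a + a') b = σ a b * σ a' b
  addr : ∀ a b b', σ a (b + b') = σ a b * σ a b'
  sq : ∀ a b, σ a b * σ a b = 1

/-- The mean of a kernel (for a bicharacter: the density of its radical). -/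
noncomputable def kap {A B : Type} [Fintype A] [Fintype B] (σ : A → B → ℝ) : ℝ :=
  𝔼 a, 𝔼 b, σ a b

/-- All bicharacter tests of mean at most `κ₀` with vectors in `U`, `W` are at most
`c * kap ^ δ`. -/
def Bd {E F : Type*} [AddCommGroup E] [Module ℝ E] [AddCommGroup F] [Module ℝ F]
    (β : E →ₗ[ℝ] F →ₗ[ℝ] ℝ) (δ c κ₀ : ℝ) (U : Set E) (W : Set F) : Prop :=
  ∀ (A B : Type) [AddCommGroup A] [Fintype A] [AddCommGroup B] [Fintype B] (σ : A → B → ℝ),
    IsBi σ → kap σ ≤ κ₀ → ∀ (x : A → E) (y : B → F), (∀ a, x a ∈ U) → (∀ b, y b ∈ W) →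
      |𝔼 a, 𝔼 b, σ a b * β (x a) (y b)| ≤ c * kap σ ^ δ

/-- Symmetric set. -/
def Symm {E : Type*} [AddCommGroup E] (U : Set E) : Prop := ∀ x ∈ U, -x ∈ U

/-- Every `k`-tuple in `U` is the tuple of first order Walsh coefficients of `Λ • D` with
`D` valued in `U'`. -/
def Lift {E : Type*} [AddCommGroup E] [Module ℝ E] (k : ℕ) (Λ : ℝ) (U U' : Set E) : Prop :=
  ∀ τ : Fin k → E, (∀ l, τ l ∈ U) → ∃ D : (Fin k → ZMod 2) → E, (∀ ε, D ε ∈ U') ∧
    ∀ l, τ l = (Λ / 2 ^ k) • ∑ ε : Fin k → ZMod 2, sg (ε l) • D ε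

/-- The pairing `(x, ξ) ↦ ξ (T x)`. -/
noncomputable def pairT {X : Type*} [NormedAddCommGroup X] [NormedSpace ℝ X] (T : X →L[ℝ] X) :
    X →ₗ[ℝ] StrongDual ℝ X →ₗ[ℝ] ℝ :=
  LinearMap.mk₂ ℝ (fun x ξ => ξ (T x)) (by intros; simp) (by intros; simp) (by intros; simp)
    (by intros; simp)

@[simp] theorem pairT_apply {X : Type*} [NormedAddCommGroup X] [NormedSpace ℝ X]
    (T : X →L[ℝ] X) (x : X) (ξ : StrongDual ℝ X) : pairT T x ξ = ξ (T x) := rfl

/-- The closed unit ball. -/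
def Ball (Y : Type*) [NormedAddCommGroup Y] : Set Y := {y | ‖y‖ ≤ 1}

@[simp] theorem mem_Ball {Y : Type*} [NormedAddCommGroup Y] {y : Y} : y ∈ Ball Y ↔ ‖y‖ ≤ 1 :=
  Iff.rfl

theorem symm_Ball (Y : Type*) [NormedAddCommGroup Y] : Symm (Ball Y) := fun x hx => by
  simpa using hx

/-- Kahane's inequality between `L_2` and `L_1`. -/
def Kah (Y : Type*) [NormedAddCommGroup Y] [NormedSpace ℝ Y] : Prop :=
  ∀ (s : ℕ) (y : Fin s → Y), l2 (radSum y) ≤ 2 * 𝔼 ε, ‖radSum y ε‖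

/-- The `ℓ_1` form of cotype for `k` vectors. -/
def SumBd (Y : Type*) [NormedAddCommGroup Y] [NormedSpace ℝ Y] (k : ℕ) (Λ : ℝ) : Prop :=
  ∀ y : Fin k → Y, ∑ i, ‖y i‖ ≤ Λ * 𝔼 ε, ‖radSum y ε‖

/-- The coefficient system of a positive mixture of Riesz products on `k × k` sign matrices. -/
structure Coef (k : ℕ) (α : ℝ) (a : Finset (Fin k × Fin k) → ℝ) : Prop where
  pos : ∀ (P : Finset (Fin k × Fin k)) (z : Fin k × Fin k → ℝ), (∀ p, |z p| ≤ 1) →
    0 ≤ ∑ M ∈ P.powerset, a M * ∏ p ∈ M, z p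
  empty : a ∅ = 1
  le_one : ∀ M, |a M| ≤ 1
  single : ∀ p, a {p} = α
  box : ∑ I : Finset (Fin k), ∑ J : Finset (Fin k),
    (if Odd I.card ∧ Odd J.card ∧ 1 < I.card ∧ 1 < J.card then |a (I ×ˢ J)| else 0) ≤ 9

/-- A finite probability distribution on `[-1, 1]` with nonzero mean and vanishing odd moments
of order `3, ..., D`. -/
structure Mom (D : ℕ) {ι : Type} [Fintype ι] (t w : ι → ℝ) : Prop where
  nonneg : ∀ i, 0 ≤ w i
  total : ∑ i, w i = 1
  abs_le : ∀ i, |t i| ≤ 1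
  mean : ∑ i, w i * t i ≠ 0
  odd : ∀ e : ℕ, Odd e → 3 ≤ e → e ≤ D → ∑ i, w i * t i ^ e = 0

/-- The bicharacter on `A^k × B^k` attached to a `0-1` matrix `M`. -/
noncomputable def sigM {A B : Type} {k : ℕ} (σ : A → B → ℝ) (M : Finset (Fin k × Fin k))
    (S : Fin k → A) (g : Fin k → B) : ℝ :=
  ∏ p ∈ M, σ (S p.1) (g p.2)

/-- The halving step for operators on `X`. -/
def Step (X : Type*) [NormedAddCommGroup X] [NormedSpace ℝ X] (k : ℕ) (δ κ₀ Λ : ℝ) : Prop :=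
  ∀ (T : X →L[ℝ] X) (c : ℝ) (U U' : Set X), 0 ≤ c → U ⊆ U' → Symm U' → Lift k Λ U U' →
    Bd (pairT T) δ c 1 U' (Ball (StrongDual ℝ X)) →
    Bd (pairT T) δ (c / 2) κ₀ U (Ball (StrongDual ℝ X))

/-- Finite rank operators satisfy some bound. -/
def FinBd (X : Type*) [NormedAddCommGroup X] [NormedSpace ℝ X] (δ : ℝ) : Prop :=
  ∀ T : X →L[ℝ] X, FiniteDimensional ℝ (LinearMap.range (T : X →ₗ[ℝ] X)) →
    ∃ c : ℝ, 0 ≤ c ∧ Bd (pairT T) δ c 1 (Ball X) (Ball (StrongDual ℝ X))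

/-- The (unnormalized) Walsh transform. -/
noncomputable def walsh {Y : Type*} [NormedAddCommGroup Y] [NormedSpace ℝ Y] {M : ℕ}
    (x : (Fin M → ZMod 2) → Y) (b : Fin M → ZMod 2) : Y :=
  ∑ a, sg (a ⬝ᵥ b) • x a

/-- `L_∞ → L_1` bound for the Walsh transform. -/
def Walsh (Y : Type*) [NormedAddCommGroup Y] [NormedSpace ℝ Y] (C ρ : ℝ) : Prop :=
  ∀ (M : ℕ) (x : (Fin M → ZMod 2) → Y), (∀ a, ‖x a‖ ≤ 1) → 𝔼 b, ‖walsh x b‖ ≤ C * ρ ^ M

/-- `L_2 → L_2` bound for the Walsh transform. -/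
def Walsh2 (Y : Type*) [NormedAddCommGroup Y] [NormedSpace ℝ Y] (C ρ : ℝ) : Prop :=
  ∀ (M : ℕ) (x : (Fin M → ZMod 2) → Y), l2 (walsh x) ≤ C * ρ ^ M * l2 x

/-- `ℓ_2(cube; X)` with the counting measure. -/
abbrev LT (X : Type*) (s : ℕ) := PiLp 2 (fun _ : Fin s → ZMod 2 => X)

/-- A real linear map on complex multipliers that is multiplicative up to a factor two. -/
structure Mult {ι : Type} [Fintype ι] {E : Type*} [NormedAddCommGroup E] [NormedSpace ℝ E]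
    (Ψ : (ι → ℂ) →L[ℝ] E) : Prop where
  mul : ∀ f g, ‖Ψ (f * g)‖ ≤ 2 * ‖Ψ f‖ * ‖Ψ g‖
  smul : ∀ (c : ℂ) (f : ι → ℂ), ‖Ψ (c • f)‖ ≤ 2 * ‖c‖ * ‖Ψ f‖

/-! ### Basic facts -/

theorem card_cube (s : ℕ) : (Fintype.card (Fin s → ZMod 2) : ℝ) = 2 ^ s := by simp

theorem expect_cube {s : ℕ} (f : (Fin s → ZMod 2) → ℝ) : 𝔼 ε, f ε = (∑ ε, f ε) / 2 ^ s := by
  rw [Fintype.expect_eq_sum_div_card, card_cube]

theorem l2_eq {Y : Type*} [NormedAddCommGroup Y] {s : ℕ} (f : (Fin s → ZMod 2) → Y) :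
    l2 f = Real.sqrt (𝔼 ε, ‖f ε‖ ^ 2) := by
  rw [l2, expect_cube]

theorem l2_nonneg {Y : Type*} [NormedAddCommGroup Y] {s : ℕ} (f : (Fin s → ZMod 2) → Y) :
    0 ≤ l2 f := Real.sqrt_nonneg _

theorem l2_sq {Y : Type*} [NormedAddCommGroup Y] {s : ℕ} (f : (Fin s → ZMod 2) → Y) :
    l2 f ^ 2 = 𝔼 ε, ‖f ε‖ ^ 2 := by
  rw [l2_eq, Real.sq_sqrt (Finset.expect_nonneg fun _ _ => sq_nonneg _)]

namespace IsBi

variable {A B : Type} [AddCommGroup A] [AddCommGroup B] {σ : A → B → ℝ}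

theorem flip (h : IsBi σ) : IsBi fun b a => σ a b :=
  ⟨fun _ _ _ => h.addr _ _ _, fun _ _ _ => h.addl _ _ _, fun _ _ => h.sq _ _⟩

theorem eq_or (h : IsBi σ) (a : A) (b : B) : σ a b = 1 ∨ σ a b = -1 :=
  mul_self_eq_one_iff.1 (h.sq a b)

theorem abs_eq (h : IsBi σ) (a : A) (b : B) : |σ a b| = 1 := by
  rcases h.eq_or a b with e | e <;> simp [e]

theorem zero_left (h : IsBi σ) (b : B) : σ 0 b = 1 := by
  have := h.addl 0 0 b
  rwa [add_zero, h.sq] at this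

theorem zero_right (h : IsBi σ) (a : A) : σ a 0 = 1 := h.flip.zero_left a

theorem sum_left (h : IsBi σ) {κ : Type*} (s : Finset κ) (f : κ → A) (b : B) :
    σ (∑ i ∈ s, f i) b = ∏ i ∈ s, σ (f i) b := by
  classical
  induction s using Finset.induction_on with
  | empty => simp [h.zero_left]
  | insert a s ha ih => rw [Finset.sum_insert ha, Finset.prod_insert ha, h.addl, ih]

theorem sum_right (h : IsBi σ) {κ : Type*} (s : Finset κ) (a : A) (f : κ → B) :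
    σ a (∑ i ∈ s, f i) = ∏ i ∈ s, σ a (f i) := h.flip.sum_left s f a

/-- Restriction along homomorphisms (for instance to subgroups). -/
theorem comp (h : IsBi σ) {A' B' : Type} [AddCommGroup A'] [AddCommGroup B'] (φ : A' →+ A)
    (ψ : B' →+ B) : IsBi fun a b => σ (φ a) (ψ b) :=
  ⟨fun _ _ _ => by rw [map_add, h.addl], fun _ _ _ => by rw [map_add, h.addr],
    fun _ _ => h.sq _ _⟩

theorem sigM (h : IsBi σ) {k : ℕ} (M : Finset (Fin k × Fin k)) : IsBi (sigM σ M) :=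
  ⟨fun _ _ _ => by simp only [P111.sigM, Pi.add_apply, h.addl, Finset.prod_mul_distrib],
    fun _ _ _ => by simp only [P111.sigM, Pi.add_apply, h.addr, Finset.prod_mul_distrib],
    fun _ _ => by simp only [P111.sigM, ← Finset.prod_mul_distrib, h.sq, Finset.prod_const_one]⟩

/-- The mean of a character is `0` or `1`. -/
theorem expect_right [Fintype B] (h : IsBi σ) (a : A) :
    𝔼 b, σ a b = 0 ∨ ((∀ b, σ a b = 1) ∧ 𝔼 b, σ a b = 1) := by
  by_cases h1 : ∀ b, σ a b = 1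
  · exact Or.inr ⟨h1, by simp [h1]⟩
  · left
    obtain ⟨b, hb⟩ := not_forall.1 h1
    have hb' := (h.eq_or a b).resolve_left hb
    have h2 := Fou.expect_add_right (fun x => σ a x) b
    simp only [h.addr, hb', mul_neg, mul_one, Finset.expect_neg_distrib] at h2
    linarith

theorem expect_right_nonneg [Fintype B] (h : IsBi σ) (a : A) : 0 ≤ 𝔼 b, σ a b := by
  rcases h.expect_right a with e | e
  · exact e.ge
  · rw [e.2]; exact zero_le_one

theorem expect_right_le_one [Fintype B] (h : IsBi σ) (a : A) : 𝔼 b, σ a b ≤ 1 := by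
  rcases h.expect_right a with e | e
  · rw [e]; exact zero_le_one
  · exact e.2.le

theorem expect_left_nonneg [Fintype A] (h : IsBi σ) (b : B) : 0 ≤ 𝔼 a, σ a b :=
  h.flip.expect_right_nonneg b

theorem expect_left_le_one [Fintype A] (h : IsBi σ) (b : B) : 𝔼 a, σ a b ≤ 1 :=
  h.flip.expect_right_le_one b

theorem kap_nonneg [Fintype A] [Fintype B] (h : IsBi σ) : 0 ≤ kap σ :=
  Finset.expect_nonneg fun a _ => h.expect_right_nonneg a

theorem kap_le_one [Fintype A] [Fintype B] (h : IsBi σ) : kap σ ≤ 1 :=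
  Finset.expect_le Finset.univ_nonempty fun a _ => h.expect_right_le_one a

end IsBi

theorem kap_flip {A B : Type} [Fintype A] [Fintype B] (σ : A → B → ℝ) :
    kap (fun b a => σ a b) = kap σ := by
  rw [kap, kap, Finset.expect_comm]

theorem Bd.flip {E F : Type*} [AddCommGroup E] [Module ℝ E] [AddCommGroup F] [Module ℝ F]
    {β : E →ₗ[ℝ] F →ₗ[ℝ] ℝ} {δ c κ₀ : ℝ} {U : Set E} {W : Set F} (h : Bd β δ c κ₀ U W) :
    Bd β.flip δ c κ₀ W U := by
  intro A B _ _ _ _ σ hσ hκ x y hx hy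
  have := h B A (fun b a => σ a b) hσ.flip (by rwa [kap_flip]) y x hy hx
  rw [kap_flip, Finset.expect_comm] at this
  simpa using this

theorem Bd.mono {E F : Type*} [AddCommGroup E] [Module ℝ E] [AddCommGroup F] [Module ℝ F]
    {β : E →ₗ[ℝ] F →ₗ[ℝ] ℝ} {δ c c' κ₀ : ℝ} {U U' : Set E} {W : Set F} (h : Bd β δ c κ₀ U' W)
    (hU : U ⊆ U') (hc : c ≤ c') : Bd β δ c' κ₀ U W := by
  intro A B _ _ _ _ σ hσ hκ x y hx hy
  exact (h A B σ hσ hκ x y (fun a => hU (hx a)) hy).trans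
    (mul_le_mul_of_nonneg_right hc (Real.rpow_nonneg hσ.kap_nonneg _))

end Vale.Agent.P111
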