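import Vale.Agent.P111.Base

namespace Vale.Agent.P111

open Finset
open scoped BigOperators

section aux

variable {D k : ℕ} {ι : Type} [Fintype ι] {t w : ι → ℝ}

/-- The mean of a monomial. -/
noncomputable def CoefExAux_R (t w : ι → ℝ) (f : Fin k × Fin k → Fin k)
    (M : Finset (Fin k × Fin k)) : ℝ :=
  ∑ u : Fin k → ι, (∏ l, w (u l)) * ∏ p ∈ M, t (u (f p))

theorem CoefExAux_eq (f : Fin k × Fin k → Fin k) (M : Finset (Fin k × Fin k)) :
    CoefExAux_R t w f M = ∏ l, ∑ i, w i * t i ^ (M.filter fun p => f p = l).card := by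
  rw [Fintype.prod_sum]
  refine Finset.sum_congr rfl fun u _ => ?_
  rw [Finset.prod_mul_distrib, ← Finset.prod_fiberwise M f fun p => t (u (f p))]
  congr 1
  refine Finset.prod_congr rfl fun l _ => ?_
  rw [← Finset.prod_const]
  exact Finset.prod_congr rfl fun p hp => by rw [(Finset.mem_filter.1 hp).2]

theorem CoefExAux_m (h : Mom D t w) (e : ℕ) : |∑ i, w i * t i ^ e| ≤ 1 := by
  refine (Finset.abs_sum_le_sum_abs _ _).trans ?_
  rw [← h.total]
  refine Finset.sum_le_sum fun i _ => ?_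
  rw [abs_mul, abs_of_nonneg (h.nonneg i), abs_pow]
  exact mul_le_of_le_one_right (h.nonneg i) (pow_le_one₀ (abs_nonneg _) (h.abs_le i))

theorem CoefExAux_abs (h : Mom D t w) (f : Fin k × Fin k → Fin k)
    (M : Finset (Fin k × Fin k)) : |CoefExAux_R t w f M| ≤ 1 := by
  rw [CoefExAux_eq, Finset.abs_prod]
  exact Finset.prod_le_one (fun _ _ => abs_nonneg _) fun _ _ => CoefExAux_m h _

theorem CoefExAux_empty (h : Mom D t w) (f : Fin k × Fin k → Fin k) :
    CoefExAux_R t w f ∅ = 1 := by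
  rw [CoefExAux_eq]
  simp [h.total]

theorem CoefExAux_single (h : Mom D t w) (f : Fin k × Fin k → Fin k) (p : Fin k × Fin k) :
    CoefExAux_R t w f {p} = ∑ i, w i * t i := by
  rw [CoefExAux_eq, Finset.prod_eq_single (f p)]
  · simp [Finset.filter_singleton]
  · intro l _ hl
    simp [Finset.filter_singleton, hl.symm, h.total]
  · simp

theorem CoefExAux_fst (h : Mom D t w) {I J : Finset (Fin k)} (hI : I.Nonempty) (h1 : Odd J.card)
    (h2 : 1 < J.card) (h3 : J.card ≤ D) : CoefExAux_R t w Prod.fst (I ×ˢ J) = 0 := by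
  obtain ⟨l, hl⟩ := hI
  rw [CoefExAux_eq]
  refine Finset.prod_eq_zero (Finset.mem_univ l) ?_
  have e : ((I ×ˢ J).filter fun p => p.1 = l).card = J.card := by
    rw [Finset.filter_product_left (fun a => a = l), Finset.card_product, Finset.filter_eq',
      if_pos hl, Finset.card_singleton, one_mul]
  rw [e]
  obtain ⟨r, hr⟩ := h1
  exact h.odd _ ⟨r, hr⟩ (by omega) h3

theorem CoefExAux_snd (h : Mom D t w) {I J : Finset (Fin k)} (hJ : J.Nonempty) (h1 : Odd I.card)
    (h2 : 1 < I.card) (h3 : I.card ≤ D) : CoefExAux_R t w Prod.snd (I ×ˢ J) = 0 := by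
  obtain ⟨l, hl⟩ := hJ
  rw [CoefExAux_eq]
  refine Finset.prod_eq_zero (Finset.mem_univ l) ?_
  have e : ((I ×ˢ J).filter fun p => p.2 = l).card = I.card := by
    rw [Finset.filter_product_right (fun a => a = l), Finset.card_product, Finset.filter_eq',
      if_pos hl, Finset.card_singleton, mul_one]
  rw [e]
  obtain ⟨r, hr⟩ := h1
  exact h.odd _ ⟨r, hr⟩ (by omega) h3

theorem CoefExAux_pos (h : Mom D t w) {τ : ℝ} (h0 : 0 ≤ τ) (h1 : τ ≤ 1)
    (P : Finset (Fin k × Fin k)) (z : Fin k × Fin k → ℝ) (hz : ∀ p, |z p| ≤ 1) :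
    0 ≤ ∑ M ∈ P.powerset, τ ^ M.card * (CoefExAux_R t w Prod.fst M *
      CoefExAux_R t w Prod.snd M) * ∏ p ∈ M, z p := by
  have e : ∀ M : Finset (Fin k × Fin k), τ ^ M.card * (CoefExAux_R t w Prod.fst M *
      CoefExAux_R t w Prod.snd M) * ∏ p ∈ M, z p = ∑ u : Fin k → ι, ∑ v : Fin k → ι,
        (∏ l, w (u l)) * (∏ l, w (v l)) * ∏ p ∈ M, (τ * (t (u p.1) * t (v p.2) * z p)) := by
    intro M
    unfold CoefExAux_R
    rw [Finset.sum_mul_sum, Finset.mul_sum, Finset.sum_mul]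
    refine Finset.sum_congr rfl fun u _ => ?_
    rw [Finset.mul_sum, Finset.sum_mul]
    refine Finset.sum_congr rfl fun v _ => ?_
    simp only [Finset.prod_mul_distrib, Finset.prod_const]
    ring
  simp only [e]
  rw [Finset.sum_comm]
  refine Finset.sum_nonneg fun u _ => ?_
  rw [Finset.sum_comm]
  refine Finset.sum_nonneg fun v _ => ?_
  rw [← Finset.mul_sum, ← Finset.prod_one_add]
  refine mul_nonneg (mul_nonneg (Finset.prod_nonneg fun _ _ => h.nonneg _)
    (Finset.prod_nonneg fun _ _ => h.nonneg _)) (Finset.prod_nonneg fun p _ => ?_)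
  have a1 : |τ * (t (u p.1) * t (v p.2) * z p)| ≤ 1 := by
    rw [abs_mul, abs_mul, abs_mul, abs_of_nonneg h0]
    exact mul_le_one₀ h1 (by positivity) (mul_le_one₀ (mul_le_one₀ (h.abs_le _) (abs_nonneg _)
      (h.abs_le _)) (abs_nonneg _) (hz p))
  linarith [(abs_le.1 a1).1]

theorem CoefExAux_sum (k : ℕ) : ∑ I : Finset (Fin k), ((k : ℝ)⁻¹) ^ I.card ≤ 3 := by
  have e : ∑ I : Finset (Fin k), ((k : ℝ)⁻¹) ^ I.card = (1 + (k : ℝ)⁻¹) ^ k := by
    have h1 := Finset.prod_one_add (f := fun _ : Fin k => (k : ℝ)⁻¹) Finset.univ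
    simpa using h1.symm
  rw [e]
  exact Real.one_add_inv_pow_le_exp.trans (by linarith [Real.exp_one_lt_d9])

end aux

theorem coefEx {D : ℕ} {ι : Type} [Fintype ι] {t w : ι → ℝ} (h : Mom D t w) {n : ℕ}
    (hn : 1 ≤ n) : ∃ a, Coef (n ^ D) ((∑ i, w i * t i) ^ 2 / (n : ℝ) ^ 2) a := by
  have hn' : (1 : ℝ) ≤ n := by exact_mod_cast hn
  have x0 : 0 ≤ (n : ℝ)⁻¹ := by positivity
  have x1 : (n : ℝ)⁻¹ ≤ 1 := inv_le_one_of_one_le₀ hn'
  have t0 : 0 ≤ (n : ℝ)⁻¹ ^ 2 := by positivity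
  have t1 : (n : ℝ)⁻¹ ^ 2 ≤ 1 := pow_le_one₀ x0 x1
  have hb : ∀ M : Finset (Fin (n ^ D) × Fin (n ^ D)),
      |((n : ℝ)⁻¹ ^ 2) ^ M.card * (CoefExAux_R t w Prod.fst M * CoefExAux_R t w Prod.snd M)| ≤
        ((n : ℝ)⁻¹ ^ 2) ^ M.card := by
    intro M
    rw [abs_mul, abs_mul, abs_of_nonneg (pow_nonneg t0 _)]
    exact mul_le_of_le_one_right (pow_nonneg t0 _)
      (mul_le_one₀ (CoefExAux_abs h _ _) (abs_nonneg _) (CoefExAux_abs h _ _))
  refine ⟨fun M => ((n : ℝ)⁻¹ ^ 2) ^ M.card *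
    (CoefExAux_R t w Prod.fst M * CoefExAux_R t w Prod.snd M),
    CoefExAux_pos h t0 t1, ?_, fun M => (hb M).trans (pow_le_one₀ t0 t1), fun p => ?_, ?_⟩
  · simp [CoefExAux_empty h]
  · rw [CoefExAux_single h, CoefExAux_single h, Finset.card_singleton, pow_one, inv_pow]
    ring
  · have k0 : 0 ≤ (((n ^ D : ℕ) : ℝ))⁻¹ := by positivity
    have key : ∀ I J : Finset (Fin (n ^ D)),
        (if Odd I.card ∧ Odd J.card ∧ 1 < I.card ∧ 1 < J.card then
          |((n : ℝ)⁻¹ ^ 2) ^ (I ×ˢ J).card * (CoefExAux_R t w Prod.fst (I ×ˢ J) *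
            CoefExAux_R t w Prod.snd (I ×ˢ J))| else 0) ≤
          (((n ^ D : ℕ) : ℝ))⁻¹ ^ I.card * (((n ^ D : ℕ) : ℝ))⁻¹ ^ J.card := by
      intro I J
      split_ifs with hc
      · obtain ⟨c1, c2, c3, c4⟩ := hc
        by_cases hJ : J.card ≤ D
        · rw [CoefExAux_fst h (Finset.card_pos.1 (by omega)) c2 c4 hJ]
          simp only [zero_mul, mul_zero, abs_zero]
          positivity
        by_cases hI : I.card ≤ D
        · rw [CoefExAux_snd h (Finset.card_pos.1 (by omega)) c1 c3 hI]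
          simp only [mul_zero, abs_zero]
          positivity
        refine (hb _).trans ?_
        rw [Nat.cast_pow, ← inv_pow, ← pow_mul, ← pow_mul, ← pow_mul, ← pow_add,
          Finset.card_product]
        refine pow_le_pow_of_le_one x0 x1 ?_
        have b1 : D * I.card ≤ J.card * I.card := Nat.mul_le_mul_right _ (by omega)
        have b2 : D * J.card ≤ I.card * J.card := Nat.mul_le_mul_right _ (by omega)
        rw [mul_comm J.card] at b1
        omega
      · positivity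
    refine (Finset.sum_le_sum fun I _ => Finset.sum_le_sum fun J _ => key I J).trans ?_
    rw [← Finset.sum_mul_sum]
    have s1 := CoefExAux_sum (n ^ D)
    have s0 : 0 ≤ ∑ I : Finset (Fin (n ^ D)), (((n ^ D : ℕ) : ℝ))⁻¹ ^ I.card :=
      Finset.sum_nonneg fun _ _ => by positivity
    nlinarith

end Vale.Agent.P111
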