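import Vale.Agent.P111.Base

namespace Vale.Agent.P111

open Finset
open scoped BigOperators

theorem InclAux_one {κ : Type*} [Fintype κ] (Q : κ → Prop) [DecidablePred Q] (l₀ : κ) (x : ℝ)
    (h : ∀ l, Q l → l = l₀) : ∑ l, (if Q l then x else 0) = if Q l₀ then x else 0 :=
  Finset.sum_eq_single l₀ (fun l _ hl => if_neg fun hq => hl (h l hq)) fun h => absurd (mem_univ _) h

theorem InclAux_pt {k : ℕ} (M : Finset (Fin k × Fin k)) (x : ℝ) :
    ∑ p, (if M = {p} then x else 0) =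
      ∑ l : Fin k, (if M ⊆ {l} ×ˢ univ ∧ Odd M.card then x else 0)
      + ∑ j : Fin k, (if M ⊆ univ ×ˢ {j} ∧ Odd M.card then x else 0)
      - (if Odd M.card then x else 0)
      + if Odd M.card ∧ (∀ l : Fin k, ¬ M ⊆ {l} ×ˢ univ) ∧ ∀ j : Fin k, ¬ M ⊆ univ ×ˢ {j}
        then x else 0 := by
  by_cases ho : Odd M.card
  · obtain ⟨p, hp⟩ := Finset.card_pos.1 ho.pos
    have a1 : ∀ l : Fin k, M ⊆ {l} ×ˢ univ → l = p.1 := fun l h =>
      (mem_singleton.1 (mem_product.1 (h hp)).1).symm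
    have a2 : ∀ j : Fin k, M ⊆ univ ×ˢ {j} → j = p.2 := fun l h =>
      (mem_singleton.1 (mem_product.1 (h hp)).2).symm
    have a3 : M = {p} ↔ M ⊆ {p.1} ×ˢ univ ∧ M ⊆ univ ×ˢ {p.2} := by
      constructor
      · intro h
        rw [h]
        simp
      · rintro ⟨h1, h2⟩
        refine Finset.eq_singleton_iff_unique_mem.2 ⟨hp, fun q hq => Prod.ext ?_ ?_⟩
        exacts [mem_singleton.1 (mem_product.1 (h1 hq)).1, mem_singleton.1 (mem_product.1 (h2 hq)).2]
    have a4 : (∀ l : Fin k, ¬ M ⊆ {l} ×ˢ univ) ↔ ¬ M ⊆ {p.1} ×ˢ univ :=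
      ⟨fun h => h _, fun h l hl => h (a1 l hl ▸ hl)⟩
    have a5 : (∀ j : Fin k, ¬ M ⊆ univ ×ˢ {j}) ↔ ¬ M ⊆ univ ×ˢ {p.2} :=
      ⟨fun h => h _, fun h l hl => h (a2 l hl ▸ hl)⟩
    rw [InclAux_one (fun q => M = {q}) p x fun q hq => (mem_singleton.1 (hq ▸ hp)).symm,
      InclAux_one _ p.1 x fun l h => a1 l h.1, InclAux_one _ p.2 x fun l h => a2 l h.1]
    simp only [a3, a4, a5, ho, and_true, true_and, if_true]
    by_cases h1 : M ⊆ {p.1} ×ˢ univ <;> by_cases h2 : M ⊆ univ ×ˢ {p.2} <;>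
      simp only [h1, h2, and_true, and_false, not_true, not_false_iff, if_true, if_false] <;> ring
  · have : ∀ p, M ≠ {p} := fun p h => ho (by simp [h])
    simp [ho, this]

theorem InclAux_sum {k : ℕ} (P : Finset (Fin k × Fin k)) (f : Finset (Fin k × Fin k) → ℝ) :
    ∑ M ∈ P.powerset with Odd M.card, f M = ∑ M, if M ⊆ P ∧ Odd M.card then f M else 0 := by
  rw [← Finset.sum_filter]
  refine Finset.sum_congr ?_ fun _ _ => rfl
  ext M
  simp

theorem incl {k : ℕ} {α : ℝ} {a : Finset (Fin k × Fin k) → ℝ} (ha : Coef k α a)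
    (i : Finset (Fin k × Fin k) → ℝ) {V B₁ B₂ B₃ B₄ : ℝ} (h3 : 0 ≤ B₃) (h4 : 0 ≤ B₄)
    (hs : ∀ p, i {p} = V)
    (h1 : |∑ M ∈ (univ : Finset (Fin k × Fin k)).powerset with Odd M.card, a M * i M| ≤ B₁)
    (hr : ∀ l : Fin k, |∑ M ∈ (({l} : Finset (Fin k)) ×ˢ (univ : Finset (Fin k))).powerset
      with Odd M.card, a M * i M| ≤ B₂)
    (hc : ∀ j : Fin k, |∑ M ∈ ((univ : Finset (Fin k)) ×ˢ ({j} : Finset (Fin k))).powerset
      with Odd M.card, a M * i M| ≤ B₂)
    (hb : ∀ M, M.Nonempty → |i M| ≤ B₃)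
    (hn : ∀ M, (¬ ∃ I J : Finset (Fin k), M = I ×ˢ J) → |i M| ≤ B₄) :
    (k : ℝ) ^ 2 * |α| * |V| ≤ B₁ + 2 * k * B₂ + 9 * B₃ + 2 ^ (k ^ 2) * B₄ := by
  simp only [InclAux_sum, subset_univ, true_and] at h1 hr hc
  have e := Finset.sum_congr (s₁ := univ) rfl fun M _ => InclAux_pt M (a M * i M)
  rw [sum_add_distrib, sum_sub_distrib, sum_add_distrib, sum_comm, sum_comm (s := univ) (t := univ)
    (f := fun M (l : Fin k) => if M ⊆ {l} ×ˢ univ ∧ Odd M.card then a M * i M else 0),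
    sum_comm (s := univ) (t := univ)
    (f := fun M (j : Fin k) => if M ⊆ univ ×ˢ {j} ∧ Odd M.card then a M * i M else 0)] at e
  simp only [sum_ite_eq', mem_univ, if_true, hs, ha.single, sum_const, card_univ,
    Fintype.card_prod, Fintype.card_fin, nsmul_eq_mul] at e
  have r1 := (abs_sum_le_sum_abs _ _).trans (sum_le_sum fun l (_ : l ∈ univ) => hr l)
  have r2 := (abs_sum_le_sum_abs _ _).trans (sum_le_sum fun l (_ : l ∈ univ) => hc l)
  simp only [sum_const, card_univ, Fintype.card_fin, nsmul_eq_mul] at r1 r2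
  have pt : ∀ M : Finset (Fin k × Fin k),
      |if Odd M.card ∧ (∀ l : Fin k, ¬ M ⊆ {l} ×ˢ univ) ∧ ∀ j : Fin k, ¬ M ⊆ univ ×ˢ {j}
        then a M * i M else 0| ≤ B₄ + B₃ * ∑ I : Finset (Fin k), ∑ J : Finset (Fin k),
        if M = I ×ˢ J then (if Odd I.card ∧ Odd J.card ∧ 1 < I.card ∧ 1 < J.card
          then |a (I ×ˢ J)| else 0) else 0 := fun M => by
    have n1 : ∀ I J : Finset (Fin k), 0 ≤ if M = I ×ˢ J then
        (if Odd I.card ∧ Odd J.card ∧ 1 < I.card ∧ 1 < J.card then |a (I ×ˢ J)| else 0) else 0 :=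
      fun I J => by split_ifs <;> positivity
    have n2 := mul_nonneg h3 (sum_nonneg fun I (_ : I ∈ univ) =>
      sum_nonneg fun J (_ : J ∈ univ) => n1 I J)
    split_ifs with hM
    · rw [abs_mul]
      by_cases hx : ∃ I J : Finset (Fin k), M = I ×ˢ J
      · obtain ⟨I, J, hIJ⟩ := hx
        have ho := hM.1
        rw [hIJ, card_product, Nat.odd_mul] at ho
        have hI : 1 < I.card := by
          by_contra hI
          obtain ⟨l, hl⟩ := card_eq_one.1 (le_antisymm (not_lt.1 hI) ho.1.pos)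
          exact hM.2.1 l (by rw [hIJ, hl]; exact product_subset_product_right (subset_univ _))
        have hJ : 1 < J.card := by
          by_contra hJ
          obtain ⟨l, hl⟩ := card_eq_one.1 (le_antisymm (not_lt.1 hJ) ho.2.pos)
          exact hM.2.2 l (by rw [hIJ, hl]; exact product_subset_product_left (subset_univ _))
        have m1 := (single_le_sum (fun J _ => n1 I J) (mem_univ J)).trans
          (single_le_sum (fun I _ => sum_nonneg fun J (_ : J ∈ univ) => n1 I J) (mem_univ I))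
        rw [if_pos hIJ, if_pos ⟨ho.1, ho.2, hI, hJ⟩, ← hIJ] at m1
        have m2 := mul_le_mul_of_nonneg_left (hb M (card_pos.1 hM.1.pos)) (abs_nonneg (a M))
        have m3 := mul_le_mul_of_nonneg_left m1 h3
        linarith
      · have m1 := mul_le_mul (ha.le_one M) (hn M hx) (abs_nonneg _) zero_le_one
        linarith
    · rw [abs_zero]
      linarith
  have r3 := (abs_sum_le_sum_abs _ _).trans (sum_le_sum fun M (_ : M ∈ univ) => pt M)
  rw [sum_add_distrib, ← mul_sum, sum_comm] at r3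
  simp only [sum_comm (s := (univ : Finset (Finset (Fin k × Fin k)))), sum_ite_eq', mem_univ,
    if_true, sum_const, card_univ, Fintype.card_finset, Fintype.card_prod, Fintype.card_fin,
    nsmul_eq_mul] at r3
  have r4 := mul_le_mul_of_nonneg_left ha.box h3
  have e2 : (k : ℝ) ^ 2 * |α| * |V| = |((k * k : ℕ) : ℝ) * (α * V)| := by
    rw [abs_mul, abs_mul, Nat.abs_cast]
    push_cast
    ring
  rw [e2, e, pow_two k]
  push_cast at r3
  rw [abs_le]
  constructor <;> linarith [(abs_le.1 r1).1, (abs_le.1 r1).2, (abs_le.1 r2).1, (abs_le.1 r2).2,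
    (abs_le.1 h1).1, (abs_le.1 h1).2, (abs_le.1 r3).1, (abs_le.1 r3).2]

end Vale.Agent.P111
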