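import Vale.Agent.P111.Base

namespace Vale.Agent.P111

open Finset
open scoped BigOperators

section
variable {A B : Type} [AddCommGroup A] [Fintype A] [AddCommGroup B] [Fintype B]
  {σ : A → B → ℝ} {k : ℕ}

/-- Column sums. -/
def KappaAux_u (M : Finset (Fin k × Fin k)) (j : Fin k) (S : Fin k → A) : A :=
  ∑ l ∈ univ.filter (fun l => (l, j) ∈ M), S l

omit [Fintype A] in
theorem KappaAux_u_shift (M : Finset (Fin k × Fin k)) (j l : Fin k) (S : Fin k → A) (a : A) :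
    KappaAux_u M j (S + Pi.single l a) = KappaAux_u M j S + if (l, j) ∈ M then a else 0 := by
  unfold KappaAux_u
  simp only [Pi.add_apply, Finset.sum_add_distrib, Finset.sum_pi_single', Finset.mem_filter,
    Finset.mem_univ, true_and]

omit [Fintype A] in
theorem KappaAux_prod (hσ : IsBi σ) (M : Finset (Fin k × Fin k)) (S : Fin k → A) :
    𝔼 g, sigM σ M S g = ∏ j, 𝔼 b, σ (KappaAux_u M j S) b := by
  rw [← Fou.expect_prod_pi]
  refine Finset.expect_congr rfl fun g _ => ?_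
  unfold sigM KappaAux_u
  simp only [hσ.sum_left]
  symm
  rw [Finset.prod_sigma']
  refine Finset.prod_bij' (fun x _ => (x.2, x.1)) (fun p _ => ⟨p.2, p.1⟩) ?_ ?_ ?_ ?_ ?_
  · intro x hx
    exact (Finset.mem_filter.1 (Finset.mem_sigma.1 hx).2).2
  · intro p hp
    exact Finset.mem_sigma.2 ⟨Finset.mem_univ _, Finset.mem_filter.2 ⟨Finset.mem_univ _, hp⟩⟩
  · intro x _
    rfl
  · intro p _
    rfl
  · intro x _
    rfl

theorem KappaAux_avg (M : Finset (Fin k × Fin k)) {j l : Fin k} (h : (l, j) ∈ M)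
    (ψ : (Fin k → A) → ℝ) (hψ : ∀ S a, ψ (S + Pi.single l a) = ψ S) :
    𝔼 S, (𝔼 b, σ (KappaAux_u M j S) b) * ψ S = kap σ * 𝔼 S, ψ S := by
  have h1 : ∀ a : A, 𝔼 S, (𝔼 b, σ (KappaAux_u M j S) b) * ψ S =
      𝔼 S, (𝔼 b, σ (KappaAux_u M j S + a) b) * ψ S := fun a => by
    rw [← Fou.expect_add_right (fun S => (𝔼 b, σ (KappaAux_u M j S) b) * ψ S) (Pi.single l a)]
    simp only [KappaAux_u_shift, if_pos h, hψ]
  have h2 : 𝔼 S, (𝔼 b, σ (KappaAux_u M j S) b) * ψ S =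
      𝔼 a : A, 𝔼 S, (𝔼 b, σ (KappaAux_u M j S + a) b) * ψ S := by
    simp only [← h1]
    rw [Finset.expect_const Finset.univ_nonempty]
  rw [h2, Finset.expect_comm, Finset.mul_expect]
  refine Finset.expect_congr rfl fun S _ => ?_
  rw [← Finset.expect_mul, Fou.expect_add_left (fun a => 𝔼 b, σ a b)]
  rfl

theorem KappaAux_one (M : Finset (Fin k × Fin k)) {j l : Fin k} (h : (l, j) ∈ M) :
    𝔼 S, 𝔼 b, σ (KappaAux_u M j S) b = kap σ := by
  have h1 := KappaAux_avg (σ := σ) M h (fun _ => 1) (fun _ _ => rfl)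
  simpa only [mul_one, Finset.expect_const Finset.univ_nonempty] using h1

omit [Fintype A] in
theorem KappaAux_sub (hσ : IsBi σ) (M : Finset (Fin k × Fin k)) (S : Fin k → A)
    (T : Finset (Fin k)) :
    𝔼 g, sigM σ M S g ≤ ∏ j ∈ T, 𝔼 b, σ (KappaAux_u M j S) b := by
  rw [KappaAux_prod hσ]
  exact Finset.prod_le_prod_of_subset_of_le_one (Finset.subset_univ T)
    (fun j _ => hσ.expect_right_nonneg _) fun j _ _ => hσ.expect_right_le_one _

theorem KappaAux_two (hσ : IsBi σ) (M : Finset (Fin k × Fin k)) {j j' l l' : Fin k}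
    (h : (l, j) ∈ M) (h' : (l, j') ∉ M) (h'' : (l', j') ∈ M) : kap (sigM σ M) ≤ kap σ ^ 2 := by
  have hne : j ≠ j' := fun e => h' (e ▸ h)
  have h1 := KappaAux_avg (σ := σ) M h (fun S => 𝔼 b, σ (KappaAux_u M j' S) b) (fun S a => by
    simp only [KappaAux_u_shift, if_neg h', add_zero])
  rw [KappaAux_one M h'', ← pow_two] at h1
  rw [← h1]
  refine Finset.expect_le_expect fun S _ => ?_
  have h2 := KappaAux_sub hσ M S {j, j'}
  rwa [Finset.prod_pair hne] at h2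

end

theorem kap_sigM_le {A B : Type} [AddCommGroup A] [Fintype A] [AddCommGroup B] [Fintype B]
    {σ : A → B → ℝ} (hσ : IsBi σ) {k : ℕ} {M : Finset (Fin k × Fin k)} (hM : M.Nonempty) :
    kap (sigM σ M) ≤ kap σ := by
  obtain ⟨⟨l, j⟩, h⟩ := hM
  rw [← KappaAux_one (σ := σ) M h]
  refine Finset.expect_le_expect fun S _ => ?_
  have h2 := KappaAux_sub hσ M S {j}
  rwa [Finset.prod_singleton] at h2

theorem kap_sigM_le_sq {A B : Type} [AddCommGroup A] [Fintype A] [AddCommGroup B] [Fintype B]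
    {σ : A → B → ℝ} (hσ : IsBi σ) {k : ℕ} {M : Finset (Fin k × Fin k)}
    (hM : ¬ ∃ I J : Finset (Fin k), M = I ×ˢ J) : kap (sigM σ M) ≤ kap σ ^ 2 := by
  by_contra hc
  refine hM ⟨M.image Prod.fst, M.image Prod.snd, Finset.Subset.antisymm
    Finset.subset_product fun p hp => ?_⟩
  obtain ⟨h1, h2⟩ := Finset.mem_product.1 hp
  obtain ⟨⟨l, j⟩, h3, h4⟩ := Finset.mem_image.1 h1
  obtain ⟨⟨l', j'⟩, h5, h6⟩ := Finset.mem_image.1 h2
  obtain ⟨a, b⟩ := p
  simp only at h4 h6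
  subst h4 h6
  by_contra h7
  exact hc (KappaAux_two hσ M h3 h7 h5)

end Vale.Agent.P111
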