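import Vale.Agent.P111.OddTest
import Vale.Agent.P111.Kappa
import Vale.Agent.P111.Incl

/-! The halving step. -/

namespace Vale.Agent.P111

open Finset
open scoped BigOperators

theorem expect_eval {A : Type} [Fintype A] [Nonempty A] {k : ℕ} (f : A → ℝ) (l : Fin k) :
    𝔼 S : Fin k → A, f (S l) = 𝔼 a, f a := by
  have h := Fou.expect_prod_pi (ι := Fin k) (Ω := A) fun i a => if i = l then f a else 1
  simp only [Finset.prod_ite_eq', Finset.mem_univ, if_true] at h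
  rw [h, Finset.prod_eq_single l]
  · simp
  · intro i _ hi
    simp [hi]
  · simp

theorem lift_avg {E : Type*} [AddCommGroup E] [Module ℝ E] {k : ℕ} {Λ : ℝ} {v : E}
    {D : (Fin k → ZMod 2) → E} {l : Fin k}
    (h : v = (Λ / 2 ^ k) • ∑ ε : Fin k → ZMod 2, sg (ε l) • D ε) (φ : E →ₗ[ℝ] ℝ) :
    Λ * 𝔼 ε : Fin k → ZMod 2, sg (ε l) * φ (D ε) = φ v := by
  rw [h, expect_cube]
  simp only [map_smul, map_sum, smul_eq_mul]
  ring

theorem odd_le_even {k : ℕ} {α : ℝ} {a : Finset (Fin k × Fin k) → ℝ} (ha : Coef k α a)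
    (P : Finset (Fin k × Fin k)) (z : Fin k × Fin k → ℝ) (hz : ∀ p, |z p| ≤ 1) :
    |∑ M ∈ P.powerset with Odd M.card, a M * ∏ p ∈ M, z p| ≤
      ∑ M ∈ P.powerset with ¬ Odd M.card, a M * ∏ p ∈ M, z p := by
  have h1 := ha.pos P z hz
  have h2 := ha.pos P (fun p => -z p) (by simpa using hz)
  rw [← Finset.sum_filter_add_sum_filter_not _ fun M => Odd M.card] at h1 h2
  have e1 : ∑ M ∈ P.powerset with Odd M.card, a M * ∏ p ∈ M, -z p =
      -∑ M ∈ P.powerset with Odd M.card, a M * ∏ p ∈ M, z p := by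
    rw [← Finset.sum_neg_distrib]
    refine Finset.sum_congr rfl fun M hM => ?_
    rw [Finset.prod_neg, (Finset.mem_filter.1 hM).2.neg_one_pow]
    ring
  have e2 : ∑ M ∈ P.powerset with ¬ Odd M.card, a M * ∏ p ∈ M, -z p =
      ∑ M ∈ P.powerset with ¬ Odd M.card, a M * ∏ p ∈ M, z p := by
    refine Finset.sum_congr rfl fun M hM => ?_
    rw [Finset.prod_neg, (Nat.not_odd_iff_even.1 (Finset.mem_filter.1 hM).2).neg_one_pow]
    ring
  rw [e1, e2] at h2
  rw [abs_le]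
  constructor <;> linarith

theorem even_mean_le {A B : Type} [AddCommGroup A] [Fintype A] [AddCommGroup B] [Fintype B]
    {σ : A → B → ℝ} (hσ : IsBi σ) {k : ℕ} {α : ℝ} {a : Finset (Fin k × Fin k) → ℝ}
    (ha : Coef k α a) (hκ : 2 ^ (k ^ 2) * kap σ ≤ 1) (P : Finset (Fin k × Fin k))
    (e : Fin k × Fin k → ℝ) (he : ∀ p, |e p| ≤ 1) :
    𝔼 S : Fin k → A, 𝔼 g : Fin k → B,
      ∑ M ∈ P.powerset with ¬ Odd M.card, a M * ∏ p ∈ M, (e p * σ (S p.1) (g p.2)) ≤ 2 := by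
  have e1 : 𝔼 S : Fin k → A, 𝔼 g : Fin k → B,
      ∑ M ∈ P.powerset with ¬ Odd M.card, a M * ∏ p ∈ M, (e p * σ (S p.1) (g p.2)) =
      ∑ M ∈ P.powerset with ¬ Odd M.card, a M * (∏ p ∈ M, e p) * kap (sigM σ M) := by
    simp only [Finset.expect_sum_comm, kap, sigM, Finset.mul_expect, Finset.prod_mul_distrib,
      mul_assoc]
  rw [e1]
  have hk := hσ.kap_nonneg
  have hb : ∀ M : Finset (Fin k × Fin k), a M * (∏ p ∈ M, e p) * kap (sigM σ M) ≤
      (if M = ∅ then 1 else 0) + kap σ := by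
    intro M
    have h1 : |a M * ∏ p ∈ M, e p| ≤ 1 := by
      rw [abs_mul, Finset.abs_prod]
      exact mul_le_one₀ (ha.le_one M) (Finset.prod_nonneg fun _ _ => abs_nonneg _)
        (Finset.prod_le_one (fun _ _ => abs_nonneg _) fun p _ => he p)
    have h2 := (hσ.sigM M).kap_nonneg
    have h3 : a M * (∏ p ∈ M, e p) * kap (sigM σ M) ≤ kap (sigM σ M) :=
      mul_le_of_le_one_left h2 ((le_abs_self _).trans h1)
    split_ifs with h
    · linarith [(hσ.sigM M).kap_le_one]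
    · linarith [kap_sigM_le hσ (Finset.nonempty_iff_ne_empty.2 h)]
  calc _ ≤ ∑ M ∈ P.powerset with ¬ Odd M.card, ((if M = ∅ then 1 else 0) + kap σ) :=
        Finset.sum_le_sum fun M _ => hb M
    _ ≤ ∑ M : Finset (Fin k × Fin k), ((if M = ∅ then 1 else 0) + kap σ) :=
        Finset.sum_le_sum_of_subset_of_nonneg (Finset.subset_univ _) fun M _ _ => by
          split_ifs <;> linarith
    _ = 1 + 2 ^ (k ^ 2) * kap σ := by
        rw [Finset.sum_add_distrib, Finset.sum_ite_eq']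
        simp [sq]
    _ ≤ 2 := by linarith

theorem oddP {E F : Type*} [AddCommGroup E] [Module ℝ E] [AddCommGroup F] [Module ℝ F]
    {β : E →ₗ[ℝ] F →ₗ[ℝ] ℝ} {k : ℕ} (hk : 0 < k) {c : ℝ} {U : Set E} {W : Set F} (hc : 0 ≤ c)
    (hU : Symm U) (hW : Symm W) (hB : Bd β (1 / (2 * k)) c 1 U W)
    {A B : Type} [AddCommGroup A] [Fintype A] [AddCommGroup B] [Fintype B] {σ : A → B → ℝ}
    (hσ : IsBi σ) {α : ℝ} {a : Finset (Fin k × Fin k) → ℝ} (ha : Coef k α a)
    (hκ : 2 ^ (k ^ 2) * kap σ ≤ 1) (P : Finset (Fin k × Fin k))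
    (e : Fin k × Fin k → ℝ) (he : ∀ p, |e p| ≤ 1) (X : (Fin k → A) → E) (Y : (Fin k → B) → F)
    (hX : ∀ S, X S ∈ U) (hY : ∀ g, Y g ∈ W) :
    |𝔼 S : Fin k → A, 𝔼 g : Fin k → B,
      (∑ M ∈ P.powerset with Odd M.card, a M * ∏ p ∈ M, (e p * σ (S p.1) (g p.2))) *
        β (X S) (Y g)| ≤ 4 * (c * kap σ ^ (1 / (2 * k) : ℝ)) := by
  have hk' : (0 : ℝ) < k := by exact_mod_cast hk
  have h := oddTest (by positivity) hc hU hW hB hσ hk
    (fun z => ∑ M ∈ P.powerset with Odd M.card, a M * ∏ p ∈ M, (e p * z p)) (by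
      intro z
      rw [← Finset.sum_neg_distrib]
      refine Finset.sum_congr rfl fun M hM => ?_
      simp only [Pi.neg_apply, mul_neg]
      rw [Finset.prod_neg, (Finset.mem_filter.1 hM).2.neg_one_pow]
      ring) X Y hX hY
  refine h.trans ?_
  have h4 : ((4 : ℝ) ^ k * kap σ) ^ (1 / (2 * k) : ℝ) = 2 * kap σ ^ (1 / (2 * k) : ℝ) := by
    rw [Real.mul_rpow (by positivity) hσ.kap_nonneg]
    congr 1
    rw [show (4 : ℝ) ^ k = 2 ^ ((2 * k : ℕ) : ℝ) by
      rw [Real.rpow_natCast, pow_mul]; norm_num, ← Real.rpow_mul (by norm_num)]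
    push_cast
    rw [mul_one_div_cancel (by positivity), Real.rpow_one]
  have h2 : 𝔼 S : Fin k → A, 𝔼 g : Fin k → B,
      |∑ M ∈ P.powerset with Odd M.card, a M * ∏ p ∈ M, (e p * σ (S p.1) (g p.2))| ≤ 2 := by
    refine le_trans ?_ (even_mean_le hσ ha hκ P e he)
    refine Finset.expect_le_expect fun S _ => Finset.expect_le_expect fun g _ => ?_
    refine odd_le_even ha P _ fun p => ?_
    rw [abs_mul, hσ.abs_eq, mul_one]
    exact he p
  rw [h4]
  have h5 : 0 ≤ c * (2 * kap σ ^ (1 / (2 * k) : ℝ)) :=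
    mul_nonneg hc (mul_nonneg zero_le_two (Real.rpow_nonneg hσ.kap_nonneg _))
  calc _ ≤ c * (2 * kap σ ^ (1 / (2 * k) : ℝ)) * 2 := mul_le_mul_of_nonneg_left h2 h5
    _ = _ := by ring

section main

variable {E F : Type*} [AddCommGroup E] [Module ℝ E] [AddCommGroup F] [Module ℝ F]
  {A B : Type} [Fintype A] [Fintype B] {k : ℕ}

/-- The correlation of the lifted test with the monomial `M`. -/
noncomputable def corr (β : E →ₗ[ℝ] F →ₗ[ℝ] ℝ) (Λ : ℝ) (σ : A → B → ℝ)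
    (D : (Fin k → A) → (Fin k → ZMod 2) → E) (D' : (Fin k → B) → (Fin k → ZMod 2) → F)
    (M : Finset (Fin k × Fin k)) : ℝ :=
  Λ ^ 2 * 𝔼 ε : Fin k → ZMod 2, 𝔼 η : Fin k → ZMod 2, 𝔼 S : Fin k → A, 𝔼 g : Fin k → B,
    (∏ p ∈ M, (sg (ε p.1) * sg (η p.2) * σ (S p.1) (g p.2))) * β (D S ε) (D' g η)

theorem prod_row {l : Fin k} {M : Finset (Fin k × Fin k)}
    (hM : M ⊆ ({l} : Finset (Fin k)) ×ˢ (univ : Finset (Fin k))) (ho : Odd M.card)
    (ε : Fin k → ZMod 2) : ∏ p ∈ M, sg (ε p.1) = sg (ε l) := by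
  rw [Finset.prod_congr rfl (g := fun _ => sg (ε l)), Finset.prod_const]
  · rcases Fou.zmod2 (ε l) with h | h <;> simp [h, ho.neg_one_pow]
  · intro p hp
    have := hM hp
    simp only [Finset.mem_product, Finset.mem_singleton] at this
    rw [this.1]

theorem prod_col {j : Fin k} {M : Finset (Fin k × Fin k)}
    (hM : M ⊆ (univ : Finset (Fin k)) ×ˢ ({j} : Finset (Fin k))) (ho : Odd M.card)
    (η : Fin k → ZMod 2) : ∏ p ∈ M, sg (η p.2) = sg (η j) := by
  rw [Finset.prod_congr rfl (g := fun _ => sg (η j)), Finset.prod_const]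
  · rcases Fou.zmod2 (η j) with h | h <;> simp [h, ho.neg_one_pow]
  · intro p hp
    have := hM hp
    simp only [Finset.mem_product, Finset.mem_singleton] at this
    rw [this.2]

theorem corr_row (β : E →ₗ[ℝ] F →ₗ[ℝ] ℝ) {Λ : ℝ} (σ : A → B → ℝ)
    {D : (Fin k → A) → (Fin k → ZMod 2) → E} (D' : (Fin k → B) → (Fin k → ZMod 2) → F)
    {x : A → E}
    (hD : ∀ S l, x (S l) = (Λ / 2 ^ k) • ∑ ε : Fin k → ZMod 2, sg (ε l) • D S ε)
    {l : Fin k} {M : Finset (Fin k × Fin k)}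
    (hM : M ⊆ ({l} : Finset (Fin k)) ×ˢ (univ : Finset (Fin k))) (ho : Odd M.card) :
    corr β Λ σ D D' M = Λ * 𝔼 η : Fin k → ZMod 2, 𝔼 S : Fin k → A, 𝔼 g : Fin k → B,
      (∏ p ∈ M, (sg (η p.2) * σ (S p.1) (g p.2))) * β (x (S l)) (D' g η) := by
  rw [corr, sq, mul_assoc]
  congr 1
  rw [Finset.expect_comm, Finset.mul_expect]
  refine Finset.expect_congr rfl fun η _ => ?_
  rw [Finset.expect_comm, Finset.mul_expect]
  refine Finset.expect_congr rfl fun S _ => ?_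
  rw [Finset.expect_comm, Finset.mul_expect]
  refine Finset.expect_congr rfl fun g _ => ?_
  have h := lift_avg (hD S l) (β.flip (D' g η))
  simp only [LinearMap.flip_apply] at h
  rw [← h, mul_left_comm]
  congr 1
  rw [Finset.mul_expect]
  refine Finset.expect_congr rfl fun ε _ => ?_
  simp only [mul_assoc, Finset.prod_mul_distrib, prod_row hM ho]
  ring

theorem corr_col (β : E →ₗ[ℝ] F →ₗ[ℝ] ℝ) {Λ : ℝ} (σ : A → B → ℝ)
    (D : (Fin k → A) → (Fin k → ZMod 2) → E) {D' : (Fin k → B) → (Fin k → ZMod 2) → F}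
    {y : B → F}
    (hD : ∀ g j, y (g j) = (Λ / 2 ^ k) • ∑ η : Fin k → ZMod 2, sg (η j) • D' g η)
    {j : Fin k} {M : Finset (Fin k × Fin k)}
    (hM : M ⊆ (univ : Finset (Fin k)) ×ˢ ({j} : Finset (Fin k))) (ho : Odd M.card) :
    corr β Λ σ D D' M = Λ * 𝔼 ε : Fin k → ZMod 2, 𝔼 S : Fin k → A, 𝔼 g : Fin k → B,
      (∏ p ∈ M, (sg (ε p.1) * σ (S p.1) (g p.2))) * β (D S ε) (y (g j)) := by
  rw [corr, sq, mul_assoc]
  congr 1
  rw [Finset.mul_expect]
  refine Finset.expect_congr rfl fun ε _ => ?_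
  rw [Finset.expect_comm, Finset.mul_expect]
  refine Finset.expect_congr rfl fun S _ => ?_
  rw [Finset.expect_comm, Finset.mul_expect]
  refine Finset.expect_congr rfl fun g _ => ?_
  have h := lift_avg (hD g j) (β (D S ε))
  rw [← h, mul_left_comm]
  congr 1
  rw [Finset.mul_expect]
  refine Finset.expect_congr rfl fun η _ => ?_
  simp only [Finset.prod_mul_distrib, prod_col hM ho]
  ring

theorem corr_single [Nonempty A] [Nonempty B] (β : E →ₗ[ℝ] F →ₗ[ℝ] ℝ) {Λ : ℝ} (σ : A → B → ℝ)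
    {D : (Fin k → A) → (Fin k → ZMod 2) → E} {D' : (Fin k → B) → (Fin k → ZMod 2) → F}
    {x : A → E} {y : B → F}
    (hD : ∀ S l, x (S l) = (Λ / 2 ^ k) • ∑ ε : Fin k → ZMod 2, sg (ε l) • D S ε)
    (hD' : ∀ g j, y (g j) = (Λ / 2 ^ k) • ∑ η : Fin k → ZMod 2, sg (η j) • D' g η)
    (p : Fin k × Fin k) :
    corr β Λ σ D D' {p} = 𝔼 a, 𝔼 b, σ a b * β (x a) (y b) := by
  rw [corr_row β σ D' hD (l := p.1) (by simp) (by simp)]
  rw [← expect_eval (fun a => 𝔼 b, σ a b * β (x a) (y b)) p.1]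
  rw [Finset.expect_comm, Finset.mul_expect]
  refine Finset.expect_congr rfl fun S _ => ?_
  rw [← expect_eval (fun b => σ (S p.1) b * β (x (S p.1)) (y b)) p.2]
  rw [Finset.expect_comm, Finset.mul_expect]
  refine Finset.expect_congr rfl fun g _ => ?_
  rw [← lift_avg (hD' g p.2) (β (x (S p.1))), mul_left_comm]
  congr 1
  rw [Finset.mul_expect]
  refine Finset.expect_congr rfl fun η _ => ?_
  simp only [Finset.prod_singleton]
  ring

theorem abs_mul_expect_le {G : Type} [Fintype G] [Nonempty G] {f : G → ℝ} {r b : ℝ} (hr : 0 ≤ r)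
    (h : ∀ g, |f g| ≤ b) : |r * 𝔼 g, f g| ≤ r * b := by
  rw [abs_mul, abs_of_nonneg hr]
  exact mul_le_mul_of_nonneg_left ((Finset.abs_expect_le _ _).trans
    (Finset.expect_le Finset.univ_nonempty fun g _ => h g)) hr

theorem abs_expect_le' {G : Type} [Fintype G] [Nonempty G] {f : G → ℝ} {b : ℝ}
    (h : ∀ g, |f g| ≤ b) : |𝔼 g, f g| ≤ b :=
  (Finset.abs_expect_le _ _).trans (Finset.expect_le Finset.univ_nonempty fun g _ => h g)

end main

theorem core {E F : Type*} [AddCommGroup E] [Module ℝ E] [AddCommGroup F] [Module ℝ F]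
    {β : E →ₗ[ℝ] F →ₗ[ℝ] ℝ} {k : ℕ} (hk : 0 < k) {α : ℝ} {a : Finset (Fin k × Fin k) → ℝ}
    (ha : Coef k α a) {Λ c : ℝ} (hΛ : 0 < Λ) (hc : 0 ≤ c)
    (hα : 2 * (14 * Λ ^ 2 + 8 * k * Λ) ≤ (k : ℝ) ^ 2 * α)
    {U U' : Set E} {W W' : Set F} (hUU : U ⊆ U') (hWW : W ⊆ W') (hU : Symm U') (hW : Symm W')
    (hL : Lift k Λ U U') (hL' : Lift k Λ W W') (hB : Bd β (1 / (2 * k)) c 1 U' W') :
    Bd β (1 / (2 * k)) (c / 2) (((1 / 2) ^ (k ^ 2)) ^ (2 * k)) U W := by
  intro A B _ _ _ _ σ hσ hκ x y hx hy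
  have hk' : (0 : ℝ) < k := by exact_mod_cast hk
  have hk1 : (1 : ℝ) ≤ k := by exact_mod_cast hk
  choose D hD1 hD2 using fun S : Fin k → A => hL (fun l => x (S l)) fun l => hx _
  choose D' hD1' hD2' using fun g : Fin k → B => hL' (fun l => y (g l)) fun l => hy _
  set δ : ℝ := 1 / (2 * k) with hδ
  have hδ0 : 0 ≤ δ := by positivity
  have hδ1 : δ ≤ 1 := by
    rw [hδ, div_le_one (by positivity)]
    linarith
  have hκ0 := hσ.kap_nonneg
  set t : ℝ := kap σ ^ δ with ht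
  have ht0 : 0 ≤ t := Real.rpow_nonneg hκ0 _
  have ht1 : 2 ^ (k ^ 2) * t ≤ 1 := by
    have h1 : t ≤ (1 / 2) ^ (k ^ 2) := by
      refine (Real.rpow_le_rpow hκ0 hκ hδ0).trans (le_of_eq ?_)
      rw [← Real.rpow_natCast _ (2 * k), ← Real.rpow_mul (by positivity), hδ]
      push_cast
      rw [mul_one_div_cancel (by positivity), Real.rpow_one]
    calc 2 ^ (k ^ 2) * t ≤ 2 ^ (k ^ 2) * (1 / 2) ^ (k ^ 2) := by gcongr
      _ = 1 := by rw [← mul_pow]; norm_num
  have hκ1 : 2 ^ (k ^ 2) * kap σ ≤ 1 := by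
    refine le_trans (mul_le_mul_of_nonneg_left ?_ (by positivity)) ht1
    simpa using Real.rpow_le_rpow_of_exponent_ge' hκ0 hσ.kap_le_one hδ0 hδ1
  have hgen : ∀ M, |corr β Λ σ D D' M| ≤ Λ ^ 2 * (c * kap (sigM σ M) ^ δ) := by
    intro M
    refine abs_mul_expect_le (sq_nonneg _) fun ε => abs_expect_le' fun η => ?_
    have h := hB _ _ (sigM σ M) (hσ.sigM M) (hσ.sigM M).kap_le_one (fun S => D S ε)
      (fun g => D' g η) (fun S => hD1 S ε) fun g => hD1' g η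
    have e : 𝔼 S : Fin k → A, 𝔼 g : Fin k → B,
        (∏ p ∈ M, (sg (ε p.1) * sg (η p.2) * σ (S p.1) (g p.2))) * β (D S ε) (D' g η) =
        (∏ p ∈ M, (sg (ε p.1) * sg (η p.2))) *
          𝔼 S : Fin k → A, 𝔼 g : Fin k → B, sigM σ M S g * β (D S ε) (D' g η) := by
      simp only [Finset.mul_expect, sigM, Finset.prod_mul_distrib, mul_assoc]
    rw [e, abs_mul, Finset.abs_prod]
    simpa [abs_mul] using h
  have key := incl ha (corr β Λ σ D D') (V := 𝔼 a, 𝔼 b, σ a b * β (x a) (y b))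
    (B₁ := Λ ^ 2 * (4 * (c * t))) (B₂ := Λ * (4 * (c * t))) (B₃ := Λ ^ 2 * (c * t))
    (B₄ := Λ ^ 2 * (c * t ^ 2)) (by positivity) (by positivity)
    (corr_single β σ hD2 hD2') ?_ ?_ ?_ ?_ ?_
  · have hα0 : 0 < (k : ℝ) ^ 2 * α := lt_of_lt_of_le (by positivity) hα
    have hα1 : 0 < α := (mul_pos_iff_of_pos_left (by positivity)).1 hα0
    rw [abs_of_pos hα1] at key
    have h4 : 2 ^ (k ^ 2) * (Λ ^ 2 * (c * t ^ 2)) ≤ Λ ^ 2 * (c * t) := by
      calc _ = (2 ^ (k ^ 2) * t) * (Λ ^ 2 * (c * t)) := by ring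
        _ ≤ _ := mul_le_of_le_one_left (by positivity) ht1
    refine le_of_mul_le_mul_left ?_ hα0
    calc _ ≤ (14 * Λ ^ 2 + 8 * k * Λ) * (c * t) := by linarith
      _ = (2 * (14 * Λ ^ 2 + 8 * k * Λ)) * (c / 2 * t) := by ring
      _ ≤ _ := mul_le_mul_of_nonneg_right hα (by positivity)
  · have e : ∑ M ∈ (univ : Finset (Fin k × Fin k)).powerset with Odd M.card,
        a M * corr β Λ σ D D' M =
        Λ ^ 2 * 𝔼 ε : Fin k → ZMod 2, 𝔼 η : Fin k → ZMod 2, 𝔼 S : Fin k → A, 𝔼 g : Fin k → B,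
          (∑ M ∈ (univ : Finset (Fin k × Fin k)).powerset with Odd M.card,
            a M * ∏ p ∈ M, (sg (ε p.1) * sg (η p.2) * σ (S p.1) (g p.2))) *
            β (D S ε) (D' g η) := by
      simp only [corr, Finset.sum_mul, Finset.expect_sum_comm, Finset.mul_sum, mul_assoc,
        ← Finset.mul_expect]
      exact Finset.sum_congr rfl fun M _ => by ring
    rw [e]
    refine abs_mul_expect_le (sq_nonneg _) fun ε => abs_expect_le' fun η => ?_
    exact oddP hk hc hU hW hB hσ ha hκ1 _ (fun p => sg (ε p.1) * sg (η p.2))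
      (fun p => by simp [abs_mul]) _ _ (fun S => hD1 S ε) fun g => hD1' g η
  · intro l
    have e : ∑ M ∈ (({l} : Finset (Fin k)) ×ˢ (univ : Finset (Fin k))).powerset with Odd M.card,
        a M * corr β Λ σ D D' M =
        Λ * 𝔼 η : Fin k → ZMod 2, 𝔼 S : Fin k → A, 𝔼 g : Fin k → B,
          (∑ M ∈ (({l} : Finset (Fin k)) ×ˢ (univ : Finset (Fin k))).powerset with Odd M.card,
            a M * ∏ p ∈ M, (sg (η p.2) * σ (S p.1) (g p.2))) * β (x (S l)) (D' g η) := by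
      simp only [Finset.sum_mul, Finset.expect_sum_comm, Finset.mul_sum, mul_assoc,
        ← Finset.mul_expect]
      refine Finset.sum_congr rfl fun M hM => ?_
      rw [Finset.mem_filter, Finset.mem_powerset] at hM
      rw [corr_row β σ D' hD2 hM.1 hM.2]
      ring
    rw [e]
    refine abs_mul_expect_le hΛ.le fun η => ?_
    exact oddP hk hc hU hW hB hσ ha hκ1 _ (fun p => sg (η p.2))
      (fun p => by simp) _ _ (fun S => hUU (hx _)) fun g => hD1' g η
  · intro j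
    have e : ∑ M ∈ ((univ : Finset (Fin k)) ×ˢ ({j} : Finset (Fin k))).powerset with Odd M.card,
        a M * corr β Λ σ D D' M =
        Λ * 𝔼 ε : Fin k → ZMod 2, 𝔼 S : Fin k → A, 𝔼 g : Fin k → B,
          (∑ M ∈ ((univ : Finset (Fin k)) ×ˢ ({j} : Finset (Fin k))).powerset with Odd M.card,
            a M * ∏ p ∈ M, (sg (ε p.1) * σ (S p.1) (g p.2))) * β (D S ε) (y (g j)) := by
      simp only [Finset.sum_mul, Finset.expect_sum_comm, Finset.mul_sum, mul_assoc,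
        ← Finset.mul_expect]
      refine Finset.sum_congr rfl fun M hM => ?_
      rw [Finset.mem_filter, Finset.mem_powerset] at hM
      rw [corr_col β σ D hD2' hM.1 hM.2]
      ring
    rw [e]
    refine abs_mul_expect_le hΛ.le fun ε => ?_
    exact oddP hk hc hU hW hB hσ ha hκ1 _ (fun p => sg (ε p.1))
      (fun p => by simp) _ _ (fun S => hD1 S ε) fun g => hWW (hy _)
  · intro M hM
    refine (hgen M).trans ?_
    have := Real.rpow_le_rpow (hσ.sigM M).kap_nonneg (kap_sigM_le hσ hM) hδ0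
    gcongr
  · intro M hM
    refine (hgen M).trans ?_
    have := Real.rpow_le_rpow (hσ.sigM M).kap_nonneg (kap_sigM_le_sq hσ hM) hδ0
    rw [← Real.rpow_natCast, ← Real.rpow_mul hκ0, mul_comm, Real.rpow_mul hκ0,
      Real.rpow_natCast] at this
    gcongr

end Vale.Agent.P111
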