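import Vale.Agent.P111.Base

namespace Vale.Agent.P111

open Finset
open scoped BigOperators

theorem cotSum {Y : Type*} [NormedAddCommGroup Y] [NormedSpace ℝ Y] {q : ℝ} (hq : 1 ≤ q)
    (hK : Kah Y) (h : HasCotype Y q) :
    ∃ C : ℝ, 0 < C ∧ ∀ D n : ℕ, 3 * q ≤ D → 1 ≤ n →
      SumBd Y (n ^ D) (C * (n : ℝ) ^ D / (n : ℝ) ^ 3) := by
  obtain ⟨C0, hC0⟩ := h
  refine ⟨2 * |C0| + 1, by positivity, fun D n hD hn y => ?_⟩
  have hq0 : 0 < q := by linarith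
  have hn1 : (1 : ℝ) ≤ n := by exact_mod_cast hn
  have h1 := Real.inner_le_weight_mul_Lp_of_nonneg (univ : Finset (Fin (n ^ D))) hq
    (fun _ => (1 : ℝ)) (fun i => ‖y i‖) (fun _ => zero_le_one) (fun i => norm_nonneg _)
  simp only [one_mul, sum_const, card_univ, Fintype.card_fin, nsmul_eq_mul, mul_one] at h1
  have h2 := hC0 _ y
  rw [one_div] at h2
  have h3 := hK _ y
  have hE : 0 ≤ 𝔼 ε, ‖radSum y ε‖ := Finset.expect_nonneg fun _ _ => norm_nonneg _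
  have h4 : (∑ i, ‖y i‖ ^ q) ^ q⁻¹ ≤ (2 * |C0| + 1) * 𝔼 ε, ‖radSum y ε‖ := by
    have a1 : C0 * l2 (radSum y) ≤ |C0| * l2 (radSum y) :=
      mul_le_mul_of_nonneg_right (le_abs_self _) (l2_nonneg _)
    have a2 := mul_le_mul_of_nonneg_left h3 (abs_nonneg C0)
    nlinarith
  have h5 : ((n ^ D : ℕ) : ℝ) ^ (1 - q⁻¹) ≤ (n : ℝ) ^ D / (n : ℝ) ^ 3 := by
    rw [Nat.cast_pow, ← Real.rpow_natCast, ← Real.rpow_mul (by linarith), ← Real.rpow_natCast,
      ← Real.rpow_sub (by linarith)]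
    refine Real.rpow_le_rpow_of_exponent_le hn1 ?_
    have : (3 : ℝ) ≤ D * q⁻¹ := by
      rw [← div_eq_mul_inv, le_div_iff₀ hq0]
      exact hD
    push_cast
    linarith
  refine h1.trans ((mul_le_mul h5 h4 (by positivity) (by positivity)).trans (le_of_eq ?_))
  ring

end Vale.Agent.P111
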