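import Mathlib

/-! Definitions for the cotype-cotype problem.  Sign patterns in `{-1,1}^s` are indexed by
bit strings `Fin s → ZMod 2` through the sign `sg`. -/

namespace Vale.Agent.P111

/-- The sign `(-1)^x` of a bit. -/
noncomputable def sg (x : ZMod 2) : ℝ := if x = 0 then 1 else -1

/-- The norm of `L_2({-1,1}^s; Y)` for the uniform probability. -/
noncomputable def l2 {Y : Type*} [NormedAddCommGroup Y] {s : ℕ}
    (f : (Fin s → ZMod 2) → Y) : ℝ :=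
  Real.sqrt ((∑ ε : Fin s → ZMod 2, ‖f ε‖ ^ 2) / 2 ^ s)

/-- The Rademacher sum `ε ↦ ∑ ε_i y_i`. -/
noncomputable def radSum {Y : Type*} [NormedAddCommGroup Y] [NormedSpace ℝ Y] {s : ℕ}
    (y : Fin s → Y) (ε : Fin s → ZMod 2) : Y :=
  ∑ i, sg (ε i) • y i

/-- The Rademacher projection `(Rad f)(ε) = ∑ ε_i E_η[η_i f(η)]`. -/
noncomputable def radProj {Y : Type*} [NormedAddCommGroup Y] [NormedSpace ℝ Y] {s : ℕ}
    (f : (Fin s → ZMod 2) → Y) : (Fin s → ZMod 2) → Y :=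
  radSum fun i => ((1 : ℝ) / 2 ^ s) • ∑ η : Fin s → ZMod 2, sg (η i) • f η

/-- `C_q(Y) < ∞`. -/
def HasCotype (Y : Type*) [NormedAddCommGroup Y] [NormedSpace ℝ Y] (q : ℝ) : Prop :=
  ∃ C : ℝ, ∀ (s : ℕ) (y : Fin s → Y), (∑ i, ‖y i‖ ^ q) ^ (1 / q) ≤ C * l2 (radSum y)

/-- `X` has type `p`. -/
def HasType (X : Type*) [NormedAddCommGroup X] [NormedSpace ℝ X] (p : ℝ) : Prop :=
  ∃ D : ℝ, ∀ (s : ℕ) (x : Fin s → X), l2 (radSum x) ≤ D * (∑ i, ‖x i‖ ^ p) ^ (1 / p)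

/-- `K(X) < ∞`. -/
def KConvex (X : Type*) [NormedAddCommGroup X] [NormedSpace ℝ X] : Prop :=
  ∃ K : ℝ, ∀ (s : ℕ) (f : (Fin s → ZMod 2) → X), l2 (radProj f) ≤ K * l2 f

/-- The approximation property. -/
def HasAP (X : Type*) [NormedAddCommGroup X] [NormedSpace ℝ X] : Prop :=
  ∀ M : Set X, IsCompact M → ∀ δ : ℝ, 0 < δ → ∃ S : X →L[ℝ] X,
    FiniteDimensional ℝ (LinearMap.range (S : X →ₗ[ℝ] X)) ∧ ∀ x ∈ M, ‖S x - x‖ < δ

/-- The bounded approximation property. -/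
def HasBAP (X : Type*) [NormedAddCommGroup X] [NormedSpace ℝ X] : Prop :=
  ∃ lam : ℝ, ∀ M : Set X, IsCompact M → ∀ δ : ℝ, 0 < δ → ∃ S : X →L[ℝ] X,
    FiniteDimensional ℝ (LinearMap.range (S : X →ₗ[ℝ] X)) ∧ ‖S‖ ≤ lam ∧
      ∀ x ∈ M, ‖S x - x‖ < δ

end Vale.Agent.P111
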