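import Vale.Agent.P111.Base

namespace Vale.Agent.P111

open Finset
open scoped BigOperators

theorem FinRankAux_one {A B : Type} [AddCommGroup A] [Fintype A] [AddCommGroup B] [Fintype B]
    {σ : A → B → ℝ} (h : IsBi σ) {P R : ℝ} (hP : 0 ≤ P) (hR : 0 ≤ R) (f : A → ℝ) (g : B → ℝ)
    (hf : ∀ a, |f a| ≤ P) (hg : ∀ b, |g b| ≤ R) :
    |𝔼 a, 𝔼 b, σ a b * (f a * g b)| ≤ P * R * √(kap σ) := by
  have e : 𝔼 a, 𝔼 b, σ a b * (f a * g b) = 𝔼 a, f a * 𝔼 b, σ a b * g b := by
    refine Finset.expect_congr rfl fun a _ => ?_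
    rw [Finset.mul_expect]
    exact Finset.expect_congr rfl fun b _ => by ring
  have h1 : 𝔼 a, f a ^ 2 ≤ P ^ 2 :=
    Finset.expect_le Finset.univ_nonempty fun a _ => sq_le_sq' (abs_le.1 (hf a)).1 (abs_le.1 (hf a)).2
  have h2 : 𝔼 a, (𝔼 b, σ a b * g b) ^ 2 ≤ R ^ 2 * kap σ := by
    have e1 : 𝔼 a, (𝔼 b, σ a b * g b) ^ 2 = 𝔼 b, 𝔼 b', g b * g b' * 𝔼 a, σ a (b + b') := by
      simp only [sq, Finset.expect_mul_expect]
      simp only [Finset.mul_expect]
      rw [Finset.expect_comm]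
      refine Finset.expect_congr rfl fun b _ => ?_
      rw [Finset.expect_comm]
      refine Finset.expect_congr rfl fun b' _ => Finset.expect_congr rfl fun a _ => ?_
      rw [h.addr]; ring
    have e2 : ∀ b, 𝔼 b', R ^ 2 * 𝔼 a, σ a (b + b') = R ^ 2 * kap σ := fun b => by
      rw [← Finset.mul_expect, Fou.expect_add_left (fun x => 𝔼 a, σ a x) b, kap,
        Finset.expect_comm]
    rw [e1]
    refine Finset.expect_le Finset.univ_nonempty fun b _ => ?_
    rw [← e2 b]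
    refine Finset.expect_le_expect fun b' _ => mul_le_mul_of_nonneg_right ?_ (h.expect_left_nonneg _)
    refine (le_abs_self _).trans ?_
    rw [abs_mul, sq]
    exact mul_le_mul (hg b) (hg b') (abs_nonneg _) hR
  have h3 := Finset.expect_mul_sq_le_sq_mul_sq Finset.univ f fun a => 𝔼 b, σ a b * g b
  rw [e]
  refine abs_le_of_sq_le_sq' ?_ (by positivity) |> abs_le.2
  rw [mul_pow, mul_pow, Real.sq_sqrt h.kap_nonneg, mul_assoc]
  exact h3.trans (mul_le_mul h1 h2 (Finset.expect_nonneg fun _ _ => sq_nonneg _) (sq_nonneg _))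

theorem finRank (X : Type*) [NormedAddCommGroup X] [NormedSpace ℝ X] {δ : ℝ} (h0 : 0 ≤ δ)
    (h1 : δ ≤ 1 / 2) : FinBd X δ := by
  intro T hT
  let v := Module.finBasis ℝ (LinearMap.range (T : X →ₗ[ℝ] X))
  let φ : Fin (Module.finrank ℝ (LinearMap.range (T : X →ₗ[ℝ] X))) → X →L[ℝ] ℝ := fun i =>
    (LinearMap.toContinuousLinearMap (v.coord i)).comp
      (T.codRestrict (LinearMap.range (T : X →ₗ[ℝ] X)) fun x => ⟨x, rfl⟩)
  have hT' : ∀ x, T x = ∑ i, φ i x • (v i : X) := fun x => by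
    have := congrArg Subtype.val (v.sum_repr ⟨T x, x, rfl⟩)
    simp only [Submodule.coe_sum, Submodule.coe_smul] at this
    exact this.symm
  refine ⟨∑ i, ‖φ i‖ * ‖(v i : X)‖, by positivity, fun A B _ _ _ _ σ hσ _ x y hx hy => ?_⟩
  have e : 𝔼 a, 𝔼 b, σ a b * pairT T (x a) (y b) =
      ∑ i, 𝔼 a, 𝔼 b, σ a b * (φ i (x a) * y b (v i)) := by
    simp only [← Finset.expect_sum_comm, ← Finset.mul_sum, pairT_apply]
    refine Finset.expect_congr rfl fun a _ => Finset.expect_congr rfl fun b _ => ?_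
    rw [hT', map_sum]
    simp only [map_smul, smul_eq_mul]
  have h2 : √(kap σ) ≤ kap σ ^ δ := by
    rw [Real.sqrt_eq_rpow]
    exact Real.rpow_le_rpow_of_exponent_ge' hσ.kap_nonneg hσ.kap_le_one h0 h1
  rw [e, Finset.sum_mul]
  refine (Finset.abs_sum_le_sum_abs _ _).trans (Finset.sum_le_sum fun i _ => ?_)
  refine (FinRankAux_one hσ (norm_nonneg (φ i)) (norm_nonneg (v i : X)) _ _ (fun a => ?_)
    fun b => ?_).trans (mul_le_mul_of_nonneg_left h2 (by positivity))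
  · exact ((φ i).le_opNorm _).trans (mul_le_of_le_one_right (norm_nonneg _) (hx a))
  · exact ((y b).le_opNorm _).trans (mul_le_of_le_one_left (norm_nonneg _) (hy b))

end Vale.Agent.P111
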