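import Vale.Agent.P111.Base

namespace Vale.Agent.P111

open Finset
open scoped BigOperators

open MeasureTheory Filter Topology in
theorem FourIdAux_int {μ : ℂ} (hμ : 0 < μ.re) :
    IntegrableOn (fun s : ℝ => (s : ℂ) ^ 2 * Complex.exp (-(μ * s))) (Set.Ioi 0) := by
  have h := integrableOn_rpow_mul_exp_neg_mul_rpow (s := 2) (p := 1) (by norm_num) one_pos hμ
  refine Integrable.mono' h (Continuous.aestronglyMeasurable (by fun_prop))
    (ae_of_all _ fun s => le_of_eq ?_)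
  simp [Complex.norm_exp]

open MeasureTheory Filter Topology in
theorem FourIdAux_lim {μ : ℂ} (hμ : 0 < μ.re) (k : ℕ) :
    Tendsto (fun s : ℝ => (s : ℂ) ^ k * Complex.exp (-(μ * s))) atTop (𝓝 0) := by
  rw [tendsto_zero_iff_norm_tendsto_zero]
  refine (tendsto_rpow_mul_exp_neg_mul_atTop_nhds_zero k μ.re hμ).congr' ?_
  filter_upwards [eventually_ge_atTop 0] with s hs
  simp [Complex.norm_exp, abs_of_nonneg hs]

open MeasureTheory Filter Topology in
theorem FourIdAux_val {μ : ℂ} (hμ : 0 < μ.re) :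
    ∫ s : ℝ in Set.Ioi 0, (s : ℂ) ^ 2 * Complex.exp (-(μ * s)) = 2 * μ⁻¹ ^ 3 := by
  have h0 : μ ≠ 0 := fun h => by simp [h] at hμ
  have hd : ∀ s : ℝ, HasDerivAt (fun s : ℝ => -(μ⁻¹ * ((s : ℂ) ^ 2 * Complex.exp (-(μ * s)))
      + 2 * μ⁻¹ ^ 2 * ((s : ℂ) ^ 1 * Complex.exp (-(μ * s)))
      + 2 * μ⁻¹ ^ 3 * ((s : ℂ) ^ 0 * Complex.exp (-(μ * s)))))
      ((s : ℂ) ^ 2 * Complex.exp (-(μ * s))) s := fun s => by
    have e : HasDerivAt (fun z : ℂ => Complex.exp (-(μ * z))) _ s :=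
      ((hasDerivAt_id' (s : ℂ)).const_mul μ).fun_neg.cexp
    have p := fun k : ℕ => (hasDerivAt_pow k (s : ℂ)).fun_mul e
    have := (((((p 2).const_mul μ⁻¹).fun_add ((p 1).const_mul (2 * μ⁻¹ ^ 2))).fun_add
      ((p 0).const_mul (2 * μ⁻¹ ^ 3))).fun_neg).comp_ofReal
    convert this using 1
    simp only [Nat.cast_ofNat, Nat.cast_one, Nat.cast_zero, Nat.add_one_sub_one, pow_one, pow_zero,
      Nat.sub_self]
    field_simp
    ring
  have ht := ((((FourIdAux_lim hμ 2).const_mul μ⁻¹).add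
    ((FourIdAux_lim hμ 1).const_mul (2 * μ⁻¹ ^ 2))).add
    ((FourIdAux_lim hμ 0).const_mul (2 * μ⁻¹ ^ 3))).neg
  rw [integral_Ioi_of_hasDerivAt_of_tendsto' (fun s _ => hd s) (FourIdAux_int hμ) ht]
  simp

open MeasureTheory FourierTransform in
theorem fourId {c t : ℝ} (hc : 0 < c) (ht : 0 < t) :
    ∫ y : ℝ, Complex.exp (y * t * Complex.I) * (((c : ℂ) + y * Complex.I)⁻¹) ^ 3 =
      ((Real.pi * t ^ 2 * Real.exp (-(c * t)) : ℝ) : ℂ) := by
  obtain ⟨f, hf⟩ : ∃ f : ℝ → ℂ,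
    f = fun s => ((max s 0 : ℝ) : ℂ) ^ 2 * Complex.exp (-(c * (max s 0 : ℝ))) := ⟨_, rfl⟩
  have cf : Continuous f := by rw [hf]; fun_prop
  have e : f = (Set.Ioi 0).indicator fun s : ℝ => (s : ℂ) ^ 2 * Complex.exp (-(c * s)) := by
    funext s
    rw [hf]
    by_cases h : s ∈ Set.Ioi (0 : ℝ)
    · simp only [Set.indicator_of_mem h, max_eq_left (Set.mem_Ioi.1 h).le]
    · simp [Set.indicator_of_notMem h, max_eq_right (not_lt.1 (mt Set.mem_Ioi.2 h))]
  have i1 : Integrable f := by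
    rw [e, integrable_indicator_iff measurableSet_Ioi]
    exact FourIdAux_int (by simpa using hc)
  have hF : 𝓕 f = fun w : ℝ => 2 * ((c : ℂ) + (2 * Real.pi * w : ℝ) * Complex.I)⁻¹ ^ 3 := by
    funext w
    rw [Real.fourier_real_eq_integral_exp_smul, ← FourIdAux_val (by simpa using hc),
      ← integral_indicator measurableSet_Ioi, e]
    refine integral_congr_ae (ae_of_all _ fun s => ?_)
    by_cases h : s ∈ Set.Ioi (0 : ℝ)
    · simp only [Set.indicator_of_mem h, smul_eq_mul]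
      rw [mul_left_comm, ← Complex.exp_add]
      congr 2
      push_cast
      ring
    · simp [Set.indicator_of_notMem h]
  have ne : ∀ y : ℝ, (c : ℂ) + y * Complex.I ≠ 0 := fun y h => by
    have := congrArg Complex.re h
    simp at this
    exact hc.ne' this
  have i2 : Integrable fun y : ℝ => 2 * ((c : ℂ) + y * Complex.I)⁻¹ ^ 3 := by
    refine ((integrable_inv_one_add_sq.comp_div hc.ne').const_mul (2 * c⁻¹ ^ 3)).mono'
      (Continuous.aestronglyMeasurable (continuous_const.mul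
        ((Continuous.inv₀ (by fun_prop) ne).pow 3))) (ae_of_all _ fun y => ?_)
    have h1 : ‖(c : ℂ) + y * Complex.I‖ ^ 2 = c ^ 2 + y ^ 2 := by
      rw [Complex.sq_norm, Complex.normSq_add_mul_I]
    have h2 : c ≤ ‖(c : ℂ) + y * Complex.I‖ := by
      simpa using Complex.re_le_norm ((c : ℂ) + y * Complex.I)
    rw [norm_mul, norm_pow, norm_inv, Complex.norm_two, mul_assoc]
    refine mul_le_mul_of_nonneg_left ?_ zero_le_two
    rw [inv_pow, inv_pow, ← mul_inv]
    refine inv_anti₀ (by positivity) ?_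
    rw [pow_succ _ 2, pow_succ' ‖_‖ 2, h1, show c ^ 2 * c * (1 + (y / c) ^ 2) = c * (c ^ 2 + y ^ 2) by
      field_simp]
    exact mul_le_mul_of_nonneg_right h2 (by positivity)
  have i3 : Integrable (𝓕 f) := by
    rw [hF]
    exact i2.comp_mul_left' (R := 2 * Real.pi) (by positivity)
  have inv := congrFun (cf.fourierInv_fourier_eq i1 i3) t
  rw [Real.fourierInv_eq', hF] at inv
  have ch := Measure.integral_comp_mul_left
    (fun y : ℝ => Complex.exp (y * t * Complex.I) * (((c : ℂ) + y * Complex.I)⁻¹) ^ 3) (2 * Real.pi)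
  have e2 : ∫ v : ℝ, Complex.exp (((2 * Real.pi * inner ℝ v t : ℝ) : ℂ) * Complex.I) •
      (2 * ((c : ℂ) + (2 * Real.pi * v : ℝ) * Complex.I)⁻¹ ^ 3) =
      2 * ∫ x : ℝ, Complex.exp ((2 * Real.pi * x : ℝ) * t * Complex.I) *
        ((c : ℂ) + (2 * Real.pi * x : ℝ) * Complex.I)⁻¹ ^ 3 := by
    rw [← integral_const_mul]
    refine integral_congr_ae (ae_of_all _ fun s => ?_)
    simp only [smul_eq_mul, Real.inner_apply]
    rw [mul_left_comm]
    congr 3
    push_cast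
    ring
  rw [e2, ch, hf, abs_of_pos (by positivity), Complex.real_smul] at inv
  simp only [max_eq_left ht.le] at inv
  have hp : (Real.pi : ℂ) ≠ 0 := Complex.ofReal_ne_zero.2 Real.pi_ne_zero
  push_cast at inv ⊢
  rw [mul_assoc, ← inv, ← mul_assoc, ← mul_assoc, mul_comm _ (2 : ℂ),
    mul_inv_cancel₀ (mul_ne_zero two_ne_zero hp), one_mul]

end Vale.Agent.P111
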