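import Vale.Agent.P111.Defs

/-! Fourier analysis on `ι → ZMod 2`. -/

namespace Vale.Agent.P111

open Finset
open scoped BigOperators

namespace Fou

theorem zmod2 (x : ZMod 2) : x = 0 ∨ x = 1 := by
  revert x
  decide

@[simp] theorem sg_zero : sg 0 = 1 := by simp [sg]

@[simp] theorem sg_one : sg 1 = -1 := by simp [sg]

theorem sg_add (x y : ZMod 2) : sg (x + y) = sg x * sg y := by
  have h : (1 + 1 : ZMod 2) = 0 := rfl
  rcases zmod2 x with rfl | rfl <;> rcases zmod2 y with rfl | rfl <;> simp [h]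

@[simp] theorem sg_mul_self (x : ZMod 2) : sg x * sg x = 1 := by
  rcases zmod2 x with rfl | rfl <;> simp

@[simp] theorem sg_sq (x : ZMod 2) : sg x ^ 2 = 1 := by rw [sq, sg_mul_self]

@[simp] theorem abs_sg (x : ZMod 2) : |sg x| = 1 := by
  rcases zmod2 x with rfl | rfl <;> simp

theorem sg_le_one (x : ZMod 2) : sg x ≤ 1 := (le_abs_self _).trans (abs_sg x).le

theorem neg_one_le_sg (x : ZMod 2) : -1 ≤ sg x := by
  have := neg_abs_le (sg x)
  rwa [abs_sg] at this

theorem sg_sum {κ : Type*} (s : Finset κ) (f : κ → ZMod 2) :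
    sg (∑ k ∈ s, f k) = ∏ k ∈ s, sg (f k) := by
  classical
  induction s using Finset.induction_on with
  | empty => simp
  | insert a s ha ih => rw [Finset.sum_insert ha, Finset.prod_insert ha, sg_add, ih]

/-- Indicator of an equality of bits. -/
theorem ite_eq_sg (x y : ZMod 2) : (if x = y then (1 : ℝ) else 0) = (1 + sg x * sg y) / 2 := by
  rcases zmod2 x with rfl | rfl <;> rcases zmod2 y with rfl | rfl <;> simp

theorem add_self_pi {ι : Type*} (x : ι → ZMod 2) : x + x = 0 := by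
  funext i
  exact CharTwo.add_self_eq_zero (x i)

theorem add_eq_zero_pi {ι : Type*} {x y : ι → ZMod 2} : x + y = 0 ↔ x = y := by
  constructor
  · intro h
    rw [← add_zero x, ← add_self_pi y, ← add_assoc, h, zero_add]
  · rintro rfl
    exact add_self_pi x

/-- Expectation of a product of functions of independent coordinates. -/
theorem expect_prod_pi {ι Ω : Type*} [Fintype ι] [DecidableEq ι] [Fintype Ω] (f : ι → Ω → ℝ) :
    𝔼 n : ι → Ω, ∏ i, f i (n i) = ∏ i, 𝔼 ω, f i ω := by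
  simp only [Fintype.expect_eq_sum_div_card]
  rw [Finset.prod_div_distrib, Fintype.prod_sum, Fintype.card_pi]
  simp

/-- Translation invariance of the uniform measure. -/
theorem expect_add_right {G : Type*} [AddGroup G] [Fintype G] (f : G → ℝ) (a : G) :
    𝔼 x, f (x + a) = 𝔼 x, f x :=
  Fintype.expect_equiv (Equiv.addRight a) _ _ fun _ => rfl

theorem expect_add_left {G : Type*} [AddGroup G] [Fintype G] (f : G → ℝ) (a : G) :
    𝔼 x, f (a + x) = 𝔼 x, f x :=
  Fintype.expect_equiv (Equiv.addLeft a) _ _ fun _ => rfl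

/-- Expectation over a product type. -/
theorem expect_prod_type {A B : Type*} [Fintype A] [Fintype B] (f : A × B → ℝ) :
    𝔼 x, f x = 𝔼 a, 𝔼 b, f (a, b) := by
  rw [← Finset.univ_product_univ, Finset.expect_product]

variable {ι : Type*} [Fintype ι] [DecidableEq ι]

omit [DecidableEq ι] in
theorem sg_dot (z x : ι → ZMod 2) : sg (z ⬝ᵥ x) = ∏ i, sg (z i * x i) := sg_sum _ _

omit [DecidableEq ι] in
theorem sg_dot_add (z x y : ι → ZMod 2) : sg (z ⬝ᵥ (x + y)) = sg (z ⬝ᵥ x) * sg (z ⬝ᵥ y) := by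
  rw [dotProduct_add, sg_add]

omit [DecidableEq ι] in
theorem sg_add_dot (z w x : ι → ZMod 2) : sg ((z + w) ⬝ᵥ x) = sg (z ⬝ᵥ x) * sg (w ⬝ᵥ x) := by
  rw [add_dotProduct, sg_add]

/-- Orthogonality of the characters. -/
theorem expect_sg_dot (z : ι → ZMod 2) : 𝔼 x, sg (z ⬝ᵥ x) = if z = 0 then 1 else 0 := by
  split_ifs with h
  · simp [h]
  obtain ⟨i, hi⟩ := Function.ne_iff.1 h
  have hi1 : z i = 1 := (zmod2 _).resolve_left hi
  have h1 := expect_add_right (fun x => sg (z ⬝ᵥ x)) (Pi.single i 1)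
  simp only [sg_dot_add, dotProduct_single, hi1, mul_one, sg_one, mul_neg,
    Finset.expect_neg_distrib] at h1
  linarith

theorem expect_sg_dot' (x : ι → ZMod 2) : 𝔼 z, sg (z ⬝ᵥ x) = if x = 0 then 1 else 0 := by
  simp only [dotProduct_comm _ x, expect_sg_dot]

theorem expect_sg_mul_sg (z w : ι → ZMod 2) :
    𝔼 x, sg (z ⬝ᵥ x) * sg (w ⬝ᵥ x) = if z = w then 1 else 0 := by
  simp only [← sg_add_dot, expect_sg_dot, add_eq_zero_pi]

theorem sum_sg_dot (x : ι → ZMod 2) :
    ∑ z, sg (z ⬝ᵥ x) = if x = 0 then (Fintype.card (ι → ZMod 2) : ℝ) else 0 := by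
  rw [← Fintype.card_mul_expect, expect_sg_dot']
  simp

/-- Fourier coefficient. -/
noncomputable def coef (f : (ι → ZMod 2) → ℝ) (z : ι → ZMod 2) : ℝ :=
  𝔼 x, f x * sg (z ⬝ᵥ x)

/-- Fourier inversion. -/
theorem inversion (f : (ι → ZMod 2) → ℝ) (x : ι → ZMod 2) :
    ∑ z, coef f z * sg (z ⬝ᵥ x) = f x := by
  simp only [coef, Finset.expect_mul, mul_assoc, ← sg_dot_add]
  rw [← Finset.expect_sum_comm]
  simp only [← Finset.mul_sum, sum_sg_dot, add_eq_zero_pi, mul_ite, mul_zero]
  rw [Fintype.expect_eq_sum_div_card, Finset.sum_ite_eq']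
  have : (Fintype.card (ι → ZMod 2) : ℝ) ≠ 0 := by exact_mod_cast Fintype.card_ne_zero
  simp only [Finset.mem_univ, if_true]
  field_simp

/-- Plancherel identity. -/
theorem plancherel (f g : (ι → ZMod 2) → ℝ) :
    𝔼 x, f x * g x = ∑ z, coef f z * coef g z := by
  conv_lhs => enter [2, x]; rw [← inversion f x, Finset.sum_mul]
  rw [Finset.expect_sum_comm]
  refine Finset.sum_congr rfl fun z _ => ?_
  rw [coef.eq_1 g, Finset.mul_expect]
  exact Finset.expect_congr rfl fun x _ => by ring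

/-- Parseval identity. -/
theorem parseval (f : (ι → ZMod 2) → ℝ) : ∑ z, coef f z ^ 2 = 𝔼 x, f x ^ 2 := by
  simp only [sq, plancherel]

theorem parseval_le_one (f : (ι → ZMod 2) → ℝ) (hf : ∀ x, |f x| ≤ 1) :
    ∑ z, coef f z ^ 2 ≤ 1 := by
  rw [parseval]
  exact Finset.expect_le Finset.univ_nonempty fun x _ => (sq_le_one_iff_abs_le_one _).2 (hf x)

theorem parseval_eq_one (f : (ι → ZMod 2) → ℝ) (hf : ∀ x, f x ^ 2 = 1) :
    ∑ z, coef f z ^ 2 = 1 := by
  simp only [parseval, hf, Fintype.expect_const]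

theorem abs_coef_le (f : (ι → ZMod 2) → ℝ) (z : ι → ZMod 2) : |coef f z| ≤ 𝔼 x, |f x| := by
  refine (Finset.abs_expect_le _ _).trans (le_of_eq ?_)
  simp only [abs_mul, abs_sg, mul_one]

theorem abs_coef_le_one (f : (ι → ZMod 2) → ℝ) (hf : ∀ x, |f x| ≤ 1) (z : ι → ZMod 2) :
    |coef f z| ≤ 1 :=
  (abs_coef_le f z).trans (Finset.expect_le Finset.univ_nonempty fun x _ => hf x)

/-- Coefficients of a translate. -/
theorem coef_shift (f : (ι → ZMod 2) → ℝ) (a z : ι → ZMod 2) :
    coef (fun x => f (x + a)) z = coef f z * sg (z ⬝ᵥ a) := by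
  rw [coef, coef, Finset.expect_mul, ← expect_add_right _ a]
  refine Finset.expect_congr rfl fun x _ => ?_
  rw [add_assoc, add_self_pi, add_zero, sg_dot_add, mul_assoc]

/-- A function invariant under the translation by `a` up to the sign `sg b` has no coefficient at
`z` with `z ⬝ᵥ a ≠ b`. -/
theorem coef_eq_zero_of_shift (f : (ι → ZMod 2) → ℝ) (a z : ι → ZMod 2) (b : ZMod 2)
    (hf : ∀ x, f (x + a) = sg b * f x) (hz : z ⬝ᵥ a ≠ b) : coef f z = 0 := by
  have h1 := coef_shift f a z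
  have h2 : coef (fun x => f (x + a)) z = sg b * coef f z := by
    simp only [hf, coef, Finset.mul_expect, mul_assoc]
  rw [h2] at h1
  rcases zmod2 b with rfl | rfl <;> rcases zmod2 (z ⬝ᵥ a) with h | h <;>
    simp only [h, sg_zero, sg_one, ne_eq, not_true_eq_false] at h1 hz <;> linarith

/-- Correlation of two translates. -/
theorem expect_mul_shift (f g : (ι → ZMod 2) → ℝ) (a b : ι → ZMod 2) :
    𝔼 x, f (x + a) * g (x + b) = ∑ z, coef f z * coef g z * sg (z ⬝ᵥ (a + b)) := by
  rw [plancherel (fun x => f (x + a)) fun x => g (x + b)]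
  refine Finset.sum_congr rfl fun z _ => ?_
  rw [coef_shift, coef_shift, sg_dot_add]
  ring

theorem expect_mul_shift' (f g : (ι → ZMod 2) → ℝ) (b : ι → ZMod 2) :
    𝔼 x, f x * g (x + b) = ∑ z, coef f z * coef g z * sg (z ⬝ᵥ b) := by
  simpa using expect_mul_shift f g 0 b

/-- Coefficients of a convolution. -/
theorem coef_conv (f g : (ι → ZMod 2) → ℝ) (z : ι → ZMod 2) :
    coef (fun x => 𝔼 y, f y * g (y + x)) z = coef f z * coef g z := by
  simp only [expect_mul_shift']
  rw [coef]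
  simp only [Finset.sum_mul, mul_assoc]
  rw [Finset.expect_sum_comm]
  simp only [← Finset.mul_expect, expect_sg_mul_sg, mul_ite, mul_one, mul_zero,
    Finset.sum_ite_eq', Finset.mem_univ, if_true]

/-- The three function linearity test. -/
theorem expect_triple (f g h : (ι → ZMod 2) → ℝ) :
    𝔼 x, 𝔼 y, f x * (g y * h (y + x)) = ∑ z, coef f z * (coef g z * coef h z) := by
  simp only [← Finset.mul_expect]
  rw [plancherel f fun x => 𝔼 y, g y * h (y + x)]
  simp only [coef_conv]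

/-- The linearity test along a family of shifts `a ω` with weights `c ω`. -/
theorem expect_weight_shift {Ω : Type*} [Fintype Ω] (c : Ω → ℝ) (a : Ω → ι → ZMod 2)
    (g h : (ι → ZMod 2) → ℝ) :
    𝔼 ω, 𝔼 y, c ω * (g y * h (y + a ω)) =
      ∑ z, coef g z * coef h z * 𝔼 ω, c ω * sg (z ⬝ᵥ a ω) := by
  simp only [← Finset.mul_expect, expect_mul_shift', Finset.mul_sum]
  rw [Finset.expect_sum_comm]
  refine Finset.sum_congr rfl fun z _ => ?_
  rw [Finset.mul_expect]
  exact Finset.expect_congr rfl fun ω _ => by ring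

omit [DecidableEq ι] in
/-- Pull back along a map of coordinates: the pairing of `z` with `f ∘ π`. -/
theorem dot_comp {κ : Type*} [Fintype κ] [DecidableEq κ] (π : ι → κ) (z : ι → ZMod 2)
    (f : κ → ZMod 2) :
    z ⬝ᵥ (f ∘ π) = (fun k => ∑ i ∈ univ.filter fun i => π i = k, z i) ⬝ᵥ f := by
  simp only [dotProduct, Function.comp, Finset.sum_mul]
  rw [← Finset.sum_fiberwise (s := univ) (g := π)]
  refine Finset.sum_congr rfl fun k _ => Finset.sum_congr rfl fun i hi => ?_
  rw [(Finset.mem_filter.1 hi).2]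

end Fou

end Vale.Agent.P111
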