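import Vale.Agent.P111.Base

namespace Vale.Agent.P111

open Finset
open scoped BigOperators

theorem IterAux_succ {X : Type*} [NormedAddCommGroup X] [NormedSpace ℝ X] {k : ℕ} {Λ : ℝ}
    (hL : Lift k Λ (Ball X) (Ball X)) (V : Set X) (hV : V.Finite) (hB : V ⊆ Ball X) :
    ∃ V' : Set X, (V'.Finite ∧ V' ⊆ Ball X) ∧ V ⊆ V' ∧ Symm V' ∧ Lift k Λ V V' := by
  classical
  have hD : ∀ τ : Fin k → X, ∃ D : (Fin k → ZMod 2) → X, (∀ l, τ l ∈ Ball X) →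
      (∀ ε, D ε ∈ Ball X) ∧
        ∀ l, τ l = (Λ / 2 ^ k) • ∑ ε : Fin k → ZMod 2, sg (ε l) • D ε := by
    intro τ
    by_cases h : ∀ l, τ l ∈ Ball X
    · obtain ⟨D, hD⟩ := hL τ h
      exact ⟨D, fun _ => hD⟩
    · exact ⟨0, fun h' => absurd h' h⟩
  choose D hD using hD
  set G : Set X := V ∪ Set.image2 D {τ : Fin k → X | ∀ l, τ l ∈ V} Set.univ with hG
  have hGf : G.Finite :=
    hV.union ((Set.Finite.pi' fun _ => hV).image2 D Set.finite_univ)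
  have hGB : G ⊆ Ball X := by
    rintro v (hv | ⟨τ, hτ, ε, -, rfl⟩)
    · exact hB hv
    · exact (hD τ fun l => hB (hτ l)).1 ε
  refine ⟨G ∪ -G, ⟨hGf.union hGf.neg, ?_⟩, ?_, ?_, ?_⟩
  · rintro v (hv | hv)
    · exact hGB hv
    · have := symm_Ball X _ (hGB (Set.mem_neg.1 hv))
      rwa [neg_neg] at this
  · exact fun v hv => Or.inl (Or.inl hv)
  · rintro v (hv | hv)
    · exact Or.inr (by simpa using hv)
    · exact Or.inl (Set.mem_neg.1 hv)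
  · intro τ hτ
    exact ⟨D τ, fun ε => Or.inl (Or.inr ⟨τ, hτ, ε, Set.mem_univ _, rfl⟩),
      (hD τ fun l => hB (hτ l)).2⟩

theorem IterAux_chain {X : Type*} [NormedAddCommGroup X] [NormedSpace ℝ X] {k : ℕ} {Λ : ℝ}
    (hL : Lift k Λ (Ball X) (Ball X)) (V : Set X) (hV : V.Finite) (hB : V ⊆ Ball X) :
    ∃ U : ℕ → Set X, U 0 = V ∧ (∀ n, (U n).Finite ∧ U n ⊆ Ball X) ∧
      ∀ n, U n ⊆ U (n + 1) ∧ Symm (U (n + 1)) ∧ Lift k Λ (U n) (U (n + 1)) := by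
  have h : ∀ W : {W : Set X // W.Finite ∧ W ⊆ Ball X},
      ∃ W' : {W : Set X // W.Finite ∧ W ⊆ Ball X},
        W.1 ⊆ W'.1 ∧ Symm W'.1 ∧ Lift k Λ W.1 W'.1 := by
    intro W
    obtain ⟨V', h1, h2⟩ := IterAux_succ hL W.1 W.2.1 W.2.2
    exact ⟨⟨V', h1⟩, h2⟩
  choose F hF using h
  refine ⟨fun n => (F^[n] ⟨V, hV, hB⟩).1, rfl, fun n => (F^[n] ⟨V, hV, hB⟩).2, fun n => ?_⟩
  simp only [Function.iterate_succ_apply']
  exact hF _

theorem IterAux_compact {X : Type*} [NormedAddCommGroup X] [NormedSpace ℝ X] [CompleteSpace X]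
    (U : ℕ → Set X) (hU : ∀ n, (U n).Finite ∧ U n ⊆ Ball X) :
    ∃ K : Set X, IsCompact K ∧ ∀ n, ∀ v ∈ U n, ((1 / 2 : ℝ) ^ n) • v ∈ K := by
  set S : Set X := ⋃ n, (fun v => ((1 / 2 : ℝ) ^ n) • v) '' U n with hS
  have htb : TotallyBounded S := by
    rw [Metric.totallyBounded_iff]
    intro ε hε
    obtain ⟨N, hN⟩ := exists_pow_lt_of_lt_one hε (by norm_num : (1 / 2 : ℝ) < 1)
    refine ⟨insert 0 (⋃ n ∈ Set.Iio N, (fun v => ((1 / 2 : ℝ) ^ n) • v) '' U n), ?_, ?_⟩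
    · exact ((Set.finite_Iio N).biUnion fun n _ => (hU n).1.image _).insert 0
    · intro w hw
      obtain ⟨n, v, hv, rfl⟩ := Set.mem_iUnion.1 hw
      simp only [Set.mem_iUnion, exists_prop]
      by_cases hn : n < N
      · refine ⟨_, Set.mem_insert_of_mem _ ?_, Metric.mem_ball_self hε⟩
        simp only [Set.mem_iUnion, exists_prop]
        exact ⟨n, hn, v, hv, rfl⟩
      · refine ⟨0, Set.mem_insert _ _, ?_⟩
        rw [mem_ball_zero_iff, norm_smul, Real.norm_of_nonneg (by positivity)]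
        have h1 : ‖v‖ ≤ 1 := (hU n).2 hv
        have h2 : (1 / 2 : ℝ) ^ n ≤ (1 / 2 : ℝ) ^ N :=
          pow_le_pow_of_le_one (by norm_num) (by norm_num) (not_lt.1 hn)
        have h3 : (0 : ℝ) ≤ (1 / 2 : ℝ) ^ n := by positivity
        nlinarith
  refine ⟨closure S, htb.closure.isCompact_of_isClosed isClosed_closure, fun n v hv => ?_⟩
  exact subset_closure (Set.mem_iUnion.2 ⟨n, v, hv, rfl⟩)

theorem IterAux_triv {X : Type*} [NormedAddCommGroup X] [NormedSpace ℝ X]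
    {A B : Type} [AddCommGroup A] [Fintype A] [AddCommGroup B] [Fintype B] {σ : A → B → ℝ}
    (hσ : IsBi σ) (z : A → X) (y : B → StrongDual ℝ X) {M : ℝ} (hz : ∀ a, ‖z a‖ ≤ M)
    (hy : ∀ b, ‖y b‖ ≤ 1) : |𝔼 a, 𝔼 b, σ a b * y b (z a)| ≤ M := by
  refine (Finset.abs_expect_le _ _).trans (Finset.expect_le Finset.univ_nonempty fun a _ => ?_)
  refine (Finset.abs_expect_le _ _).trans (Finset.expect_le Finset.univ_nonempty fun b _ => ?_)
  rw [abs_mul, hσ.abs_eq, one_mul, ← Real.norm_eq_abs]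
  refine ((y b).le_opNorm _).trans ?_
  have := mul_le_mul (hy b) (hz a) (norm_nonneg _) zero_le_one
  rwa [one_mul] at this

theorem IterAux_down {X : Type*} [NormedAddCommGroup X] [NormedSpace ℝ X]
    {k : ℕ} {δ κ₀ Λ : ℝ} (hδ : 0 < δ) (hκ : 0 < κ₀) (hS : Step X k δ κ₀ Λ)
    (U : ℕ → Set X) (hB : ∀ n, U n ⊆ Ball X)
    (hU : ∀ n, U n ⊆ U (n + 1) ∧ Symm (U (n + 1)) ∧ Lift k Λ (U n) (U (n + 1)))
    (T : X →L[ℝ] X) (hT : ∀ n, ∀ v ∈ U n, ‖T v‖ ≤ 2 ^ (n + 1)) {c₀ : ℝ} (hc : 0 ≤ c₀)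
    (h0 : Bd (pairT T) δ c₀ 1 (Ball X) (Ball (StrongDual ℝ X))) (N : ℕ) :
    ∀ m n : ℕ, n + m = N →
      Bd (pairT T) δ (2 ^ n * (c₀ / 2 ^ N + 2 * κ₀ ^ (-δ))) 1 (U n) (Ball (StrongDual ℝ X)) := by
  have hC : 0 < κ₀ ^ (-δ) := Real.rpow_pos_of_pos hκ _
  intro m
  induction m with
  | zero =>
    intro n hn
    rw [add_zero] at hn
    subst hn
    refine h0.mono (hB n) ?_
    rw [mul_add, mul_div_cancel₀ _ (by positivity)]
    have : (0 : ℝ) ≤ 2 ^ n * (2 * κ₀ ^ (-δ)) := by positivity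
    linarith
  | succ m ih =>
    intro n hn
    have h1 := ih (n + 1) (by omega)
    have h2 := hS T _ (U n) (U (n + 1)) (by positivity) (hU n).1 (hU n).2.1 (hU n).2.2 h1
    intro A B _ _ _ _ σ hσ hk x y hx hy
    by_cases hκ' : kap σ ≤ κ₀
    · have h3 := h2 A B σ hσ hκ' x y hx hy
      have e : (2 : ℝ) ^ (n + 1) * (c₀ / 2 ^ N + 2 * κ₀ ^ (-δ)) / 2
          = 2 ^ n * (c₀ / 2 ^ N + 2 * κ₀ ^ (-δ)) := by ring
      rwa [e] at h3
    · have h3 := IterAux_triv hσ (fun a => T (x a)) y (fun a => hT n _ (hx a)) hy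
      simp only [pairT_apply]
      refine h3.trans ?_
      have h4 : κ₀ ^ δ ≤ kap σ ^ δ := Real.rpow_le_rpow hκ.le (not_le.1 hκ').le hδ.le
      have h5 : κ₀ ^ (-δ) * κ₀ ^ δ = 1 := by
        rw [← Real.rpow_add hκ, neg_add_cancel, Real.rpow_zero]
      have h6 : 1 ≤ κ₀ ^ (-δ) * kap σ ^ δ := by
        rw [← h5]; exact mul_le_mul_of_nonneg_left h4 hC.le
      have h7 : 0 ≤ c₀ / 2 ^ N * kap σ ^ δ :=
        mul_nonneg (by positivity) (Real.rpow_nonneg hσ.kap_nonneg _)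
      have h8 : (2 : ℝ) ≤ (c₀ / 2 ^ N + 2 * κ₀ ^ (-δ)) * kap σ ^ δ := by nlinarith
      rw [pow_succ, mul_assoc]
      exact mul_le_mul_of_nonneg_left h8 (by positivity)

theorem iter {X : Type*} [NormedAddCommGroup X] [NormedSpace ℝ X] [CompleteSpace X]
    (hAP : HasAP X) {k : ℕ} {δ κ₀ Λ : ℝ} (hδ : 0 < δ) (hκ : 0 < κ₀)
    (hL : Lift k Λ (Ball X) (Ball X)) (hF : FinBd X δ) (hS : Step X k δ κ₀ Λ) :
    ∃ C : ℝ, 0 ≤ C ∧
      Bd (pairT (ContinuousLinearMap.id ℝ X)) δ C 1 (Ball X) (Ball (StrongDual ℝ X)) := by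
  have hC : 0 < κ₀ ^ (-δ) := Real.rpow_pos_of_pos hκ _
  refine ⟨2 * κ₀ ^ (-δ), by positivity, ?_⟩
  intro A B _ _ _ _ σ hσ hk x y hx hy
  obtain ⟨U, hU0, hUf, hU⟩ := IterAux_chain hL (Set.range x) (Set.finite_range x)
    (by rintro _ ⟨a, rfl⟩; exact hx a)
  obtain ⟨K, hK, hKU⟩ := IterAux_compact U hUf
  have hxU : ∀ a, x a ∈ U 0 := fun a => by rw [hU0]; exact ⟨a, rfl⟩
  have hkd : 0 ≤ kap σ ^ δ := Real.rpow_nonneg hσ.kap_nonneg _
  have key : ∀ ε : ℝ, 0 < ε → ε ≤ 1 →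
      |𝔼 a, 𝔼 b, σ a b * y b (x a)| ≤ 2 * κ₀ ^ (-δ) * kap σ ^ δ + ε := by
    intro ε hε hε1
    obtain ⟨T, hTf, hT⟩ := hAP K hK ε hε
    have hT1 : ∀ n, ∀ v ∈ U n, ‖T v - v‖ ≤ 2 ^ n * ε := by
      intro n v hv
      have h1 := (hT _ (hKU n v hv)).le
      rw [map_smul, ← smul_sub, norm_smul, Real.norm_of_nonneg (by positivity), one_div,
        inv_pow, inv_mul_le_iff₀ (by positivity)] at h1
      exact h1
    have hT2 : ∀ n, ∀ v ∈ U n, ‖T v‖ ≤ 2 ^ (n + 1) := by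
      intro n v hv
      have h1 := hT1 n v hv
      have h2 : ‖v‖ ≤ 1 := (hUf n).2 hv
      have h3 : ‖T v‖ ≤ ‖T v - v‖ + ‖v‖ := by
        simpa using norm_add_le (T v - v) v
      have h4 : (1 : ℝ) ≤ 2 ^ n := one_le_pow₀ (by norm_num)
      have h5 : (2 : ℝ) ^ n * ε ≤ 2 ^ n * 1 := mul_le_mul_of_nonneg_left hε1 (by positivity)
      rw [pow_succ]
      linarith
    obtain ⟨c₀, hc, h0⟩ := hF T hTf
    have hN : ∀ N : ℕ, |𝔼 a, 𝔼 b, σ a b * y b (T (x a))| ≤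
        c₀ * kap σ ^ δ * (1 / 2) ^ N + 2 * κ₀ ^ (-δ) * kap σ ^ δ := by
      intro N
      have h1 := IterAux_down hδ hκ hS U (fun n => (hUf n).2) hU T hT2 hc h0 N N 0 (zero_add N)
        A B σ hσ hk x y hxU hy
      simp only [pairT_apply] at h1
      refine h1.trans (le_of_eq ?_)
      rw [one_div, inv_pow]
      ring
    have hlim : |𝔼 a, 𝔼 b, σ a b * y b (T (x a))| ≤ 2 * κ₀ ^ (-δ) * kap σ ^ δ := by
      have h1 : Filter.Tendsto
          (fun N : ℕ => c₀ * kap σ ^ δ * (1 / 2 : ℝ) ^ N + 2 * κ₀ ^ (-δ) * kap σ ^ δ)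
          Filter.atTop (nhds (c₀ * kap σ ^ δ * 0 + 2 * κ₀ ^ (-δ) * kap σ ^ δ)) :=
        ((tendsto_pow_atTop_nhds_zero_of_lt_one (by norm_num) (by norm_num)).const_mul _).add_const _
      rw [mul_zero, zero_add] at h1
      exact ge_of_tendsto' h1 hN
    have hd := IterAux_triv hσ (fun a => T (x a) - x a) y (M := ε)
      (fun a => by simpa using hT1 0 _ (hxU a)) hy
    have e : 𝔼 a, 𝔼 b, σ a b * y b (x a) = (𝔼 a, 𝔼 b, σ a b * y b (T (x a)))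
        - 𝔼 a, 𝔼 b, σ a b * y b (T (x a) - x a) := by
      rw [← Finset.expect_sub_distrib]
      refine Finset.expect_congr rfl fun a _ => ?_
      rw [← Finset.expect_sub_distrib]
      refine Finset.expect_congr rfl fun b _ => ?_
      rw [map_sub]; ring
    rw [e]
    exact (abs_sub _ _).trans (add_le_add hlim hd)
  simp only [pairT_apply, ContinuousLinearMap.id_apply]
  refine le_of_forall_pos_le_add fun ε hε => ?_
  have := key (min ε 1) (lt_min hε one_pos) (min_le_right _ _)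
  have h2 := min_le_left ε 1
  linarith

end Vale.Agent.P111
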