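import Vale.Agent.P111.Base

namespace Vale.Agent.P111

open Finset
open scoped BigOperators

theorem ProjBAux_sum2 {M : Type*} [AddCommMonoid M] (g : ZMod 2 → M) :
    ∑ x : ZMod 2, g x = g 0 + g 1 := by
  have : (Finset.univ : Finset (ZMod 2)) = {0, 1} := by decide
  rw [this, Finset.sum_pair (by decide)]

/-- The signed products of the idempotents. -/
noncomputable def ProjBAux_e {ι : Type} {n : ℕ} (e : Fin n → ι → ℝ) (S : Fin n → ZMod 2) :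
    ι → ℝ :=
  ∏ j, (if S j = 0 then 1 else -(e j))

theorem ProjBAux_norm_prod {Y : Type*} [NormedAddCommGroup Y] [NormedSpace ℝ Y] {ι : Type}
    (Θ : (ι → ℝ) →ₗ[ℝ] (Y →L[ℝ] Y))
    (hmul : ∀ f g, Θ (f * g) = Θ f * Θ g) (hone : Θ 1 = 1) {κ : Type} (s : Finset κ)
    (g : κ → ι → ℝ) (hg : ∀ k, ‖Θ (g k)‖ ≤ 1) : ‖Θ (∏ k ∈ s, g k)‖ ≤ 1 := by
  refine Finset.prod_induction g (fun f => ‖Θ f‖ ≤ 1) ?_ ?_ fun k _ => hg k
  · intro a b ha hb
    rw [hmul]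
    exact (norm_mul_le _ _).trans (mul_le_one₀ ha (norm_nonneg _) hb)
  · rw [hone]
    exact ContinuousLinearMap.norm_id_le

theorem ProjBAux_norm_e {Y : Type*} [NormedAddCommGroup Y] [NormedSpace ℝ Y] {ι : Type}
    (Θ : (ι → ℝ) →ₗ[ℝ] (Y →L[ℝ] Y))
    (hmul : ∀ f g, Θ (f * g) = Θ f * Θ g) (hone : Θ 1 = 1) {n : ℕ} (e : Fin n → ι → ℝ)
    (hn : ∀ j, ‖Θ (e j)‖ ≤ 1) (S : Fin n → ZMod 2) : ‖Θ (ProjBAux_e e S)‖ ≤ 1 := by
  refine ProjBAux_norm_prod Θ hmul hone _ _ fun j => ?_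
  split_ifs
  · rw [hone]
    exact ContinuousLinearMap.norm_id_le
  · rw [map_neg, norm_neg]
    exact hn j

theorem ProjBAux_ident {ι : Type} {n : ℕ} (e : Fin n → ι → ℝ) (he : ∀ j, e j * e j = e j) :
    ∏ j, (1 - (3 : ℝ) • e j) =
      ∑ T : Fin n → ZMod 2, ∑ S : Fin n → ZMod 2,
        sg (S ⬝ᵥ T) • (ProjBAux_e e T * ProjBAux_e e S) := by
  funext i
  have key : ∀ T S : Fin n → ZMod 2, (sg (S ⬝ᵥ T) • (ProjBAux_e e T * ProjBAux_e e S)) i =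
      ∏ j, (sg (S j * T j) * ((if T j = 0 then 1 else -(e j i)) *
        (if S j = 0 then 1 else -(e j i)))) := by
    intro T S
    simp only [ProjBAux_e, Pi.smul_apply, Pi.mul_apply, Finset.prod_apply, smul_eq_mul,
      Fou.sg_dot, Finset.prod_mul_distrib, ite_apply, Pi.one_apply, Pi.neg_apply]
  simp only [Finset.sum_apply, key, Finset.prod_apply]
  have h2 : ∀ T : Fin n → ZMod 2, ∑ S : Fin n → ZMod 2,
      ∏ j, (sg (S j * T j) * ((if T j = 0 then 1 else -(e j i)) *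
        (if S j = 0 then 1 else -(e j i)))) =
      ∏ j, ∑ s : ZMod 2, (sg (s * T j) * ((if T j = 0 then 1 else -(e j i)) *
        (if s = 0 then 1 else -(e j i)))) := fun T =>
    (Fintype.prod_sum (fun (j : Fin n) (s : ZMod 2) => sg (s * T j) *
      ((if T j = 0 then 1 else -(e j i)) * (if s = 0 then 1 else -(e j i))))).symm
  simp only [h2]
  rw [← Fintype.prod_sum (fun (j : Fin n) (t : ZMod 2) => ∑ s : ZMod 2, (sg (s * t) *
      ((if t = 0 then 1 else -(e j i)) * (if s = 0 then 1 else -(e j i)))))]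
  refine Finset.prod_congr rfl fun j _ => ?_
  have hj : e j i * e j i = e j i := congrFun (he j) i
  simp only [ProjBAux_sum2, Pi.sub_apply, Pi.one_apply, Pi.smul_apply, smul_eq_mul]
  simp
  linarith

theorem ProjBAux_sum_le {Y : Type*} [NormedAddCommGroup Y] {n : ℕ}
    (g : (Fin n → ZMod 2) → Y) : ∑ T, ‖g T‖ ≤ 2 ^ n * l2 g := by
  have h2 : (0 : ℝ) < 2 ^ n := by positivity
  refine le_of_sq_le_sq ?_ (mul_nonneg h2.le (l2_nonneg g))
  have h3 := sq_sum_le_card_mul_sum_sq (s := (Finset.univ : Finset (Fin n → ZMod 2)))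
    (f := fun T => ‖g T‖)
  rw [Finset.card_univ, card_cube] at h3
  rw [mul_pow, l2_sq, expect_cube]
  refine h3.trans (le_of_eq ?_)
  field_simp

theorem ProjBAux_l2_le {Y : Type*} [NormedAddCommGroup Y] {n : ℕ}
    (g : (Fin n → ZMod 2) → Y) {c : ℝ} (hc : 0 ≤ c) (hg : ∀ T, ‖g T‖ ≤ c) : l2 g ≤ c := by
  rw [l2_eq]
  refine Real.sqrt_le_iff.2 ⟨hc, Finset.expect_le Finset.univ_nonempty fun T _ => ?_⟩
  exact pow_le_pow_left₀ (norm_nonneg _) (hg T) 2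

theorem ProjBAux_step1 {Y : Type*} [NormedAddCommGroup Y] [NormedSpace ℝ Y] {C ρ : ℝ}
    (hC : 0 ≤ C) (h1 : 0 ≤ ρ) (h : Walsh2 Y C ρ) {ι : Type} (Θ : (ι → ℝ) →ₗ[ℝ] (Y →L[ℝ] Y))
    (hmul : ∀ f g, Θ (f * g) = Θ f * Θ g) (hone : Θ 1 = 1) (n : ℕ) (e : Fin n → ι → ℝ)
    (he : ∀ j, e j * e j = e j) (hn : ∀ j, ‖Θ (e j)‖ ≤ 1) :
    ‖Θ (∏ j, (1 - (3 : ℝ) • e j))‖ ≤ C * (2 * ρ) ^ n := by
  refine ContinuousLinearMap.opNorm_le_bound _ (by positivity) fun f => ?_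
  set x : (Fin n → ZMod 2) → Y := fun S => Θ (ProjBAux_e e S) f with hx
  have hE := ProjBAux_norm_e Θ hmul hone e hn
  have hx1 : ∀ S, ‖x S‖ ≤ ‖f‖ := fun S =>
    ((Θ (ProjBAux_e e S)).le_opNorm f).trans (mul_le_of_le_one_left (norm_nonneg _) (hE S))
  have hid : Θ (∏ j, (1 - (3 : ℝ) • e j)) f = ∑ T, Θ (ProjBAux_e e T) (walsh x T) := by
    rw [ProjBAux_ident e he]
    simp only [map_sum, map_smul, hmul, _root_.sum_apply,
      smul_apply, mul_apply_eq_comp, walsh, hx]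
  rw [hid]
  calc ‖∑ T, Θ (ProjBAux_e e T) (walsh x T)‖ ≤ ∑ T, ‖walsh x T‖ := by
        refine (norm_sum_le _ _).trans (Finset.sum_le_sum fun T _ => ?_)
        exact ((Θ (ProjBAux_e e T)).le_opNorm _).trans
          (mul_le_of_le_one_left (norm_nonneg _) (hE T))
    _ ≤ 2 ^ n * l2 (walsh x) := ProjBAux_sum_le _
    _ ≤ 2 ^ n * (C * ρ ^ n * ‖f‖) := by
        refine mul_le_mul_of_nonneg_left ((h n x).trans ?_) (by positivity)
        exact mul_le_mul_of_nonneg_left (ProjBAux_l2_le x (norm_nonneg _) hx1) (by positivity)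
    _ = C * (2 * ρ) ^ n * ‖f‖ := by rw [mul_pow]; ring

theorem ProjBAux_step2 {Y : Type*} [NormedAddCommGroup Y] [NormedSpace ℝ Y] {C ρ : ℝ}
    (hC : 0 ≤ C) (h1 : 0 ≤ ρ) (h : Walsh2 Y C ρ) {ι : Type} (Θ : (ι → ℝ) →ₗ[ℝ] (Y →L[ℝ] Y))
    (hmul : ∀ f g, Θ (f * g) = Θ f * Θ g) (hone : Θ 1 = 1) (n : ℕ) (e : Fin n → ι → ℝ)
    (he : ∀ j, e j * e j = e j) (hn : ∀ j, ‖Θ (e j)‖ ≤ 1) (T : Finset (Fin n)) :
    ‖Θ (∏ j ∈ T, (1 - (3 : ℝ) • e j))‖ ≤ C * (2 * ρ) ^ T.card := by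
  have := ProjBAux_step1 hC h1 h Θ hmul hone T.card (fun k => e (T.equivFin.symm k))
    (fun k => he _) (fun k => hn _)
  rwa [Equiv.prod_comp T.equivFin.symm (fun k : T => (1 - (3 : ℝ) • e k)),
    Finset.prod_coe_sort T (fun k => (1 - (3 : ℝ) • e k))] at this

theorem projB {Y : Type*} [NormedAddCommGroup Y] [NormedSpace ℝ Y] {C ρ : ℝ}
    (hC : 0 ≤ C) (h1 : 0 ≤ ρ) (h : Walsh2 Y C ρ) {ι : Type} (Θ : (ι → ℝ) →ₗ[ℝ] (Y →L[ℝ] Y))
    (hmul : ∀ f g, Θ (f * g) = Θ f * Θ g) (hone : Θ 1 = 1) (n : ℕ) (e : Fin n → ι → ℝ)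
    (he : ∀ j, e j * e j = e j) (hn : ∀ j, ‖Θ (e j)‖ ≤ 1) :
    ‖Θ (∏ j, (1 - e j))‖ ≤ C * ((2 + 2 * ρ) / 3) ^ n := by
  have hexp : ∏ j, (1 - e j) = ∑ T ∈ (Finset.univ : Finset (Fin n)).powerset,
      ((1 / 3 : ℝ) ^ T.card * (2 / 3 : ℝ) ^ (n - T.card)) • ∏ j ∈ T, (1 - (3 : ℝ) • e j) := by
    funext i
    have : ∀ j, (1 - e j) i = (1 / 3 : ℝ) * (1 - (3 : ℝ) • e j) i + 2 / 3 := by
      intro j
      simp only [Pi.sub_apply, Pi.one_apply, Pi.smul_apply, smul_eq_mul]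
      ring
    simp only [Finset.prod_apply, Finset.sum_apply, Pi.smul_apply, smul_eq_mul]
    rw [Finset.prod_congr rfl fun j _ => this j, Finset.prod_add]
    refine Finset.sum_congr rfl fun T _ => ?_
    rw [Finset.prod_mul_distrib, Finset.prod_const, Finset.prod_const, Finset.card_univ_sdiff,
      Fintype.card_fin]
    ring
  rw [hexp, map_sum]
  calc ‖∑ T ∈ (Finset.univ : Finset (Fin n)).powerset,
        Θ (((1 / 3 : ℝ) ^ T.card * (2 / 3 : ℝ) ^ (n - T.card)) • ∏ j ∈ T, (1 - (3 : ℝ) • e j))‖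
      ≤ ∑ T ∈ (Finset.univ : Finset (Fin n)).powerset,
          C * ((2 * ρ / 3) ^ T.card * (2 / 3 : ℝ) ^ (n - T.card)) := by
        refine (norm_sum_le _ _).trans (Finset.sum_le_sum fun T _ => ?_)
        rw [map_smul, norm_smul, Real.norm_of_nonneg (by positivity)]
        refine (mul_le_mul_of_nonneg_left (ProjBAux_step2 hC h1 h Θ hmul hone n e he hn T)
          (by positivity)).trans (le_of_eq ?_)
        rw [show 2 * ρ / 3 = (1 / 3) * (2 * ρ) by ring, mul_pow (1 / 3 : ℝ)]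
        ring
    _ = C * ((2 + 2 * ρ) / 3) ^ n := by
        rw [← Finset.mul_sum]
        have := Finset.sum_pow_mul_eq_add_pow (2 * ρ / 3) (2 / 3 : ℝ)
          (Finset.univ : Finset (Fin n))
        rw [Finset.card_univ, Fintype.card_fin] at this
        rw [this]
        congr 2
        ring

end Vale.Agent.P111
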