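import Vale.Agent.P111.Base

namespace Vale.Agent.P111

open Finset
open scoped BigOperators

section

variable {ι : Type} [Fintype ι] {E : Type*} [NormedAddCommGroup E] [NormedSpace ℝ E]
  {Ψ : (ι → ℂ) →L[ℝ] E}

theorem ProjOneAux_pow (hΨ : Mult Ψ) (f : ι → ℂ) {j : ℕ} (hj : 1 ≤ j) :
    ‖Ψ (f ^ j)‖ ≤ (2 * ‖Ψ f‖) ^ j / 2 := by
  induction j, hj using Nat.le_induction with
  | base => simp
  | succ j _ ih =>
    rw [pow_succ, pow_succ]
    refine (hΨ.mul _ _).trans ?_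
    have := mul_le_mul_of_nonneg_right ih (norm_nonneg (Ψ f))
    linarith

theorem ProjOneAux_g (hΨ : Mult Ψ) (d : ι → ℕ) {Q a : ℝ} (ha : 0 < a)
    (hT : ∀ t : ℝ, 0 ≤ t → ‖Ψ fun i => (Real.exp (-(t * d i)) : ℂ)‖ ≤ 1)
    (hL : ∀ t : ℝ, 0 < t → ‖Ψ fun i => ((d i * Real.exp (-(t * d i)) : ℝ) : ℂ)‖ ≤ Q / t)
    (j : ℕ) :
    ‖Ψ fun i => (d i : ℂ) ^ j * (Real.exp (-(a * d i)) : ℂ)‖ ≤ (2 * Q / a * j) ^ j := by
  rcases Nat.eq_zero_or_pos j with rfl | hj
  · simpa only [pow_zero, one_mul] using hT a ha.le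
  have hj' : (0 : ℝ) < j := Nat.cast_pos.2 hj
  have e : (fun i => (d i : ℂ) ^ j * (Real.exp (-(a * d i)) : ℂ)) =
      (fun i => ((d i * Real.exp (-(a / j * d i)) : ℝ) : ℂ)) ^ j := by
    funext i
    have : -(a * d i) = j * -(a / j * d i) := by field_simp
    rw [Pi.pow_apply, this, Real.exp_nat_mul]
    push_cast
    rw [mul_pow]
  have h1 := hL (a / j) (by positivity)
  have h2 : (2 * ‖Ψ fun i => ((d i * Real.exp (-(a / j * d i)) : ℝ) : ℂ)‖) ^ j ≤
      (2 * Q / a * j) ^ j := by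
    refine pow_le_pow_left₀ (by positivity) ?_ j
    have : 2 * Q / a * j = 2 * (Q / (a / j)) := by field_simp
    linarith
  rw [e]
  refine (ProjOneAux_pow hΨ _ hj).trans ?_
  have h3 : 0 ≤ (2 * ‖Ψ fun i => ((d i * Real.exp (-(a / j * d i)) : ℝ) : ℂ)‖) ^ j := by
    positivity
  linarith

theorem ProjOneAux_num {Q b : ℝ} (hQ : 0 ≤ Q) (hb : |b| ≤ Real.pi) (j : ℕ) :
    |b| ^ j / j.factorial * (2 * Q / (40 * Q + 1) * j) ^ j ≤ (1 / 2) ^ j := by
  have h1 := Real.pow_div_factorial_le_exp (j : ℝ) (Nat.cast_nonneg j) j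
  have h2 : Real.exp j = Real.exp 1 ^ j := by rw [← Real.exp_nat_mul, mul_one]
  have h3 : 2 * Q / (40 * Q + 1) ≤ 1 / 20 := by
    rw [div_le_div_iff₀ (by positivity) (by norm_num)]
    linarith
  have h4 : |b| * (2 * Q / (40 * Q + 1)) * Real.exp 1 ≤ 1 / 2 := by
    have p1 := Real.pi_lt_d2
    have p2 := Real.exp_one_lt_d9
    calc |b| * (2 * Q / (40 * Q + 1)) * Real.exp 1 ≤ 3.15 * (1 / 20) * 3 := by
          gcongr <;> linarith
      _ ≤ 1 / 2 := by norm_num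
  calc |b| ^ j / j.factorial * (2 * Q / (40 * Q + 1) * j) ^ j
      = (|b| * (2 * Q / (40 * Q + 1))) ^ j * ((j : ℝ) ^ j / j.factorial) := by
        rw [mul_pow, mul_pow]
        ring
    _ ≤ (|b| * (2 * Q / (40 * Q + 1))) ^ j * Real.exp 1 ^ j := by
        rw [← h2]
        gcongr
    _ ≤ (1 / 2) ^ j := by
        rw [← mul_pow]
        gcongr

theorem ProjOneAux_four (hΨ : Mult Ψ) (d : ι → ℕ) {Q : ℝ} (hQ : 0 ≤ Q)
    (hT : ∀ t : ℝ, 0 ≤ t → ‖Ψ fun i => (Real.exp (-(t * d i)) : ℂ)‖ ≤ 1)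
    (hL : ∀ t : ℝ, 0 < t → ‖Ψ fun i => ((d i * Real.exp (-(t * d i)) : ℝ) : ℂ)‖ ≤ Q / t)
    {b : ℝ} (hb : |b| ≤ Real.pi) :
    ‖Ψ fun i => Complex.exp (b * Complex.I * d i) *
      (Real.exp (-((40 * Q + 1) * d i)) : ℂ)‖ ≤ 4 := by
  have hs : HasSum (fun j : ℕ => ((b * Complex.I) ^ j / j.factorial : ℂ) •
      fun i => (d i : ℂ) ^ j * (Real.exp (-((40 * Q + 1) * d i)) : ℂ))
      (fun i => Complex.exp (b * Complex.I * d i) * (Real.exp (-((40 * Q + 1) * d i)) : ℂ)) := by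
    refine Pi.hasSum.2 fun i => ?_
    have := (NormedSpace.expSeries_div_hasSum_exp (b * Complex.I * d i : ℂ)).mul_right
      (Real.exp (-((40 * Q + 1) * d i)) : ℂ)
    rw [← Complex.exp_eq_exp_ℂ] at this
    refine this.congr_fun fun j => ?_
    simp only [Pi.smul_apply, smul_eq_mul]
    rw [mul_pow (b * Complex.I : ℂ)]
    ring
  have h2 : HasSum (fun j : ℕ => 2 * (1 / 2 : ℝ) ^ j) (2 * 2) := hasSum_geometric_two.mul_left 2
  refine ((hs.mapL Ψ).norm_le_of_bounded h2 fun j => ?_).trans_eq (by norm_num)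
  refine (hΨ.smul _ _).trans ?_
  have e : ‖((b * Complex.I) ^ j / j.factorial : ℂ)‖ = |b| ^ j / j.factorial := by
    simp
  have h3 := ProjOneAux_g hΨ d (a := 40 * Q + 1) (by positivity) hT hL j
  have h4 := ProjOneAux_num hQ hb j
  rw [e, mul_assoc]
  refine mul_le_mul_of_nonneg_left (le_trans ?_ h4) zero_le_two
  exact mul_le_mul_of_nonneg_left h3 (by positivity)

theorem ProjOneAux_int (n : ℕ) :
    ∫ b in (-Real.pi)..Real.pi, Complex.exp (-(b * Complex.I)) * Complex.exp (b * Complex.I * n) =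
      if n = 1 then (2 * Real.pi : ℂ) else 0 := by
  have e : ∀ b : ℝ, Complex.exp (-(b * Complex.I)) * Complex.exp (b * Complex.I * n) =
      Complex.exp (((n - 1) * Complex.I) * b) := fun b => by
    rw [← Complex.exp_add]
    congr 1
    ring
  simp only [e]
  split_ifs with h
  · simp [h, two_mul]
  · have hn : ((n : ℂ) - 1) * Complex.I ≠ 0 :=
      mul_ne_zero (sub_ne_zero.2 (by exact_mod_cast h)) Complex.I_ne_zero
    have h1 := Complex.exp_int_mul_two_pi_mul_I ((n : ℤ) - 1)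
    have h2 : ((n : ℂ) - 1) * Complex.I * (Real.pi : ℝ) =
        ((n : ℂ) - 1) * Complex.I * (-Real.pi : ℝ) +
          (((n : ℤ) - 1 : ℤ) : ℂ) * (2 * Real.pi * Complex.I) := by
      push_cast
      ring
    rw [integral_exp_mul_complex hn, h2, Complex.exp_add, h1]
    simp

end

theorem projOne {ι : Type} [Fintype ι] {E : Type*} [NormedAddCommGroup E] [NormedSpace ℝ E]
    [CompleteSpace E] {Ψ : (ι → ℂ) →L[ℝ] E} (hΨ : Mult Ψ) (d : ι → ℕ) {Q : ℝ} (hQ : 0 ≤ Q)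
    (hT : ∀ t : ℝ, 0 ≤ t → ‖Ψ fun i => (Real.exp (-(t * d i)) : ℂ)‖ ≤ 1)
    (hL : ∀ t : ℝ, 0 < t → ‖Ψ fun i => ((d i * Real.exp (-(t * d i)) : ℝ) : ℂ)‖ ≤ Q / t) :
    ‖Ψ fun i => if d i = 1 then 1 else 0‖ ≤ 8 * Real.exp (40 * Q + 1) := by
  obtain ⟨G, hG⟩ : ∃ G : ℝ → ι → ℂ, G = fun b : ℝ => Complex.exp (-(b * Complex.I)) •
      fun i => Complex.exp (b * Complex.I * d i) * (Real.exp (-((40 * Q + 1) * d i)) : ℂ) :=
    ⟨_, rfl⟩
  have hc : Continuous G := by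
    rw [hG]
    fun_prop
  have hi : IntervalIntegrable G MeasureTheory.volume (-Real.pi) Real.pi :=
    hc.intervalIntegrable _ _
  have hb : ‖∫ b in (-Real.pi)..Real.pi, Ψ (G b)‖ ≤ 8 * |Real.pi - -Real.pi| := by
    refine intervalIntegral.norm_integral_le_of_norm_le_const fun b hb => ?_
    rw [Set.uIoc_of_le (by linarith [Real.pi_pos])] at hb
    have h1 := ProjOneAux_four hΨ d hQ hT hL (abs_le.2 ⟨hb.1.le, hb.2⟩)
    have e : ‖Complex.exp (-(b * Complex.I))‖ = 1 := by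
      rw [Complex.norm_exp]
      simp
    rw [hG]
    refine (hΨ.smul _ _).trans ?_
    rw [e]
    linarith
  have e : (fun i => if d i = 1 then (1 : ℂ) else 0) =
      (Real.exp (40 * Q + 1) / (2 * Real.pi)) • ∫ b in (-Real.pi)..Real.pi, G b := by
    funext i
    have h1 := (ContinuousLinearMap.proj (R := ℝ) (φ := fun _ : ι => ℂ) i).intervalIntegral_comp_comm
      hi
    simp only [ContinuousLinearMap.proj_apply] at h1
    rw [Pi.smul_apply, ← h1]
    simp only [hG, Pi.smul_apply, smul_eq_mul, ← mul_assoc]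
    rw [intervalIntegral.integral_mul_const, ProjOneAux_int]
    split_ifs with h
    · have hp : (Real.pi : ℂ) ≠ 0 := by exact_mod_cast Real.pi_ne_zero
      have hx : (Real.exp (40 * Q + 1) : ℂ) ≠ 0 := by exact_mod_cast Real.exp_ne_zero _
      rw [h, Nat.cast_one, mul_one, Real.exp_neg, Complex.real_smul, Complex.ofReal_inv,
        Complex.ofReal_div]
      generalize (Real.exp (40 * Q + 1) : ℂ) = x at hx
      push_cast
      field_simp
    · simp
  rw [e, map_smul, ← Ψ.intervalIntegral_comp_comm hi, norm_smul, Real.norm_eq_abs,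
    abs_of_nonneg (by positivity)]
  refine (mul_le_mul_of_nonneg_left hb (by positivity)).trans_eq ?_
  rw [sub_neg_eq_add, abs_of_nonneg (by positivity)]
  field_simp
  ring

end Vale.Agent.P111
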