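import Vale.Agent.P111.Base

namespace Vale.Agent.P111

open Finset
open scoped BigOperators

section aux

open MeasureTheory

variable {ι : Type} [Fintype ι] {E : Type*} [NormedAddCommGroup E] [NormedSpace ℝ E]
  [CompleteSpace E] {Ψ : (ι → ℂ) →L[ℝ] E}

theorem ResolvAux_re (a y : ℝ) (n : ℕ) (ha : 0 < a) :
    (-((a : ℂ) + y * Complex.I + n)).re < 0 := by
  have : (0 : ℝ) ≤ n := Nat.cast_nonneg n
  simp
  linarith

theorem ResolvAux_int (hΨ : Mult Ψ) (d : ι → ℕ)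
    (hT : ∀ t : ℝ, 0 ≤ t → ‖Ψ fun i => (Real.exp (-(t * d i)) : ℂ)‖ ≤ 1)
    {a : ℝ} (ha : 0 < a) (y : ℝ) {S : Set ℝ} (hS : MeasurableSet S) (hS0 : S ⊆ Set.Ioi 0) :
    ‖Ψ fun i => ∫ s in S, Complex.exp (-((a : ℂ) + y * Complex.I + d i) * s)‖ ≤
      ∫ s in S, 2 * Real.exp (-a * s) := by
  have hi : Integrable (fun (s : ℝ) (i : ι) =>
      Complex.exp (-((a : ℂ) + y * Complex.I + d i) * s)) (volume.restrict S) :=
    Integrable.of_eval fun i =>
      (integrableOn_exp_mul_complex_Ioi (ResolvAux_re a y (d i) ha) 0).mono_set hS0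
  have h1 : (fun i => ∫ s in S, Complex.exp (-((a : ℂ) + y * Complex.I + d i) * s)) =
      ∫ s in S, fun i => Complex.exp (-((a : ℂ) + y * Complex.I + d i) * s) := by
    funext i
    exact (ContinuousLinearMap.proj (R := ℝ) (φ := fun _ : ι => ℂ) i).integral_comp_comm hi
  rw [h1, ← Ψ.integral_comp_comm hi]
  refine norm_integral_le_of_norm_le
    (((integrableOn_exp_mul_Ioi (neg_lt_zero.2 ha) 0).mono_set hS0).const_mul 2) ?_
  filter_upwards [ae_restrict_mem hS] with s hs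
  have h2 : (fun i => Complex.exp (-((a : ℂ) + y * Complex.I + d i) * s)) =
      Complex.exp (-((a : ℂ) + y * Complex.I) * s) • fun i => (Real.exp (-(s * d i)) : ℂ) := by
    funext i
    rw [Pi.smul_apply, smul_eq_mul, Complex.ofReal_exp, ← Complex.exp_add]
    congr 1
    push_cast
    ring
  have h3 : ‖Complex.exp (-((a : ℂ) + y * Complex.I) * s)‖ = Real.exp (-a * s) := by
    rw [Complex.norm_exp]
    simp
  rw [h2]
  refine (hΨ.smul _ _).trans ?_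
  rw [h3]
  exact mul_le_of_le_one_right (by positivity) (hT s (le_of_lt (hS0 hs)))

theorem ResolvAux_one (hΨ : Mult Ψ) (d : ι → ℕ)
    (hT : ∀ t : ℝ, 0 ≤ t → ‖Ψ fun i => (Real.exp (-(t * d i)) : ℂ)‖ ≤ 1)
    {a : ℝ} (ha : 0 < a) (y : ℝ) :
    ‖Ψ fun i => ((a : ℂ) + y * Complex.I + d i)⁻¹‖ ≤ 2 / a := by
  have h := ResolvAux_int hΨ d hT ha y measurableSet_Ioi (Set.Subset.refl _)
  rw [integral_const_mul, integral_exp_mul_Ioi (neg_lt_zero.2 ha)] at h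
  simp only [fun i => integral_exp_mul_complex_Ioi (ResolvAux_re a y (d i) ha) 0,
    Complex.ofReal_zero, mul_zero, Complex.exp_zero, Real.exp_zero, neg_div_neg_eq, one_div] at h
  rwa [div_eq_mul_inv]

omit [Fintype ι] [CompleteSpace E] in
theorem ResolvAux_geom (u : ι → ℝ) (hu : ∀ i, 0 ≤ u i ∧ u i ≤ 1) {C ρ : ℝ}
    (h0 : 0 ≤ ρ) (h2 : ρ < 2) (hN : ∀ n : ℕ, ‖Ψ fun i => (((1 - u i) ^ n : ℝ) : ℂ)‖ ≤ C * ρ ^ n)
    {k : ℝ} (hk0 : 0 ≤ k) (hk1 : k ≤ 1) :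
    ‖Ψ fun i => (((1 + k * u i)⁻¹ : ℝ) : ℂ)‖ ≤ C / (1 - ρ / 2) := by
  have hk : 0 < 1 + k := by linarith
  have hq0 : 0 ≤ k / (1 + k) := by positivity
  have hq1 : k / (1 + k) ≤ 1 / 2 := by
    rw [div_le_iff₀ hk]
    linarith
  have hs : HasSum (fun n : ℕ => ((1 + k)⁻¹ * (k / (1 + k)) ^ n) •
      fun i => (((1 - u i) ^ n : ℝ) : ℂ)) fun i => (((1 + k * u i)⁻¹ : ℝ) : ℂ) := by
    refine Pi.hasSum.2 fun i => ?_
    have h3 := hu i
    have h4 : k / (1 + k) * (1 - u i) < 1 := by nlinarith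
    have h5 := (hasSum_geometric_of_lt_one (mul_nonneg hq0 (by linarith)) h4).mul_left (1 + k)⁻¹
    have h6 : (1 + k)⁻¹ * (1 - k / (1 + k) * (1 - u i))⁻¹ = (1 + k * u i)⁻¹ := by
      rw [← mul_inv]
      congr 1
      field_simp
      ring
    rw [h6] at h5
    simp only [Pi.smul_apply, Complex.real_smul, ← Complex.ofReal_mul, mul_assoc, ← mul_pow]
    exact Complex.hasSum_ofReal.2 h5
  have hg := (hasSum_geometric_of_lt_one (by positivity : 0 ≤ ρ / 2) (by linarith)).mul_left C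
  rw [div_eq_mul_inv]
  refine (hs.mapL Ψ).norm_le_of_bounded hg fun n => ?_
  rw [map_smul, norm_smul, Real.norm_of_nonneg (by positivity)]
  have h7 : (1 + k)⁻¹ * (k / (1 + k)) ^ n ≤ (1 / 2) ^ n :=
    (mul_le_of_le_one_left (by positivity) (inv_le_one_of_one_le₀ (by linarith))).trans
      (pow_le_pow_left₀ hq0 hq1 n)
  calc _ ≤ (1 / 2) ^ n * (C * ρ ^ n) := mul_le_mul h7 (hN n) (norm_nonneg _) (by positivity)
    _ = C * (ρ / 2) ^ n := by rw [div_pow, div_pow, one_pow]; ring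

theorem ResolvAux_two (hΨ : Mult Ψ) (d : ι → ℕ) {C ρ : ℝ} (h0 : 0 ≤ ρ) (h2 : ρ < 2)
    (hT : ∀ t : ℝ, 0 ≤ t → ‖Ψ fun i => (Real.exp (-(t * d i)) : ℂ)‖ ≤ 1)
    (hN : ∀ t : ℝ, 0 ≤ t → ∀ n : ℕ,
      ‖Ψ fun i => (((1 - Real.exp (-(t * d i))) ^ n : ℝ) : ℂ)‖ ≤ C * ρ ^ n)
    {a : ℝ} (ha : 0 < a) {y : ℝ} (hy : y ≠ 0) :
    ‖Ψ fun i => ((a : ℂ) + y * Complex.I + d i)⁻¹‖ ≤ 4 * Real.pi * (C / (1 - ρ / 2)) / |y| := by
  have hy' : 0 < |y| := abs_pos.2 hy
  obtain ⟨h, hh⟩ : ∃ h : ℝ, h = Real.pi / |y| := ⟨_, rfl⟩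
  have hp : 0 < h := by rw [hh]; exact div_pos Real.pi_pos hy'
  have hJ := ResolvAux_int hΨ d hT ha y (S := Set.Ioc 0 h) measurableSet_Ioc Set.Ioc_subset_Ioi_self
  have hb : ∫ s in Set.Ioc 0 h, 2 * Real.exp (-a * s) ≤ 2 * h := by
    refine (Real.le_norm_self _).trans ((norm_setIntegral_le_of_norm_le_const (C := 2)
      measure_Ioc_lt_top fun s hs => ?_).trans (by simp [hp.le]))
    rw [Real.norm_of_nonneg (by positivity)]
    have : Real.exp (-a * s) ≤ 1 := Real.exp_le_one_iff.2 (by nlinarith [hs.1])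
    linarith
  have hG := ResolvAux_geom (Ψ := Ψ) (fun i => Real.exp (-(h * d i)))
    (fun i => ⟨(Real.exp_pos _).le, Real.exp_le_one_iff.2 (neg_nonpos.2 (by positivity))⟩) h0 h2
    (hN h hp.le) (Real.exp_pos (-(a * h))).le (Real.exp_le_one_iff.2 (neg_nonpos.2 (by positivity)))
  have he : Complex.exp (-((y * h : ℝ) * Complex.I)) = -1 := by
    rcases lt_or_gt_of_ne hy with h1 | h1
    · have : y * h = -Real.pi := by
        rw [hh, abs_of_neg h1]
        field_simp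
      rw [this, Complex.ofReal_neg, neg_mul, neg_neg, Complex.exp_pi_mul_I]
    · have : y * h = Real.pi := by
        rw [hh, abs_of_pos h1]
        field_simp
      rw [this, Complex.exp_neg, Complex.exp_pi_mul_I]
      norm_num
  have hR : (fun i => ((a : ℂ) + y * Complex.I + d i)⁻¹) =
      (fun i => (((1 + Real.exp (-(a * h)) * Real.exp (-(h * d i)))⁻¹ : ℝ) : ℂ)) *
        fun i => ∫ s in Set.Ioc 0 h, Complex.exp (-((a : ℂ) + y * Complex.I + d i) * s) := by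
    funext i
    have hc : -((a : ℂ) + y * Complex.I + d i) ≠ 0 := fun h0 => by
      have := ResolvAux_re a y (d i) ha
      rw [h0] at this
      simp at this
    have h3 : Complex.exp (-((a : ℂ) + y * Complex.I + d i) * h) =
        -((Real.exp (-(a * h)) * Real.exp (-(h * d i)) : ℝ) : ℂ) := by
      rw [← Real.exp_add, Complex.ofReal_exp, neg_eq_neg_one_mul (Complex.exp _), ← he,
        ← Complex.exp_add]
      congr 1
      push_cast
      ring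
    have h4 : ((1 + Real.exp (-(a * h)) * Real.exp (-(h * d i)) : ℝ) : ℂ) ≠ 0 :=
      Complex.ofReal_ne_zero.2 (by positivity)
    rw [Pi.mul_apply, ← intervalIntegral.integral_of_le hp.le, integral_exp_mul_complex hc, h3,
      Complex.ofReal_zero, mul_zero, Complex.exp_zero, Complex.ofReal_inv, ← neg_add',
      neg_div_neg_eq, add_comm _ (1 : ℂ), ← Complex.ofReal_one, ← Complex.ofReal_add,
      div_eq_mul_inv, inv_mul_cancel_left₀ h4]
  rw [hR]
  refine (hΨ.mul _ _).trans ?_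
  calc _ ≤ 2 * (C / (1 - ρ / 2)) * (2 * h) :=
        mul_le_mul (mul_le_mul_of_nonneg_left hG (by norm_num)) (hJ.trans hb) (norm_nonneg _)
          (mul_nonneg (by norm_num) ((norm_nonneg _).trans hG))
    _ = _ := by rw [hh]; ring

end aux

theorem resolv {ι : Type} [Fintype ι] {E : Type*} [NormedAddCommGroup E] [NormedSpace ℝ E]
    [CompleteSpace E] {Ψ : (ι → ℂ) →L[ℝ] E} (hΨ : Mult Ψ) (d : ι → ℕ) {C ρ : ℝ} (hC : 0 ≤ C)
    (h0 : 0 ≤ ρ) (h2 : ρ < 2)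
    (hT : ∀ t : ℝ, 0 ≤ t → ‖Ψ fun i => (Real.exp (-(t * d i)) : ℂ)‖ ≤ 1)
    (hN : ∀ t : ℝ, 0 ≤ t → ∀ n : ℕ,
      ‖Ψ fun i => (((1 - Real.exp (-(t * d i))) ^ n : ℝ) : ℂ)‖ ≤ C * ρ ^ n)
    {a : ℝ} (ha : 0 < a) (y : ℝ) :
    ‖Ψ fun i => ((a : ℂ) + y * Complex.I + d i)⁻¹‖ ≤
      (8 * Real.pi * (C / (1 - ρ / 2)) + 4) / ‖(a : ℂ) + y * Complex.I‖ := by
  have hG : 0 ≤ C / (1 - ρ / 2) := div_nonneg hC (by linarith)
  have hπ := mul_nonneg Real.pi_pos.le hG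
  have hm : ‖(a : ℂ) + y * Complex.I‖ ≤ a + |y| := by
    refine (norm_add_le _ _).trans ?_
    simp [abs_of_pos ha]
  have hm0 : 0 < ‖(a : ℂ) + y * Complex.I‖ := norm_pos_iff.2 fun h => by
    have := congrArg Complex.re h
    simp at this
    linarith
  rcases le_total a |y| with h | h
  · have hy : 0 < |y| := ha.trans_le h
    refine (ResolvAux_two hΨ d h0 h2 hT hN ha (abs_pos.1 hy)).trans ?_
    rw [div_le_div_iff₀ hy hm0]
    nlinarith [mul_le_mul_of_nonneg_left (hm.trans (add_le_add_left h _)) hπ]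
  · refine (ResolvAux_one hΨ d hT ha y).trans ?_
    rw [div_le_div_iff₀ ha hm0]
    nlinarith [mul_nonneg hπ ha.le]

end Vale.Agent.P111
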