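import Vale.Agent.P111.Base

namespace Vale.Agent.P111

open Finset
open scoped BigOperators

theorem SemiAux_conv {E ι α : Type*} [NormedAddCommGroup E] [NormedSpace ℝ E] [Fintype ι]
    (Θ : (α → ℝ) →ₗ[ℝ] E) {p : ι → ℝ} (hp : ∀ i, 0 ≤ p i) (hs : ∑ i, p i = 1)
    {g : ι → α → ℝ} {B : ℝ} (hg : ∀ i, ‖Θ (g i)‖ ≤ B) {f : α → ℝ}
    (hf : ∀ z, f z = ∑ i, p i * g i z) : ‖Θ f‖ ≤ B := by
  have e : f = ∑ i, p i • g i := by
    funext z
    simp [hf]
  rw [e, map_sum]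
  refine (norm_sum_le _ _).trans ?_
  rw [← one_mul B, ← hs, Finset.sum_mul]
  refine Finset.sum_le_sum fun i _ => ?_
  rw [map_smul, norm_smul, Real.norm_of_nonneg (hp i)]
  exact mul_le_mul_of_nonneg_left (hg i) (hp i)

/-- The indicator of the strings that vanish on `A`. -/
noncomputable def SemiAux_e {s : ℕ} (A : Fin s → Bool) (z : Fin s → ZMod 2) : ℝ :=
  ∏ i, if A i then (if z i = 0 then 1 else 0) else 1

/-- The product weight. -/
noncomputable def SemiAux_p {s : ℕ} (w : ℝ) (A : Fin s → Bool) : ℝ :=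
  ∏ i, if A i then 1 - w else w

theorem SemiAux_idem {s : ℕ} (A : Fin s → Bool) : SemiAux_e A * SemiAux_e A = SemiAux_e A := by
  funext z
  simp only [Pi.mul_apply, SemiAux_e, ← Finset.prod_mul_distrib]
  refine Finset.prod_congr rfl fun i _ => ?_
  split_ifs <;> simp

theorem SemiAux_sum {s : ℕ} (w : ℝ) : ∑ A : Fin s → Bool, SemiAux_p w A = 1 := by
  unfold SemiAux_p
  rw [← Fintype.prod_sum fun (_ : Fin s) (b : Bool) => if b then 1 - w else w]
  simp

theorem SemiAux_pow {s : ℕ} (w : ℝ) (z : Fin s → ZMod 2) :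
    w ^ hammingNorm z = ∑ A : Fin s → Bool, SemiAux_p w A * SemiAux_e A z := by
  simp only [SemiAux_p, SemiAux_e, ← Finset.prod_mul_distrib]
  rw [← Fintype.prod_sum fun (i : Fin s) (b : Bool) =>
    (if b then 1 - w else w) * if b then (if z i = 0 then 1 else 0) else 1]
  rw [hammingNorm, ← Finset.prod_const, Finset.prod_filter]
  refine Finset.prod_congr rfl fun i _ => ?_
  by_cases h : z i = 0 <;> simp [h]

theorem SemiAux_avg {s : ℕ} (A : Fin s → Bool) (z : Fin s → ZMod 2) :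
    SemiAux_e A z =
      ∑ u : Fin s → ZMod 2, 1 / 2 ^ s * sg (z ⬝ᵥ fun i => if A i then u i else 0) := by
  rw [← Finset.mul_sum, one_div, inv_mul_eq_div, ← expect_cube]
  simp only [Fou.sg_dot]
  rw [Fou.expect_prod_pi fun i (x : ZMod 2) => sg (z i * if A i then x else 0)]
  refine Finset.prod_congr rfl fun i _ => ?_
  have hu : (Finset.univ : Finset (ZMod 2)) = {0, 1} := by decide
  rw [Fintype.expect_eq_sum_div_card, hu, Finset.sum_pair (by decide)]
  rcases Fou.zmod2 (z i) with h | h <;> cases A i <;> simp [h]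

theorem semi {E : Type*} [NormedAddCommGroup E] [NormedSpace ℝ E] {s : ℕ}
    (Θ : ((Fin s → ZMod 2) → ℝ) →ₗ[ℝ] E) (B : ℕ → ℝ)
    (hχ : ∀ u : Fin s → ZMod 2, ‖Θ fun z => sg (z ⬝ᵥ u)‖ ≤ 1)
    (hP : ∀ (n : ℕ) (e : Fin n → (Fin s → ZMod 2) → ℝ), (∀ j, e j * e j = e j) →
      (∀ j, ‖Θ (e j)‖ ≤ 1) → ‖Θ (∏ j, (1 - e j))‖ ≤ B n)
    {w : ℝ} (h0 : 0 ≤ w) (h1 : w ≤ 1) :
    ‖Θ fun z => w ^ hammingNorm z‖ ≤ 1 ∧
      ∀ n : ℕ, ‖Θ fun z => (1 - w ^ hammingNorm z) ^ n‖ ≤ B n := by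
  have hp : ∀ A : Fin s → Bool, 0 ≤ SemiAux_p w A := fun A =>
    Finset.prod_nonneg fun i _ => by split_ifs <;> linarith
  have he : ∀ A : Fin s → Bool, ‖Θ (SemiAux_e A)‖ ≤ 1 := fun A =>
    SemiAux_conv Θ (p := fun _ : Fin s → ZMod 2 => 1 / 2 ^ s) (fun _ => by positivity)
      (by simp) (fun u => hχ fun i => if A i then u i else 0) (SemiAux_avg A)
  refine ⟨SemiAux_conv Θ hp (SemiAux_sum w) he (SemiAux_pow w), fun n => ?_⟩
  refine SemiAux_conv Θ (p := fun F : Fin n → Fin s → Bool => ∏ j, SemiAux_p w (F j))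
    (fun F => Finset.prod_nonneg fun j _ => hp _) ?_
    (fun F => hP n (fun j => SemiAux_e (F j)) (fun j => SemiAux_idem _) fun j => he _) fun z => ?_
  · rw [← Fintype.prod_sum fun (_ : Fin n) (A : Fin s → Bool) => SemiAux_p w A]
    simp [SemiAux_sum]
  · simp only [Finset.prod_apply, Pi.sub_apply, Pi.one_apply, ← Finset.prod_mul_distrib]
    rw [← Fintype.prod_sum fun (_ : Fin n) (A : Fin s → Bool) =>
      SemiAux_p w A * (1 - SemiAux_e A z)]
    simp only [mul_sub, mul_one, Finset.sum_sub_distrib, SemiAux_sum, ← SemiAux_pow]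
    simp

end Vale.Agent.P111
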