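import Vale.Agent.P111.Base

namespace Vale.Agent.P111

open Finset
open scoped BigOperators

section
variable (X : Type*) [NormedAddCommGroup X] [NormedSpace ℝ X] {s : ℕ}

/-- Translation, as a linear map. -/
def ThetaAux_trl (u : Fin s → ZMod 2) : LT X s →ₗ[ℝ] LT X s where
  toFun f := WithLp.toLp 2 fun e => f (e + u)
  map_add' _ _ := rfl
  map_smul' _ _ := rfl

theorem ThetaAux_norm (u : Fin s → ZMod 2) (f : LT X s) : ‖ThetaAux_trl X u f‖ = ‖f‖ := by
  rw [PiLp.norm_eq_of_L2, PiLp.norm_eq_of_L2]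
  congr 1
  exact Equiv.sum_comp (Equiv.addRight u) (fun e => ‖f e‖ ^ 2)

/-- Translation. -/
noncomputable def ThetaAux_tr (u : Fin s → ZMod 2) : LT X s →L[ℝ] LT X s :=
  (ThetaAux_trl X u).mkContinuous 1 fun f => by rw [ThetaAux_norm, one_mul]

theorem ThetaAux_tr_apply (u : Fin s → ZMod 2) (f : LT X s) (e : Fin s → ZMod 2) :
    ThetaAux_tr X u f e = f (e + u) := rfl

theorem ThetaAux_tr_norm (u : Fin s → ZMod 2) : ‖ThetaAux_tr X u‖ ≤ 1 :=
  LinearMap.mkContinuous_norm_le _ zero_le_one _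

theorem ThetaAux_tr_mul (u v : Fin s → ZMod 2) :
    ThetaAux_tr X u * ThetaAux_tr X v = ThetaAux_tr X (u + v) := by
  ext f e
  show f (e + u + v) = f (e + (u + v))
  rw [add_assoc]

theorem ThetaAux_tr_zero : ThetaAux_tr X (0 : Fin s → ZMod 2) = 1 := by
  ext f e
  show f (e + 0) = f e
  rw [add_zero]

end

section
variable {E : Type*} [NormedAddCommGroup E] [NormedSpace ℝ E] {s : ℕ}
  (t : (Fin s → ZMod 2) → (E →L[ℝ] E))

/-- The multiplier calculus. -/
noncomputable def ThetaAux_th : ((Fin s → ZMod 2) → ℝ) →ₗ[ℝ] (E →L[ℝ] E) where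
  toFun m := ∑ u, Fou.coef m u • t u
  map_add' m m' := by
    rw [← sum_add_distrib]
    refine sum_congr rfl fun u _ => ?_
    rw [← add_smul]
    congr 1
    simp only [Fou.coef, Pi.add_apply, add_mul, expect_add_distrib]
  map_smul' c m := by
    rw [RingHom.id_apply, smul_sum]
    refine sum_congr rfl fun u _ => ?_
    rw [smul_smul]
    congr 1
    simp only [Fou.coef, Pi.smul_apply, smul_eq_mul, mul_assoc, mul_expect]

theorem ThetaAux_th_apply (m : (Fin s → ZMod 2) → ℝ) :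
    ThetaAux_th t m = ∑ u, Fou.coef m u • t u := rfl

theorem ThetaAux_th_apply' (m : (Fin s → ZMod 2) → ℝ) (x : E) :
    ThetaAux_th t m x = ∑ u, Fou.coef m u • t u x := by
  rw [ThetaAux_th_apply]
  simp

theorem ThetaAux_chi (u : Fin s → ZMod 2) : ThetaAux_th t (fun z => sg (u ⬝ᵥ z)) = t u := by
  rw [ThetaAux_th_apply]
  simp only [Fou.coef, Fou.expect_sg_mul_sg, ite_smul, one_smul, zero_smul, sum_ite_eq, mem_univ,
    if_true]

theorem ThetaAux_mul (ht : ∀ u v, t u * t v = t (u + v)) (f g : (Fin s → ZMod 2) → ℝ) :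
    ThetaAux_th t (f * g) = ThetaAux_th t f * ThetaAux_th t g := by
  have h : f * g = ∑ u, ∑ v, (Fou.coef f u * Fou.coef g v) • fun z => sg ((u + v) ⬝ᵥ z) := by
    funext z
    rw [Pi.mul_apply, ← Fou.inversion f z, ← Fou.inversion g z, sum_mul_sum]
    simp only [Finset.sum_apply, Pi.smul_apply, smul_eq_mul, Fou.sg_add_dot]
    exact sum_congr rfl fun u _ => sum_congr rfl fun v _ => by ring
  rw [h, ThetaAux_th_apply t f, ThetaAux_th_apply t g, sum_mul_sum, map_sum]
  refine sum_congr rfl fun u _ => ?_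
  rw [map_sum]
  refine sum_congr rfl fun v _ => ?_
  rw [map_smul, ThetaAux_chi, smul_mul_smul_comm, ht]

end

section
variable (X : Type*) [NormedAddCommGroup X] [NormedSpace ℝ X] {s : ℕ}

theorem ThetaAux_ind (z : Fin s → ZMod 2) :
    (if hammingNorm z = 1 then (1 : ℝ) else 0) = ∑ i, if z = Pi.single i 1 then 1 else 0 := by
  have h10 : (1 : ZMod 2) ≠ 0 := by decide
  by_cases h : hammingNorm z = 1
  · rw [if_pos h]
    obtain ⟨i, hi⟩ := card_eq_one.1 h
    have hz : ∀ j, z j ≠ 0 ↔ j = i := fun j => by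
      have := Finset.ext_iff.1 hi j
      simpa using this
    have e : z = Pi.single i 1 := by
      funext j
      by_cases hj : j = i
      · subst hj
        rw [Pi.single_eq_same]
        exact (Fou.zmod2 _).resolve_left ((hz j).2 rfl)
      · rw [Pi.single_eq_of_ne hj]
        by_contra h'
        exact hj ((hz j).1 h')
    rw [sum_eq_single i, if_pos e]
    · intro j _ hj
      refine if_neg fun h' => hj ((hz j).1 ?_)
      rw [h', Pi.single_eq_same]
      exact h10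
    · simp
  · rw [if_neg h]
    refine (sum_eq_zero fun i _ => if_neg fun h' => h ?_).symm
    refine card_eq_one.2 ⟨i, ?_⟩
    ext j
    by_cases hj : j = i
    · subst hj
      simp [h']
    · simp [h', hj]

theorem ThetaAux_coef (u : Fin s → ZMod 2) :
    Fou.coef (fun z : Fin s → ZMod 2 => if hammingNorm z = 1 then (1 : ℝ) else 0) u =
      1 / 2 ^ s * ∑ i, sg (u i) := by
  rw [Fou.coef, expect_cube]
  simp only [ThetaAux_ind, sum_mul]
  rw [sum_comm, div_eq_inv_mul, one_div]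
  congr 1
  refine sum_congr rfl fun i _ => ?_
  simp only [ite_mul, one_mul, zero_mul, sum_ite_eq', mem_univ, if_true, dotProduct_single, mul_one]

theorem ThetaAux_rad (f : (Fin s → ZMod 2) → X) :
    ThetaAux_th (ThetaAux_tr X) (fun z => if hammingNorm z = 1 then 1 else 0) (WithLp.toLp 2 f) =
      WithLp.toLp 2 (radProj f) := by
  ext e
  have h1 : ThetaAux_th (ThetaAux_tr X) (fun z => if hammingNorm z = 1 then 1 else 0) (WithLp.toLp 2 f) e =
      ∑ u : Fin s → ZMod 2, (1 / 2 ^ s * ∑ i, sg (u i)) • f (e + u) := by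
    rw [ThetaAux_th_apply', WithLp.ofLp_sum, Finset.sum_apply]
    refine sum_congr rfl fun u _ => ?_
    rw [ThetaAux_coef]
    rfl
  rw [h1, ← Equiv.sum_comp (Equiv.addLeft e)]
  show ∑ η : Fin s → ZMod 2, (1 / 2 ^ s * ∑ i, sg ((e + η) i)) • f (e + (e + η)) =
    ∑ i, sg (e i) • ((1 : ℝ) / 2 ^ s) • ∑ η : Fin s → ZMod 2, sg (η i) • f η
  simp only [← add_assoc, Fou.add_self_pi, zero_add, Pi.add_apply, Fou.sg_add, mul_sum, sum_smul,
    smul_sum, smul_smul]
  rw [sum_comm]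
  exact sum_congr rfl fun i _ => sum_congr rfl fun η _ => by rw [mul_left_comm]

omit [NormedSpace ℝ X] in
theorem ThetaAux_l2 (f : (Fin s → ZMod 2) → X) :
    l2 f = ‖(WithLp.toLp 2 f : LT X s)‖ / Real.sqrt (2 ^ s) := by
  rw [l2, Real.sqrt_div (sum_nonneg fun _ _ => sq_nonneg _), PiLp.norm_eq_of_L2]

end

theorem theta (X : Type*) [NormedAddCommGroup X] [NormedSpace ℝ X] (s : ℕ) :
    ∃ Θ : ((Fin s → ZMod 2) → ℝ) →ₗ[ℝ] (LT X s →L[ℝ] LT X s),
      (∀ f g, Θ (f * g) = Θ f * Θ g) ∧ Θ 1 = 1 ∧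
      (∀ u : Fin s → ZMod 2, ‖Θ fun z => sg (z ⬝ᵥ u)‖ ≤ 1) ∧
      ∀ K : ℝ, ‖Θ fun z => if hammingNorm z = 1 then 1 else 0‖ ≤ K →
        ∀ f : (Fin s → ZMod 2) → X, l2 (radProj f) ≤ K * l2 f := by
  refine ⟨ThetaAux_th (ThetaAux_tr X), ThetaAux_mul _ (ThetaAux_tr_mul X), ?_, fun u => ?_, fun K hK f => ?_⟩
  · rw [← ThetaAux_tr_zero, ← ThetaAux_chi (ThetaAux_tr X)]
    congr 1
    funext z
    simp
  · simp only [dotProduct_comm _ u]
    rw [ThetaAux_chi]
    exact ThetaAux_tr_norm X u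
  · rw [ThetaAux_l2, ThetaAux_l2, ← ThetaAux_rad, ← mul_div_assoc]
    exact div_le_div_of_nonneg_right (ContinuousLinearMap.le_of_opNorm_le _ hK _)
      (Real.sqrt_nonneg _)

end Vale.Agent.P111
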