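import Vale.Agent.P111.WalshTwo
import Vale.Agent.P111.ProjB
import Vale.Agent.P111.Semi
import Vale.Agent.P111.Theta
import Vale.Agent.P111.Resolv
import Vale.Agent.P111.FourId
import Vale.Agent.P111.Analyt
import Vale.Agent.P111.ProjOne

/-! A power saving for the Walsh transform gives `K`-convexity. -/

namespace Vale.Agent.P111

open Finset
open scoped BigOperators

/-- Complexification of a real multiplier map. -/
noncomputable def cplx {ι : Type} [Fintype ι] {R : Type*} [NormedRing R] [NormedSpace ℝ R]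
    (Θ : (ι → ℝ) →ₗ[ℝ] R) : (ι → ℂ) →L[ℝ] R × R :=
  LinearMap.toContinuousLinearMap
    { toFun := fun m => (Θ fun i => (m i).re, Θ fun i => (m i).im)
      map_add' := fun f g => by
        rw [Prod.mk_add_mk, ← map_add, ← map_add]
        rfl
      map_smul' := fun c f => by
        rw [RingHom.id_apply, Prod.smul_mk, ← map_smul, ← map_smul]
        congr 2 <;> funext i <;> simp }

theorem cplx_apply {ι : Type} [Fintype ι] {R : Type*} [NormedRing R] [NormedSpace ℝ R]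
    (Θ : (ι → ℝ) →ₗ[ℝ] R) (m : ι → ℂ) :
    cplx Θ m = (Θ fun i => (m i).re, Θ fun i => (m i).im) := rfl

theorem norm_cplx_ofReal {ι : Type} [Fintype ι] {R : Type*} [NormedRing R] [NormedSpace ℝ R]
    (Θ : (ι → ℝ) →ₗ[ℝ] R) (m : ι → ℝ) : ‖cplx Θ fun i => (m i : ℂ)‖ = ‖Θ m‖ := by
  rw [cplx_apply, Prod.norm_mk]
  simp only [Complex.ofReal_re, Complex.ofReal_im]
  rw [show (fun _ : ι => (0 : ℝ)) = 0 from rfl, map_zero, norm_zero,
    max_eq_left (norm_nonneg _)]

theorem mult_cplx {ι : Type} [Fintype ι] {R : Type*} [NormedRing R] [NormedSpace ℝ R]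
    (Θ : (ι → ℝ) →ₗ[ℝ] R) (hmul : ∀ f g, Θ (f * g) = Θ f * Θ g) : Mult (cplx Θ) := by
  have h1 : ∀ f : ι → ℂ, ‖Θ fun i => (f i).re‖ ≤ ‖cplx Θ f‖ := fun f => norm_fst_le (cplx Θ f)
  have h2 : ∀ f : ι → ℂ, ‖Θ fun i => (f i).im‖ ≤ ‖cplx Θ f‖ := fun f => norm_snd_le (cplx Θ f)
  have hm : ∀ {u v : R} {a b : ℝ}, ‖u‖ ≤ a → ‖v‖ ≤ b → ‖u * v‖ ≤ a * b := fun hu hv =>
    (norm_mul_le _ _).trans (mul_le_mul hu hv (norm_nonneg _) ((norm_nonneg _).trans hu))
  constructor
  · intro f g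
    rw [cplx_apply, Prod.norm_mk]
    have e1 : (fun i => ((f * g) i).re) = (fun i => (f i).re) * (fun i => (g i).re) -
        (fun i => (f i).im) * fun i => (g i).im := by
      funext i
      simp
    have e2 : (fun i => ((f * g) i).im) = (fun i => (f i).re) * (fun i => (g i).im) +
        (fun i => (f i).im) * fun i => (g i).re := by
      funext i
      simp
    rw [e1, e2, map_sub, map_add, hmul, hmul, hmul, hmul]
    refine max_le ((norm_sub_le _ _).trans ?_) ((norm_add_le _ _).trans ?_)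
    · linarith [hm (h1 f) (h1 g), hm (h2 f) (h2 g)]
    · linarith [hm (h1 f) (h2 g), hm (h2 f) (h1 g)]
  · intro c f
    rw [cplx_apply, Prod.norm_mk]
    have e1 : (fun i => ((c • f) i).re) = c.re • (fun i => (f i).re) -
        c.im • fun i => (f i).im := by
      funext i
      simp
    have e2 : (fun i => ((c • f) i).im) = c.re • (fun i => (f i).im) +
        c.im • fun i => (f i).re := by
      funext i
      simp
    have hs : ∀ {r : ℝ} {u : R}, |r| ≤ ‖c‖ → ‖u‖ ≤ ‖cplx Θ f‖ → ‖r • u‖ ≤ ‖c‖ * ‖cplx Θ f‖ :=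
      fun hr hu => by
        rw [norm_smul, Real.norm_eq_abs]
        exact mul_le_mul hr hu (norm_nonneg _) (norm_nonneg _)
    rw [e1, e2, map_sub, map_add, map_smul, map_smul, map_smul, map_smul]
    refine max_le ((norm_sub_le _ _).trans ?_) ((norm_add_le _ _).trans ?_)
    · linarith [hs c.abs_re_le_norm (h1 f), hs c.abs_im_le_norm (h2 f)]
    · linarith [hs c.abs_re_le_norm (h2 f), hs c.abs_im_le_norm (h1 f)]

theorem kconvex_of_walsh {X : Type*} [NormedAddCommGroup X] [NormedSpace ℝ X] [CompleteSpace X]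
    {C ρ : ℝ} (hC : 0 ≤ C) (h1 : 1 ≤ ρ) (h2 : ρ < 2) (h : Walsh X C ρ) : KConvex X := by
  obtain ⟨C', ρ', hC', h0', h2', hW⟩ := walshTwo hC h1 h2 h
  have hr0 : 0 ≤ (2 + 2 * ρ') / 3 := by positivity
  have hr2 : (2 + 2 * ρ') / 3 < 2 := by linarith
  set R : ℝ := 8 * Real.pi * (C' / (1 - (2 + 2 * ρ') / 3 / 2)) + 4 with hR
  have hR0 : 0 ≤ R := by
    have : 0 < 1 - (2 + 2 * ρ') / 3 / 2 := by linarith
    positivity
  refine ⟨8 * Real.exp (40 * (3 * (4 * R ^ 2 + 16 * R ^ 3)) + 1), fun s => ?_⟩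
  obtain ⟨Θ, hmul, hone, hχ, hK⟩ := theta X s
  refine hK _ ?_
  have hΨ := mult_cplx Θ hmul
  have hsemi := fun (t : ℝ) (ht : 0 ≤ t) => semi Θ (fun n => C' * ((2 + 2 * ρ') / 3) ^ n) hχ
    (projB hC' h0' (walshTwo_LT hC' h0' hW s) Θ hmul hone) (Real.exp_pos (-t)).le
    (Real.exp_le_one_iff.2 (neg_nonpos.2 ht))
  have hexp : ∀ (t : ℝ) (m : ℕ), Real.exp (-t) ^ m = Real.exp (-(t * m)) := fun t m => by
    rw [← Real.exp_nat_mul]
    congr 1
    ring
  simp only [hexp] at hsemi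
  have hT : ∀ t : ℝ, 0 ≤ t →
      ‖cplx Θ fun z => (Real.exp (-(t * (hammingNorm z : ℕ))) : ℂ)‖ ≤ 1 := fun t ht => by
    rw [norm_cplx_ofReal]
    exact (hsemi t ht).1
  have hres := fun (a : ℝ) (ha : 0 < a) (y : ℝ) => resolv hΨ (fun z => hammingNorm z) hC' hr0 hr2
    hT (fun t ht n => by
      rw [norm_cplx_ofReal]
      exact (hsemi t ht).2 n) ha y
  have hL := fun (t : ℝ) (ht : 0 < t) => analyt hΨ (fun z => hammingNorm z) hR0
    (fun _ _ hc ht => fourId hc ht) hres ht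
  have h3 := projOne hΨ (fun z => hammingNorm z) (by positivity) hT hL
  rw [← norm_cplx_ofReal]
  refine le_of_eq_of_le ?_ h3
  congr 2
  funext z
  split_ifs <;> simp

end Vale.Agent.P111
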