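import Vale.Agent.P111.Base

namespace Vale.Agent.P111

open Finset
open scoped BigOperators

theorem KahaneAux_weight {s : ℕ} (z : Fin s → ZMod 2) (hz : z ≠ 0)
    (h1 : z ⬝ᵥ (fun _ => 1) = 0) : ∑ l, sg (z l) ≤ s - 4 := by
  obtain ⟨i, hi⟩ := Function.ne_iff.1 hz
  have hi1 : z i = 1 := (Fou.zmod2 _).resolve_left hi
  have hj : ∃ j, j ≠ i ∧ z j = 1 := by
    by_contra hc
    push Not at hc
    have e : z ⬝ᵥ (fun _ => 1) = z i := by
      simp only [dotProduct, mul_one]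
      exact Finset.sum_eq_single i (fun j _ hj => (Fou.zmod2 _).resolve_right (hc j hj))
        (fun h => absurd (Finset.mem_univ i) h)
    rw [e, hi1] at h1
    exact one_ne_zero h1
  obtain ⟨j, hji, hj1⟩ := hj
  have h2 : ∑ l ∈ ({j, i} : Finset (Fin s)), (1 - sg (z l)) ≤ ∑ l, (1 - sg (z l)) :=
    Finset.sum_le_sum_of_subset_of_nonneg (Finset.subset_univ _)
      fun l _ _ => sub_nonneg.2 (Fou.sg_le_one _)
  rw [Finset.sum_pair hji, hi1, hj1, Fou.sg_one, Finset.sum_sub_distrib] at h2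
  simp only [Finset.sum_const, Finset.card_univ, Fintype.card_fin, nsmul_eq_mul, mul_one] at h2
  linarith

theorem KahaneAux_even {Y : Type*} [NormedAddCommGroup Y] [NormedSpace ℝ Y] {s : ℕ}
    (y : Fin s → Y) (ε : Fin s → ZMod 2) :
    ‖radSum y (ε + fun _ => 1)‖ = ‖radSum y ε‖ := by
  have : radSum y (ε + fun _ => 1) = -radSum y ε := by
    simp only [radSum, Pi.add_apply, Fou.sg_add, Fou.sg_one, mul_neg, mul_one, neg_smul,
      Finset.sum_neg_distrib]
  rw [this, norm_neg]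

theorem KahaneAux_flip {Y : Type*} [NormedAddCommGroup Y] [NormedSpace ℝ Y] {s : ℕ}
    (y : Fin s → Y) (ε : Fin s → ZMod 2) (l : Fin s) :
    radSum y (ε + Pi.single l 1) = radSum y ε - (2 : ℝ) • (sg (ε l) • y l) := by
  have e : ∀ i, sg ((ε + Pi.single l 1 : Fin s → ZMod 2) i) • y i =
      sg (ε i) • y i - if i = l then (2 : ℝ) • (sg (ε l) • y l) else 0 := by
    intro i
    by_cases h : i = l
    · subst h
      simp only [Pi.add_apply, Pi.single_eq_same, Fou.sg_add, Fou.sg_one, if_true, mul_neg,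
        mul_one, neg_smul, two_smul]
      abel
    · simp [h]
  simp only [radSum, e, Finset.sum_sub_distrib, Finset.sum_ite_eq', Finset.mem_univ, if_true]

theorem KahaneAux_sum {Y : Type*} [NormedAddCommGroup Y] [NormedSpace ℝ Y] {s : ℕ}
    (y : Fin s → Y) (ε : Fin s → ZMod 2) :
    ((s : ℝ) - 2) * ‖radSum y ε‖ ≤ ∑ l, ‖radSum y (ε + Pi.single l 1)‖ := by
  have e : ∑ l, radSum y (ε + Pi.single l 1) = ((s : ℝ) - 2) • radSum y ε := by
    simp only [KahaneAux_flip, Finset.sum_sub_distrib, Finset.sum_const, Finset.card_univ,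
      Fintype.card_fin, ← Finset.smul_sum]
    rw [sub_smul, Nat.cast_smul_eq_nsmul]
    rfl
  refine le_trans ?_ (norm_sum_le _ _)
  rw [e, norm_smul, Real.norm_eq_abs]
  exact mul_le_mul_of_nonneg_right (le_abs_self _) (norm_nonneg _)

theorem KahaneAux_main {s : ℕ} (f : (Fin s → ZMod 2) → ℝ) (h0 : ∀ ε, 0 ≤ f ε)
    (hev : ∀ ε, f (ε + fun _ => 1) = f ε)
    (hs : ∀ ε, ((s : ℝ) - 2) * f ε ≤ ∑ l, f (ε + Pi.single l 1)) :
    𝔼 ε, f ε ^ 2 ≤ 2 * (𝔼 ε, f ε) ^ 2 := by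
  have h1 : ((s : ℝ) - 2) * 𝔼 ε, f ε ^ 2 ≤ ∑ l, 𝔼 ε, f ε * f (ε + Pi.single l 1) := by
    rw [Finset.mul_expect, ← Finset.expect_sum_comm]
    refine Finset.expect_le_expect fun ε _ => ?_
    rw [← Finset.mul_sum]
    have := mul_le_mul_of_nonneg_left (hs ε) (h0 ε)
    nlinarith
  have h2 : ∑ l, 𝔼 ε, f ε * f (ε + Pi.single l 1) =
      ∑ z, Fou.coef f z ^ 2 * ∑ l : Fin s, sg (z l) := by
    simp only [Fou.expect_mul_shift', dotProduct_single, mul_one, Finset.mul_sum, sq]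
    rw [Finset.sum_comm]
  have h3 : ∀ z : Fin s → ZMod 2, Fou.coef f z ^ 2 * ∑ l : Fin s, sg (z l) ≤
      ((s : ℝ) - 4) * Fou.coef f z ^ 2 + if z = 0 then 4 * Fou.coef f 0 ^ 2 else 0 := by
    intro z
    by_cases hz : z = 0
    · subst hz
      simp only [Pi.zero_apply, Fou.sg_zero, Finset.sum_const, Finset.card_univ,
        Fintype.card_fin, nsmul_eq_mul, mul_one, if_true]
      linarith
    · rw [if_neg hz, add_zero]
      by_cases hd : z ⬝ᵥ (fun _ => 1) = 0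
      · rw [mul_comm]
        exact mul_le_mul_of_nonneg_right (KahaneAux_weight z hz hd) (sq_nonneg _)
      · rw [Fou.coef_eq_zero_of_shift f (fun _ => 1) z 0 (fun x => by simp [hev x]) hd]
        simp
  have h4 := Finset.sum_le_sum fun z (_ : z ∈ Finset.univ) => h3 z
  rw [Finset.sum_add_distrib, ← Finset.mul_sum, Fou.parseval, Finset.sum_ite_eq', ← h2] at h4
  have h5 : Fou.coef f 0 = 𝔼 ε, f ε := by simp [Fou.coef]
  simp only [Finset.mem_univ, if_true, h5] at h4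
  linarith

theorem kahane (Y : Type*) [NormedAddCommGroup Y] [NormedSpace ℝ Y] : Kah Y := by
  intro s y
  have h := KahaneAux_main (fun ε => ‖radSum y ε‖) (fun _ => norm_nonneg _) (KahaneAux_even y)
    (KahaneAux_sum y)
  have h0 : 0 ≤ 𝔼 ε, ‖radSum y ε‖ := Finset.expect_nonneg fun _ _ => norm_nonneg _
  rw [l2_eq, Real.sqrt_le_iff]
  refine ⟨by linarith, h.trans ?_⟩
  nlinarith [sq_nonneg (𝔼 ε, ‖radSum y ε‖)]

end Vale.Agent.P111
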