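import Vale.Agent.P111.Base

namespace Vale.Agent.P111

open Finset
open scoped BigOperators

/-- The Rademacher sum as a linear map. -/
noncomputable def LiftDAux_J (X : Type*) [NormedAddCommGroup X] [NormedSpace ℝ X] (k : ℕ) :
    (Fin k → X) →ₗ[ℝ] ((Fin k → ZMod 2) → X) where
  toFun x := radSum x
  map_add' x y := by
    funext ε
    simp [radSum, Finset.sum_add_distrib]
  map_smul' c x := by
    funext ε
    simp only [radSum, Pi.smul_apply, RingHom.id_apply, Finset.smul_sum]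
    exact Finset.sum_congr rfl fun i _ => smul_comm _ _ _

/-- The functional `x ↦ ∑ τ_j (x_j)`. -/
noncomputable def LiftDAux_phi {X : Type*} [NormedAddCommGroup X] [NormedSpace ℝ X] {k : ℕ}
    (τ : Fin k → StrongDual ℝ X) : (Fin k → X) →ₗ[ℝ] ℝ where
  toFun x := ∑ j, τ j (x j)
  map_add' x y := by simp [Finset.sum_add_distrib]
  map_smul' c x := by simp [Finset.mul_sum]

theorem LiftDAux_ext {X : Type*} [NormedAddCommGroup X] [NormedSpace ℝ X] {k : ℕ} {Λ : ℝ}
    (hΛ : 0 < Λ) (h : SumBd X k Λ) (τ : Fin k → StrongDual ℝ X) (hτ : ∀ l, ‖τ l‖ ≤ 1) :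
    ∃ g : ((Fin k → ZMod 2) → X) →ₗ[ℝ] ℝ, (∀ x, g (radSum x) = ∑ j, τ j (x j)) ∧
      ∀ f, g f ≤ Λ * 𝔼 ε, ‖f ε‖ := by
  have hinj : Function.Injective (LiftDAux_J X k) := by
    rw [injective_iff_map_eq_zero]
    intro x hx
    have h1 := h x
    have h2 : radSum x = 0 := hx
    rw [h2] at h1
    simp only [Pi.zero_apply, norm_zero, Finset.expect_const_zero, mul_zero] at h1
    funext j
    have h3 : ‖x j‖ ≤ ∑ i, ‖x i‖ :=
      Finset.single_le_sum (f := fun i => ‖x i‖) (fun i _ => norm_nonneg _) (Finset.mem_univ j)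
    exact norm_le_zero_iff.1 (h3.trans h1)
  let e := LinearEquiv.ofInjective (LiftDAux_J X k) hinj
  let f0 : ((Fin k → ZMod 2) → X) →ₗ.[ℝ] ℝ :=
    ⟨LinearMap.range (LiftDAux_J X k), (LiftDAux_phi τ).comp e.symm.toLinearMap⟩
  have hf0 : ∀ x, f0 (e x) = ∑ j, τ j (x j) := by
    intro x
    change LiftDAux_phi τ (e.symm (e x)) = _
    rw [e.symm_apply_apply]
    rfl
  obtain ⟨g, hg1, hg2⟩ := exists_extension_of_le_sublinear f0 (fun f => Λ * 𝔼 ε, ‖f ε‖)
    (fun c hc f => by
      simp only [Pi.smul_apply, norm_smul, Real.norm_eq_abs, abs_of_pos hc]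
      rw [← Finset.mul_expect]
      ring)
    (fun f f' => by
      rw [← mul_add, ← Finset.expect_add_distrib]
      exact mul_le_mul_of_nonneg_left
        (Finset.expect_le_expect fun ε _ => norm_add_le _ _) hΛ.le)
    (fun y => by
      obtain ⟨x, rfl⟩ := e.surjective y
      rw [hf0]
      refine le_trans (Finset.sum_le_sum fun j _ => ?_) (h x)
      refine (le_abs_self _).trans (((τ j).le_opNorm (x j)).trans ?_)
      exact mul_le_of_le_one_left (norm_nonneg _) (hτ j))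
  exact ⟨g, fun x => (hg1 (e x)).trans (hf0 x), hg2⟩

theorem liftD {X : Type*} [NormedAddCommGroup X] [NormedSpace ℝ X] {k : ℕ} {Λ : ℝ}
    (hΛ : 0 < Λ) (h : SumBd X k Λ) :
    Lift k Λ (Ball (StrongDual ℝ X)) (Ball (StrongDual ℝ X)) := by
  intro τ hτ
  obtain ⟨g, hg1, hg2⟩ := LiftDAux_ext hΛ h τ hτ
  have h2 : (0 : ℝ) < 2 ^ k := by positivity
  have hs : ∀ (ε : Fin k → ZMod 2) (x : X), g (Pi.single ε x) ≤ Λ * (‖x‖ / 2 ^ k) := by
    intro ε x
    refine (hg2 _).trans (le_of_eq ?_)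
    rw [expect_cube, Finset.sum_eq_single ε]
    · simp
    · intro b _ hb
      simp [Pi.single_eq_of_ne hb]
    · intro hb
      exact absurd (Finset.mem_univ ε) hb
  let L : (Fin k → ZMod 2) → X →ₗ[ℝ] ℝ := fun ε =>
    (2 ^ k / Λ) • g.comp (LinearMap.single ℝ (fun _ : Fin k → ZMod 2 => X) ε)
  have hL : ∀ ε x, L ε x = 2 ^ k / Λ * g (Pi.single ε x) := fun ε x => rfl
  have hb : ∀ ε x, ‖L ε x‖ ≤ 1 * ‖x‖ := by
    intro ε x
    have h3 : ∀ x, L ε x ≤ ‖x‖ := by
      intro x
      rw [hL]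
      refine (mul_le_mul_of_nonneg_left (hs ε x) (by positivity)).trans (le_of_eq ?_)
      field_simp
    have h4 := h3 (-x)
    rw [map_neg, norm_neg] at h4
    rw [one_mul, Real.norm_eq_abs, abs_le]
    exact ⟨by linarith, h3 x⟩
  refine ⟨fun ε => (L ε).mkContinuous 1 (hb ε), fun ε =>
    LinearMap.mkContinuous_norm_le _ zero_le_one _, fun l => ?_⟩
  ext x
  have h5 := hg1 (Pi.single l x)
  rw [Finset.sum_eq_single l (fun b _ hb' => by simp [Pi.single_eq_of_ne hb'])
    (fun hb' => absurd (Finset.mem_univ l) hb'), Pi.single_eq_same] at h5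
  have h6 : radSum (Pi.single l x : Fin k → X) =
      ∑ ε : Fin k → ZMod 2, sg (ε l) • (Pi.single ε x : (Fin k → ZMod 2) → X) := by
    funext η
    rw [radSum, Finset.sum_eq_single l (fun b _ hb' => by simp [Pi.single_eq_of_ne hb'])
      (fun hb' => absurd (Finset.mem_univ l) hb'), Pi.single_eq_same, Finset.sum_apply,
      Finset.sum_eq_single η (fun b _ hb' => by simp [Pi.single_eq_of_ne hb'.symm])
      (fun hb' => absurd (Finset.mem_univ η) hb')]
    simp
  rw [← h5, h6, map_sum]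
  simp only [map_smul, smul_eq_mul, ContinuousLinearMap.smul_apply, ContinuousLinearMap.sum_apply,
    LinearMap.mkContinuous_apply, hL, Finset.mul_sum]
  refine Finset.sum_congr rfl fun ε _ => ?_
  field_simp

end Vale.Agent.P111
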