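import Vale.Agent.P111.Base

namespace Vale.Agent.P111

open Finset
open scoped BigOperators

theorem LiftXAux_norm {X : Type*} [NormedAddCommGroup X] [NormedSpace ℝ X]
    (φ : StrongDual ℝ X) {η : ℝ} (hη : 0 < η) : ∃ x : X, ‖x‖ ≤ 1 ∧ ‖φ‖ - η ≤ φ x := by
  obtain ⟨x, hx, h⟩ := φ.exists_lt_apply_of_lt_opNorm (r := ‖φ‖ - η) (by linarith)
  rcases le_total 0 (φ x) with h0 | h0
  · rw [Real.norm_of_nonneg h0] at h
    exact ⟨x, hx.le, h.le⟩
  · rw [Real.norm_of_nonpos h0] at h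
    exact ⟨-x, by simpa using hx.le, by simpa using h.le⟩

theorem LiftXAux_orth {k : ℕ} (l l' : Fin k) :
    ∑ ε : Fin k → ZMod 2, sg (ε l) * sg (ε l') = if l = l' then (2 : ℝ) ^ k else 0 := by
  have h := Fou.expect_sg_mul_sg (Pi.single l (1 : ZMod 2) : Fin k → ZMod 2) (Pi.single l' 1)
  simp only [single_dotProduct, one_mul] at h
  rw [expect_cube, div_eq_iff (by positivity)] at h
  rw [h]
  by_cases e : l = l'
  · simp [e]
  · have : (Pi.single l (1 : ZMod 2) : Fin k → ZMod 2) ≠ Pi.single l' 1 := fun h' => by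
      have := congrFun h' l
      simp [e] at this
    simp [e, this]

/-- The map to the first order coefficients. -/
noncomputable def LiftXAux_Q (X : Type*) [NormedAddCommGroup X] [NormedSpace ℝ X] (k : ℕ)
    (Λ : ℝ) : ((Fin k → ZMod 2) → X) →ₗ[ℝ] (Fin k → X) where
  toFun D := fun l => (Λ / 2 ^ k) • ∑ ε : Fin k → ZMod 2, sg (ε l) • D ε
  map_add' D D' := by
    funext l
    simp only [Pi.add_apply, smul_add, Finset.sum_add_distrib]
  map_smul' c D := by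
    funext l
    simp only [Pi.smul_apply, RingHom.id_apply, smul_comm _ c, ← Finset.smul_sum]

theorem LiftXAux_Q_apply {X : Type*} [NormedAddCommGroup X] [NormedSpace ℝ X] {k : ℕ} (Λ : ℝ)
    (D : (Fin k → ZMod 2) → X) (l : Fin k) :
    LiftXAux_Q X k Λ D l = (Λ / 2 ^ k) • ∑ ε : Fin k → ZMod 2, sg (ε l) • D ε := rfl

theorem LiftXAux_mem {X : Type*} [NormedAddCommGroup X] [NormedSpace ℝ X] {k : ℕ} {Λ : ℝ}
    (hΛ : 0 < Λ) (h : SumBd (StrongDual ℝ X) k Λ) (τ : Fin k → X) (hτ : ∀ l, ‖τ l‖ ≤ 1) :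
    τ ∈ closure (LiftXAux_Q X k Λ '' {D | ∀ ε, ‖D ε‖ ≤ 1}) := by
  by_contra hn
  have hc : Convex ℝ {D : (Fin k → ZMod 2) → X | ∀ ε, ‖D ε‖ ≤ 1} := by
    intro D hD D' hD' a b ha hb hab ε
    calc ‖(a • D + b • D') ε‖ ≤ ‖a • D ε‖ + ‖b • D' ε‖ := norm_add_le _ _
      _ = a * ‖D ε‖ + b * ‖D' ε‖ := by
        rw [norm_smul, norm_smul, Real.norm_of_nonneg ha, Real.norm_of_nonneg hb]
      _ ≤ a * 1 + b * 1 := by gcongr; exacts [hD ε, hD' ε]
      _ = 1 := by linarith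
  obtain ⟨f, u, h1, h2⟩ := geometric_hahn_banach_closed_point
    (hc.linear_image (LiftXAux_Q X k Λ)).closure isClosed_closure hn
  let ξ : Fin k → StrongDual ℝ X := fun l =>
    f.comp (ContinuousLinearMap.single ℝ (fun _ : Fin k => X) l)
  have hf : ∀ v : Fin k → X, f v = ∑ l, ξ l (v l) := fun v => by
    conv_lhs => rw [← Finset.univ_sum_single v, map_sum]
    rfl
  have hη : 0 < (f τ - u) / Λ := div_pos (by linarith) hΛ
  choose D hD1 hD2 using fun ε => LiftXAux_norm (radSum ξ ε) hη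
  have h3 := h1 _ (subset_closure ⟨D, hD1, rfl⟩)
  have h4 : f (LiftXAux_Q X k Λ D) = Λ * 𝔼 ε, radSum ξ ε (D ε) := by
    rw [hf, expect_cube]
    simp only [LiftXAux_Q_apply, map_smul, map_sum, smul_eq_mul, radSum,
      ContinuousLinearMap.sum_apply, ContinuousLinearMap.smul_apply]
    rw [← Finset.mul_sum, Finset.sum_comm]
    ring
  have h5 : 𝔼 ε, ‖radSum ξ ε‖ - (f τ - u) / Λ ≤ 𝔼 ε, radSum ξ ε (D ε) := by
    have := Finset.expect_le_expect (s := univ) fun ε _ => hD2 ε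
    rwa [Finset.expect_sub_distrib, Fintype.expect_const] at this
  have h6 : f τ ≤ ∑ l, ‖ξ l‖ := by
    rw [hf]
    refine Finset.sum_le_sum fun l _ => (le_abs_self _).trans ?_
    calc |ξ l (τ l)| ≤ ‖ξ l‖ * ‖τ l‖ := (ξ l).le_opNorm _
      _ ≤ ‖ξ l‖ * 1 := by gcongr; exact hτ l
      _ = _ := mul_one _
  have h7 := h ξ
  have h8 := mul_le_mul_of_nonneg_left h5 hΛ.le
  rw [mul_sub, mul_div_cancel₀ _ hΛ.ne'] at h8
  linarith

theorem liftX {X : Type*} [NormedAddCommGroup X] [NormedSpace ℝ X] {k : ℕ} {Λ : ℝ}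
    (hΛ : 0 < Λ) (h : SumBd (StrongDual ℝ X) k Λ) : Lift k (Λ + 1) (Ball X) (Ball X) := by
  intro τ hτ
  have hk : (0 : ℝ) < 1 / ((k : ℝ) + 1) := by positivity
  obtain ⟨_, ⟨D, hD, rfl⟩, hd⟩ := Metric.mem_closure_iff.1 (LiftXAux_mem hΛ h τ hτ) _ hk
  set err : Fin k → X := τ - LiftXAux_Q X k Λ D with herr
  have he : ∀ l, ‖err l‖ ≤ 1 / ((k : ℝ) + 1) := fun l =>
    (norm_le_pi_norm err l).trans (by rw [← dist_eq_norm]; exact hd.le)
  have hr : ∀ ε, ‖radSum err ε‖ ≤ 1 := fun ε => by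
    refine (norm_sum_le _ _).trans ?_
    calc ∑ i, ‖sg (ε i) • err i‖ ≤ ∑ _i : Fin k, 1 / ((k : ℝ) + 1) :=
          Finset.sum_le_sum fun i _ => by
            rw [norm_smul, Real.norm_eq_abs, Fou.abs_sg, one_mul]; exact he i
      _ = k / ((k : ℝ) + 1) := by simp [div_eq_mul_inv]
      _ ≤ 1 := by rw [div_le_one (by positivity)]; linarith
  have hL : 0 < Λ + 1 := by linarith
  refine ⟨fun ε => (Λ + 1)⁻¹ • (Λ • D ε + radSum err ε), fun ε => ?_, fun l => ?_⟩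
  · rw [mem_Ball, norm_smul, Real.norm_of_nonneg (inv_pos.2 hL).le, inv_mul_le_iff₀ hL, mul_one]
    refine (norm_add_le _ _).trans (add_le_add ?_ (hr ε))
    rw [norm_smul, Real.norm_of_nonneg hΛ.le]
    exact mul_le_of_le_one_right hΛ.le (hD ε)
  · have e1 : ∑ ε : Fin k → ZMod 2, sg (ε l) • radSum err ε = (2 : ℝ) ^ k • err l := by
      simp only [radSum, Finset.smul_sum, smul_smul]
      rw [Finset.sum_comm]
      simp only [← Finset.sum_smul, LiftXAux_orth]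
      simp
    have e2 : τ l = LiftXAux_Q X k Λ D l + err l := by simp [herr]
    simp only [smul_comm _ (Λ + 1)⁻¹, smul_add (sg _), smul_comm (sg _) Λ, ← Finset.smul_sum,
      Finset.sum_add_distrib, e1]
    rw [e2, LiftXAux_Q_apply]
    simp only [smul_add, smul_smul]
    have h2 : (2 : ℝ) ^ k ≠ 0 := by positivity
    have e3 : (Λ + 1)⁻¹ * ((Λ + 1) / 2 ^ k * Λ) = Λ / 2 ^ k := by field_simp
    have e4 : (Λ + 1)⁻¹ * ((Λ + 1) / 2 ^ k * 2 ^ k) = 1 := by field_simp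
    rw [e3, e4, one_smul]

end Vale.Agent.P111
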