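import Vale.Agent.P111.Base

namespace Vale.Agent.P111

open Finset
open scoped BigOperators

theorem MomentsAux_sum {ι : Type} [Fintype ι] (t w : ι → ℝ) (r : ℝ) (e : ℕ) (he : Odd e) :
    ∑ p : ι × Bool, (if p.2 then w p.1 * (r / (1 + r)) else w p.1 * (1 / (1 + r))) *
        (if p.2 then t p.1 else -(t p.1 * (1 / 2))) ^ e =
      (∑ i, w i * t i ^ e) * ((r - (1 / 2) ^ e) / (1 + r)) := by
  rw [Fintype.sum_prod_type, sum_mul]
  refine sum_congr rfl fun i _ => ?_
  rw [Fintype.sum_bool]
  simp only [if_true, Bool.false_eq_true, if_false]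
  rw [he.neg_pow, mul_pow]
  ring

theorem moments (D : ℕ) : ∃ (ι : Type) (_ : Fintype ι) (t w : ι → ℝ), Mom D t w := by
  induction D with
  | zero =>
    exact ⟨Unit, inferInstance, fun _ => 1, fun _ => 1, fun _ => zero_le_one, by simp,
      fun _ => by simp, by simp, fun e _ h1 h2 => by omega⟩
  | succ D ih =>
    obtain ⟨ι, _, t, w, h⟩ := ih
    by_cases hD : D + 1 < 3
    · exact ⟨ι, inferInstance, t, w, h.nonneg, h.total, h.abs_le, h.mean, fun e _ h1 h2 => by omega⟩
    obtain ⟨r, hr⟩ : ∃ r : ℝ, r = (1 / 2) ^ (D + 1) := ⟨_, rfl⟩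
    have hr0 : 0 < r := by rw [hr]; positivity
    have hr1 : r < (1 / 2) ^ 1 := by
      rw [hr]
      exact pow_lt_pow_right_of_lt_one₀ (by norm_num) (by norm_num) (by omega)
    refine ⟨ι × Bool, inferInstance, fun p => if p.2 then t p.1 else -(t p.1 * (1 / 2)),
      fun p => if p.2 then w p.1 * (r / (1 + r)) else w p.1 * (1 / (1 + r)), ?_, ?_, ?_, ?_, ?_⟩
    · intro p
      have := h.nonneg p.1
      split_ifs <;> positivity
    · rw [Fintype.sum_prod_type]
      refine Eq.trans (sum_congr rfl fun i _ => ?_) h.total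
      rw [Fintype.sum_bool]
      simp only [if_true, Bool.false_eq_true, if_false]
      field_simp
      ring
    · intro p
      have := h.abs_le p.1
      split_ifs
      · exact this
      · rw [abs_neg, abs_mul, abs_of_pos (by norm_num : (0 : ℝ) < 1 / 2)]
        linarith [abs_nonneg (t p.1)]
    · have := MomentsAux_sum t w r 1 odd_one
      simp only [pow_one] at this hr1
      rw [this]
      exact mul_ne_zero h.mean (div_ne_zero (sub_ne_zero.mpr hr1.ne) (by positivity))
    · intro e he h1 h2
      rw [MomentsAux_sum t w r e he]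
      rcases h2.lt_or_eq with h3 | h3
      · rw [h.odd e he h1 (by omega), zero_mul]
      · rw [hr, h3, sub_self, zero_div, mul_zero]

end Vale.Agent.P111
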