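import Vale.Agent.P111.Base

namespace Vale.Agent.P111

open Finset
open scoped BigOperators

theorem ToWalshAux_kap (M : ℕ) :
    kap (fun a b : Fin M → ZMod 2 => sg (a ⬝ᵥ b)) = 1 / 2 ^ M := by
  rw [kap, expect_cube]
  simp [Fou.expect_sg_dot]

theorem ToWalshAux_pow (δ : ℝ) (M : ℕ) :
    (2 : ℝ) ^ M * ((1 : ℝ) / 2 ^ M) ^ δ = ((2 : ℝ) ^ (1 - δ)) ^ M := by
  rw [← Real.rpow_natCast ((2 : ℝ) ^ (1 - δ)), ← Real.rpow_mul zero_le_two, one_div,
    ← Real.rpow_natCast, ← Real.rpow_neg zero_le_two, ← Real.rpow_mul zero_le_two,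
    ← Real.rpow_add two_pos]
  congr 1
  ring

theorem toWalsh {X : Type*} [NormedAddCommGroup X] [NormedSpace ℝ X] {δ C : ℝ} (hδ : 0 < δ)
    (hδ1 : δ ≤ 1) (hC : 0 ≤ C)
    (h : Bd (pairT (ContinuousLinearMap.id ℝ X)) δ C 1 (Ball X) (Ball (StrongDual ℝ X))) :
    ∃ ρ : ℝ, 1 ≤ ρ ∧ ρ < 2 ∧ Walsh X C ρ := by
  refine ⟨2 ^ (1 - δ), Real.one_le_rpow one_le_two (by linarith), ?_, fun M x hx => ?_⟩
  · have := Real.rpow_lt_rpow_of_exponent_lt (x := 2) one_lt_two (show 1 - δ < 1 by linarith)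
    rwa [Real.rpow_one] at this
  have hs : IsBi (fun a b : Fin M → ZMod 2 => sg (a ⬝ᵥ b)) :=
    ⟨fun _ _ _ => Fou.sg_add_dot _ _ _, fun _ _ _ => Fou.sg_dot_add _ _ _,
      fun _ _ => Fou.sg_mul_self _⟩
  choose ξ h1 h2 using fun b => exists_dual_vector'' ℝ (walsh x b)
  have key := h _ _ _ hs hs.kap_le_one x ξ hx h1
  rw [ToWalshAux_kap, expect_comm] at key
  have e : ∀ b, 𝔼 a, sg (a ⬝ᵥ b) * pairT (ContinuousLinearMap.id ℝ X) (x a) (ξ b) =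
      ‖walsh x b‖ / 2 ^ M := by
    intro b
    have h3 : ξ b (walsh x b) = ‖walsh x b‖ := h2 b
    rw [expect_cube, ← h3, walsh, map_sum]
    simp
  simp only [e] at key
  rw [← expect_div] at key
  have h4 := (le_abs_self _).trans key
  rw [div_le_iff₀ (by positivity)] at h4
  rw [← ToWalshAux_pow]
  linarith

end Vale.Agent.P111
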