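import Vale.Agent.P111.Base

namespace Vale.Agent.P111

open Finset
open scoped BigOperators

theorem TypePAux_block {X : Type*} [NormedAddCommGroup X] [NormedSpace ℝ X] {C ρ : ℝ}
    (h : Walsh X C ρ) {s M : ℕ} (x : Fin s → X) (I : Finset (Fin s)) (hI : I.card ≤ 2 ^ M)
    {r : ℝ} (hr : 0 < r) (hx : ∀ i ∈ I, ‖x i‖ ≤ r) :
    𝔼 e : Fin s → ZMod 2, ‖∑ i ∈ I, sg (e i) • x i‖ ≤ r * (C * ρ ^ M) := by
  classical
  obtain ⟨φ₀⟩ : Nonempty (I ↪ (Fin M → ZMod 2)) :=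
    Function.Embedding.nonempty_of_card_le (by simpa using hI)
  let φ : Fin s → Fin M → ZMod 2 := fun i => if hi : i ∈ I then φ₀ ⟨i, hi⟩ else 0
  have hφ : ∀ i ∈ I, ∀ j ∈ I, φ i = φ j → i = j := by
    intro i hi j hj hij
    simp only [φ, dif_pos hi, dif_pos hj] at hij
    exact congrArg Subtype.val (φ₀.injective hij)
  let Y : (Fin s → ZMod 2) → (Fin M → ZMod 2) → X := fun e a =>
    ∑ i ∈ I.filter (fun i => φ i = a), (sg (e i) / r) • x i
  have hY : ∀ e a, ‖Y e a‖ ≤ 1 := by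
    intro e a
    have h1 : (I.filter fun i => φ i = a).card ≤ 1 := card_le_one.2 fun i hi j hj =>
      hφ i (mem_filter.1 hi).1 j (mem_filter.1 hj).1
        ((mem_filter.1 hi).2.trans (mem_filter.1 hj).2.symm)
    refine (norm_sum_le _ _).trans ((sum_le_card_nsmul _ _ 1 fun i hi => ?_).trans ?_)
    · rw [norm_smul, Real.norm_eq_abs, abs_div, Fou.abs_sg, abs_of_pos hr, one_div,
        inv_mul_le_iff₀ hr, mul_one]
      exact hx i (mem_filter.1 hi).1
    · rw [nsmul_eq_mul, mul_one]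
      exact_mod_cast h1
  have hw : ∀ e b, ∑ i ∈ I, sg ((e + fun i => φ i ⬝ᵥ b) i) • x i = r • walsh (Y e) b := by
    intro e b
    rw [walsh, ← sum_fiberwise (s := I) (g := φ), smul_sum]
    refine sum_congr rfl fun a _ => ?_
    simp only [Y, smul_sum]
    refine sum_congr rfl fun i hi => ?_
    rw [smul_smul, smul_smul, Pi.add_apply, Fou.sg_add, (mem_filter.1 hi).2]
    congr 1
    field_simp
  have h1 : ∀ b : Fin M → ZMod 2, 𝔼 e : Fin s → ZMod 2, ‖∑ i ∈ I, sg (e i) • x i‖ =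
      𝔼 e : Fin s → ZMod 2, r * ‖walsh (Y e) b‖ := by
    intro b
    rw [← Fou.expect_add_right (fun e : Fin s → ZMod 2 => ‖∑ i ∈ I, sg (e i) • x i‖)
      (fun i => φ i ⬝ᵥ b)]
    refine expect_congr rfl fun e _ => ?_
    rw [hw, norm_smul, Real.norm_eq_abs, abs_of_pos hr]
  have h2 : 𝔼 e : Fin s → ZMod 2, ‖∑ i ∈ I, sg (e i) • x i‖ =
      𝔼 b : Fin M → ZMod 2, 𝔼 e : Fin s → ZMod 2, r * ‖walsh (Y e) b‖ := by
    simp only [← h1, Fintype.expect_const]
  rw [h2, expect_comm]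
  refine expect_le univ_nonempty fun e _ => ?_
  rw [← mul_expect]
  exact mul_le_mul_of_nonneg_left (h M _ (hY e)) hr.le

theorem TypePAux_p {ρ : ℝ} (h2 : ρ < 2) :
    ∃ p : ℝ, 1 < p ∧ p ≤ 2 ∧ (1 / 2 : ℝ) ^ (1 / p) * ρ < 1 := by
  have hc : ContinuousAt (fun p : ℝ => (1 / 2 : ℝ) ^ (1 / p) * ρ) 1 := by
    refine ContinuousAt.mul (ContinuousAt.rpow continuousAt_const ?_ (Or.inl (by norm_num)))
      continuousAt_const
    exact continuousAt_const.div continuousAt_id one_ne_zero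
  have h3 : ∀ᶠ p in nhds (1 : ℝ), (1 / 2 : ℝ) ^ (1 / p) * ρ < 1 :=
    hc.eventually (gt_mem_nhds (by norm_num; linarith))
  have h4 : ∀ᶠ p in nhds (1 : ℝ), p < 2 := gt_mem_nhds (by norm_num)
  obtain ⟨p, hp, h5⟩ := (((h3.and h4).filter_mono nhdsWithin_le_nhds).and
    (self_mem_nhdsWithin (s := Set.Ioi (1 : ℝ)))).exists
  exact ⟨p, h5, hp.2.le, hp.1⟩

theorem typeP {X : Type*} [NormedAddCommGroup X] [NormedSpace ℝ X] {C ρ : ℝ} (hK : Kah X)
    (hC : 0 ≤ C) (h1 : 1 ≤ ρ) (h2 : ρ < 2) (h : Walsh X C ρ) :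
    ∃ p : ℝ, 1 < p ∧ p ≤ 2 ∧ HasType X p := by
  classical
  obtain ⟨p, hp1, hp2, hp3⟩ := TypePAux_p h2
  set θ : ℝ := (1 / 2 : ℝ) ^ (1 / p) with hθ
  have hθ0 : 0 < θ := by positivity
  have hp0 : 0 < p := by linarith
  have hρ : 0 ≤ θ * ρ := by positivity
  refine ⟨p, hp1, hp2, 2 * (C * ρ * (1 - θ * ρ)⁻¹), fun s x => (hK s x).trans ?_⟩
  rw [mul_assoc]
  refine mul_le_mul_of_nonneg_left ?_ zero_le_two
  set S := ∑ i, ‖x i‖ ^ p with hS
  have hS0 : 0 ≤ S := sum_nonneg fun i _ => by positivity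
  have hle : ∀ i, ‖x i‖ ^ p ≤ S := fun i =>
    single_le_sum (f := fun i => ‖x i‖ ^ p) (fun i _ => by positivity) (mem_univ i)
  have hex : ∀ i, ∃ n : ℕ, x i ≠ 0 → (1 / 2 : ℝ) ^ (n + 1) * S < ‖x i‖ ^ p ∧
      ‖x i‖ ≤ θ ^ n * S ^ (1 / p) := by
    intro i
    by_cases hi : x i = 0
    · exact ⟨0, fun h => absurd hi h⟩
    have h3 : 0 < ‖x i‖ ^ p := Real.rpow_pos_of_pos (norm_pos_iff.2 hi) p
    have h4 : 0 < S := h3.trans_le (hle i)
    obtain ⟨n, h5, h6⟩ := exists_nat_pow_near_of_lt_one (div_pos h3 h4)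
      ((div_le_one h4).2 (hle i)) (by norm_num : (0 : ℝ) < 1 / 2) (by norm_num)
    refine ⟨n, fun _ => ⟨(lt_div_iff₀ h4).1 h5, ?_⟩⟩
    have h7 := Real.rpow_le_rpow h3.le ((div_le_iff₀ h4).1 h6) (one_div_pos.2 hp0).le
    rwa [one_div p, Real.rpow_rpow_inv (norm_nonneg _) hp0.ne', Real.mul_rpow (by positivity) hS0,
      ← Real.rpow_pow_comm (by norm_num), ← one_div p] at h7
  choose n hn using hex
  set J := univ.filter fun i => x i ≠ 0 with hJ
  set N := univ.sup n + 1 with hN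
  have hsplit : ∀ e : Fin s → ZMod 2, radSum x e =
      ∑ j ∈ range N, ∑ i ∈ J.filter (fun i => n i = j), sg (e i) • x i := by
    intro e
    rw [sum_fiberwise_of_maps_to (g := n) fun i _ =>
      mem_range.2 (Nat.lt_succ_of_le (le_sup (f := n) (mem_univ i))), radSum, hJ, sum_filter]
    refine sum_congr rfl fun i _ => ?_
    split_ifs with hi
    · rfl
    · rw [not_not.1 hi, smul_zero]
  have hblock : ∀ j, 𝔼 e : Fin s → ZMod 2, ‖∑ i ∈ J.filter (fun i => n i = j), sg (e i) • x i‖ ≤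
      C * ρ * S ^ (1 / p) * (θ * ρ) ^ j := by
    intro j
    rcases (J.filter fun i => n i = j).eq_empty_or_nonempty with h3 | ⟨i₀, hi₀⟩
    · rw [h3]
      simp only [sum_empty, norm_zero, expect_const_zero]
      positivity
    have h4 : 0 < S := (Real.rpow_pos_of_pos (norm_pos_iff.2
      (mem_filter.1 (mem_filter.1 hi₀).1).2) p).trans_le (hle i₀)
    have h5 : ((J.filter fun i => n i = j).card : ℝ) * ((1 / 2 : ℝ) ^ (j + 1) * S) ≤ S := by
      rw [← nsmul_eq_mul]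
      refine (card_nsmul_le_sum _ (fun i => ‖x i‖ ^ p) _ fun i hi => ?_).trans
        (sum_le_sum_of_subset_of_nonneg (subset_univ _) fun i _ _ => by positivity)
      rw [← (mem_filter.1 hi).2]
      exact (hn i (mem_filter.1 (mem_filter.1 hi).1).2).1.le
    have h6 : (J.filter fun i => n i = j).card ≤ 2 ^ (j + 1) := by
      have h7 : ((J.filter fun i => n i = j).card : ℝ) * (1 / 2 : ℝ) ^ (j + 1) ≤ 1 := by
        rw [← mul_assoc] at h5
        exact (mul_le_iff_le_one_left h4).1 h5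
      rw [one_div, inv_pow, ← div_eq_mul_inv, div_le_one (by positivity)] at h7
      exact_mod_cast h7
    refine (TypePAux_block h x _ h6 (r := θ ^ j * S ^ (1 / p)) (by positivity)
      fun i hi => ?_).trans (le_of_eq (by ring))
    rw [← (mem_filter.1 hi).2]
    exact (hn i (mem_filter.1 (mem_filter.1 hi).1).2).2
  calc 𝔼 e, ‖radSum x e‖ ≤ 𝔼 e : Fin s → ZMod 2, ∑ j ∈ range N,
        ‖∑ i ∈ J.filter (fun i => n i = j), sg (e i) • x i‖ :=
        expect_le_expect fun e _ => by rw [hsplit]; exact norm_sum_le _ _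
    _ ≤ ∑ j ∈ range N, C * ρ * S ^ (1 / p) * (θ * ρ) ^ j := by
        rw [expect_sum_comm]
        exact sum_le_sum fun j _ => hblock j
    _ ≤ C * ρ * S ^ (1 / p) * (1 - θ * ρ)⁻¹ := by
        rw [← mul_sum, ← tsum_geometric_of_lt_one hρ hp3]
        exact mul_le_mul_of_nonneg_left ((summable_geometric_of_lt_one hρ hp3).sum_le_tsum _
          fun j _ => by positivity) (by positivity)
    _ = C * ρ * (1 - θ * ρ)⁻¹ * S ^ (1 / p) := by ring

end Vale.Agent.P111
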