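import Vale.Agent.P111.Core
import Vale.Agent.P111.Kahane
import Vale.Agent.P111.LiftX
import Vale.Agent.P111.LiftD
import Vale.Agent.P111.CotSum
import Vale.Agent.P111.FinRank
import Vale.Agent.P111.Moments
import Vale.Agent.P111.CoefEx
import Vale.Agent.P111.Iter
import Vale.Agent.P111.ToWalsh
import Vale.Agent.P111.TypeP

/-! Finite cotype of `X` and `X^*` and the approximation property give a power saving for the
Walsh transform, hence nontrivial type. -/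

namespace Vale.Agent.P111

open Finset
open scoped BigOperators

theorem SumBd.mono {Y : Type*} [NormedAddCommGroup Y] [NormedSpace ℝ Y] {k : ℕ} {Λ Λ' : ℝ}
    (h : SumBd Y k Λ) (hΛ : Λ ≤ Λ') : SumBd Y k Λ' := fun y =>
  (h y).trans (mul_le_mul_of_nonneg_right hΛ (Finset.expect_nonneg fun _ _ => norm_nonneg _))

theorem walsh_of_cotype {X : Type*} [NormedAddCommGroup X] [NormedSpace ℝ X] [CompleteSpace X]
    (hAP : HasAP X) {q r : ℝ} (hq : 1 ≤ q) (hr : 1 ≤ r) (hX : HasCotype X q)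
    (hD : HasCotype (StrongDual ℝ X) r) :
    ∃ C ρ : ℝ, 0 ≤ C ∧ 1 ≤ ρ ∧ ρ < 2 ∧ Walsh X C ρ := by
  obtain ⟨C₁, hC₁, h₁⟩ := cotSum hq (kahane X) hX
  obtain ⟨C₂, hC₂, h₂⟩ := cotSum hr (kahane _) hD
  obtain ⟨D, hD⟩ := exists_nat_ge (3 * q + 3 * r)
  have hD3 : 3 ≤ D := by
    have : (3 : ℝ) ≤ D := by linarith
    exact_mod_cast this
  obtain ⟨ι, _, t, w, hM⟩ := moments D
  set μ : ℝ := (∑ i, w i * t i) ^ 2 with hμ
  have hμ0 : 0 < μ := lt_of_le_of_ne (sq_nonneg _) (pow_ne_zero 2 hM.mean).symm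
  obtain ⟨n, hn⟩ := exists_nat_ge (C₁ + C₂ + 1 + 44 * (C₁ + C₂ + 1) / μ)
  have h44 : 0 ≤ 44 * (C₁ + C₂ + 1) / μ := by positivity
  have hn1' : (1 : ℝ) ≤ n := by linarith
  have hn1 : 1 ≤ n := by exact_mod_cast hn1'
  obtain ⟨a, ha⟩ := coefEx hM hn1
  have hk : 0 < n ^ D := by positivity
  have hk3 : (n : ℝ) ^ 3 ≤ (n : ℝ) ^ D := pow_le_pow_right₀ hn1' hD3
  have hn3 : (0 : ℝ) < (n : ℝ) ^ 3 := by positivity
  set K : ℝ := (n : ℝ) ^ D with hK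
  have hK0 : 0 < K := by positivity
  set Λ : ℝ := (C₁ + C₂) * K / (n : ℝ) ^ 3 with hΛ
  have hΛ0 : 0 < Λ := by positivity
  have e₁ : C₁ * K / (n : ℝ) ^ 3 ≤ Λ + 1 := by
    have : C₁ * K / (n : ℝ) ^ 3 ≤ Λ := by
      rw [hΛ]
      gcongr
      linarith
    linarith
  have e₂ : C₂ * K / (n : ℝ) ^ 3 ≤ Λ := by
    rw [hΛ]
    gcongr
    linarith
  have hL := liftX hΛ0 ((h₂ D n (by linarith) hn1).mono e₂)
  have hL' := liftD (by positivity) ((h₁ D n (by linarith) hn1).mono e₁)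
  have hα : 2 * (14 * (Λ + 1) ^ 2 + 8 * ((n ^ D : ℕ) : ℝ) * (Λ + 1)) ≤
      ((n ^ D : ℕ) : ℝ) ^ 2 * (μ / (n : ℝ) ^ 2) := by
    rw [Nat.cast_pow, ← hK]
    set lam : ℝ := (C₁ + C₂ + 1) / (n : ℝ) ^ 3 with hlam
    have hl0 : 0 < lam := by positivity
    have hl1 : lam ≤ 1 := by
      rw [hlam, div_le_one hn3]
      calc C₁ + C₂ + 1 ≤ n := by linarith
        _ ≤ (n : ℝ) ^ 3 := le_self_pow₀ hn1' (by norm_num)
    have h1 : Λ + 1 ≤ lam * K := by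
      have : 1 ≤ K / (n : ℝ) ^ 3 := by rwa [one_le_div hn3]
      calc Λ + 1 ≤ Λ + K / (n : ℝ) ^ 3 := by linarith
        _ = lam * K := by rw [hΛ, hlam]; ring
    have h2 : Λ + 1 ≤ K := h1.trans (mul_le_of_le_one_left hK0.le hl1)
    have h3 : 44 * lam ≤ μ / (n : ℝ) ^ 2 := by
      have h4 : 44 * (C₁ + C₂ + 1) / μ ≤ n := by linarith
      rw [div_le_iff₀ hμ0] at h4
      rw [hlam, ← mul_div_assoc, div_le_div_iff₀ hn3 (by positivity)]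
      calc 44 * (C₁ + C₂ + 1) * (n : ℝ) ^ 2 ≤ n * μ * (n : ℝ) ^ 2 := by gcongr
        _ = _ := by ring
    calc _ = 28 * ((Λ + 1) * (Λ + 1)) + 16 * (K * (Λ + 1)) := by ring
      _ ≤ 28 * (K * (lam * K)) + 16 * (K * (lam * K)) := by gcongr
      _ = K ^ 2 * (44 * lam) := by ring
      _ ≤ _ := by gcongr
  have hk1 : (1 : ℝ) ≤ ((n ^ D : ℕ) : ℝ) := by exact_mod_cast hk
  have hδ0 : (0 : ℝ) < 1 / (2 * ((n ^ D : ℕ) : ℝ)) := by positivity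
  have hδ1 : (1 : ℝ) / (2 * ((n ^ D : ℕ) : ℝ)) ≤ 1 / 2 := by
    gcongr
    linarith
  have hS : Step X (n ^ D) (1 / (2 * ((n ^ D : ℕ) : ℝ)))
      (((1 / 2) ^ ((n ^ D) ^ 2)) ^ (2 * n ^ D)) (Λ + 1) := by
    intro T c U U' hc hUU hU hLU hB
    exact core hk ha (by positivity) hc hα hUU subset_rfl hU (symm_Ball _) hLU hL' hB
  obtain ⟨C, hC, hB⟩ := iter hAP hδ0 (by positivity) hL (finRank X hδ0.le hδ1) hS
  obtain ⟨ρ, h1, h2, hW⟩ := toWalsh hδ0 (by linarith) hC hB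
  exact ⟨C, ρ, hC, h1, h2, hW⟩

theorem type_of_cotype {X : Type*} [NormedAddCommGroup X] [NormedSpace ℝ X] [CompleteSpace X]
    (hAP : HasAP X) {q r : ℝ} (hq : 1 ≤ q) (hr : 1 ≤ r) (hX : HasCotype X q)
    (hD : HasCotype (StrongDual ℝ X) r) : ∃ p : ℝ, 1 < p ∧ p ≤ 2 ∧ HasType X p := by
  obtain ⟨C, ρ, hC, h1, h2, hW⟩ := walsh_of_cotype hAP hq hr hX hD
  exact typeP (kahane X) hC h1 h2 hW

theorem HasBAP.ap {X : Type*} [NormedAddCommGroup X] [NormedSpace ℝ X] (h : HasBAP X) :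
    HasAP X := by
  obtain ⟨lam, h⟩ := h
  intro M hM δ hδ
  obtain ⟨S, h1, -, h2⟩ := h M hM δ hδ
  exact ⟨S, h1, h2⟩

end Vale.Agent.P111
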