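import Vale.Agent.P111.Base

namespace Vale.Agent.P111

open Finset
open scoped BigOperators

section Aux

variable {A B : Type} [AddCommGroup A] [AddCommGroup B] {σ : A → B → ℝ} {k : ℕ}

theorem OddTestAux_bit {u u' v v' : ℝ} (h1 : u = 1 ∨ u = -1) (h2 : u' = 1 ∨ u' = -1)
    (h3 : v = 1 ∨ v = -1) (h4 : v' = 1 ∨ v' = -1) :
    (if u * u' = v * v' then (0 : ZMod 2) else 1) =
      (if u = v then 0 else 1) + (if u' = v' then 0 else 1) := by
  have e1 : ¬ ((1 : ℝ) = -1) := by norm_num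
  have e2 : ¬ ((-1 : ℝ) = 1) := by norm_num
  have e3 : (1 : ZMod 2) + 1 = 0 := rfl
  rcases h1 with rfl | rfl <;> rcases h2 with rfl | rfl <;> rcases h3 with rfl | rfl <;>
    rcases h4 with rfl | rfl <;> simp [e1, e2, e3]

/-- The sign pattern of `a` against the tuple `g`. -/
noncomputable def OddTestAux_hom (hσ : IsBi σ) (i0 : Fin k) (g : Fin k → B) :
    A →+ (Fin k → ZMod 2) :=
  AddMonoidHom.mk' (fun a j => if σ a (g j) = σ a (g i0) then 0 else 1) fun a a' => by
    funext j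
    simp only [hσ.addl, Pi.add_apply]
    exact OddTestAux_bit (hσ.eq_or _ _) (hσ.eq_or _ _) (hσ.eq_or _ _) (hσ.eq_or _ _)

/-- The subgroup on which all signs agree. -/
noncomputable def OddTestAux_sub (hσ : IsBi σ) (i0 : Fin k) (g : Fin k → B) : AddSubgroup A :=
  (OddTestAux_hom hσ i0 g).ker

theorem OddTestAux_mem (hσ : IsBi σ) (i0 : Fin k) (g : Fin k → B) (a : A) :
    a ∈ OddTestAux_sub hσ i0 g ↔ ∀ j, σ a (g j) = σ a (g i0) := by
  unfold OddTestAux_sub
  rw [AddMonoidHom.mem_ker, funext_iff]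
  refine forall_congr' fun j => ?_
  change (if σ a (g j) = σ a (g i0) then (0 : ZMod 2) else 1) = 0 ↔ _
  by_cases h : σ a (g j) = σ a (g i0) <;> simp [h]

theorem OddTestAux_shift (hσ : IsBi σ) (i0 : Fin k) (g : Fin k → B) (b : B) :
    OddTestAux_sub hσ i0 (g + fun _ => b) = OddTestAux_sub hσ i0 g := by
  ext a
  rw [OddTestAux_mem, OddTestAux_mem]
  refine forall_congr' fun j => ?_
  simp only [Pi.add_apply, hσ.addr]
  refine mul_left_inj' ?_
  rcases hσ.eq_or a b with e | e <;> rw [e] <;> norm_num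

theorem OddTestAux_card [Fintype A] (hσ : IsBi σ) (i0 : Fin k) (g : Fin k → B) :
    Nat.card A ≤ 2 ^ k * Nat.card (OddTestAux_sub hσ i0 g) := by
  have h1 := AddSubgroup.card_mul_index (OddTestAux_sub hσ i0 g)
  have h2 : (OddTestAux_sub hσ i0 g).index ≤ 2 ^ k := by
    unfold OddTestAux_sub
    rw [AddSubgroup.index_ker]
    refine (Nat.card_le_card_of_injective _ Subtype.val_injective).trans (le_of_eq ?_)
    simp
  rw [← h1, mul_comm]
  exact Nat.mul_le_mul_right _ h2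

theorem OddTestAux_le [Fintype A] (H : AddSubgroup A) [Fintype H] {m : ℕ}
    (hm : Nat.card A ≤ m * Nat.card H) {f : A → ℝ} (hf : ∀ a, 0 ≤ f a) :
    𝔼 a : H, f a ≤ m * 𝔼 a, f a := by
  classical
  have h1 : ∑ a : H, f a ≤ ∑ a, f a := by
    rw [← Finset.sum_subtype (univ.filter (· ∈ H)) (by simp) f]
    exact sum_le_sum_of_subset_of_nonneg (filter_subset _ _) fun a _ _ => hf a
  have h2 : (0 : ℝ) < Fintype.card H := by exact_mod_cast Fintype.card_pos
  have h3 : (0 : ℝ) < Fintype.card A := by exact_mod_cast Fintype.card_pos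
  have h4 : (Fintype.card A : ℝ) ≤ m * Fintype.card H := by
    rw [Nat.card_eq_fintype_card, Nat.card_eq_fintype_card] at hm
    exact_mod_cast hm
  have h5 : 0 ≤ ∑ a, f a := sum_nonneg fun a _ => hf a
  rw [Fintype.expect_eq_sum_div_card, Fintype.expect_eq_sum_div_card, ← mul_div_assoc,
    div_le_div_iff₀ h2 h3]
  calc (∑ a : H, f a) * (Fintype.card A : ℝ) ≤ (∑ a, f a) * (m * Fintype.card H) :=
        mul_le_mul h1 h4 h3.le h5
    _ = m * (∑ a, f a) * Fintype.card H := by ring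

theorem OddTestAux_kap [Fintype A] [Fintype B] (hσ : IsBi σ) (H : AddSubgroup A) [Fintype H]
    (K : AddSubgroup B) [Fintype K] {m : ℕ} (hH : Nat.card A ≤ m * Nat.card H)
    (hK : Nat.card B ≤ m * Nat.card K) :
    kap (fun (a : H) (b : K) => σ a b) ≤ (m : ℝ) * m * kap σ := by
  have h1 := OddTestAux_le H hH (f := fun a => 𝔼 b : K, σ a b)
    fun a => (hσ.comp (AddMonoidHom.id A) K.subtype).expect_right_nonneg a
  have h2 := OddTestAux_le K hK (f := fun b => 𝔼 a, σ a b) fun b => hσ.expect_left_nonneg b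
  unfold kap
  refine h1.trans ?_
  rw [expect_comm, mul_assoc]
  refine mul_le_mul_of_nonneg_left (h2.trans (le_of_eq ?_)) (Nat.cast_nonneg _)
  rw [expect_comm]

open Classical in
/-- The mean over a subgroup. -/
noncomputable def OddTestAux_avg [Fintype A] (H : AddSubgroup A) (f : A → ℝ) : ℝ :=
  𝔼 a : H, f a

theorem OddTestAux_one [Fintype A] (H : AddSubgroup A) (Ψ : (Fin k → A) → ℝ) :
    𝔼 S, Ψ S = 𝔼 S, OddTestAux_avg H (fun a => Ψ (S + fun _ => a)) := by
  classical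
  unfold OddTestAux_avg
  rw [expect_comm]
  simp only [Fou.expect_add_right Ψ]
  rw [Fintype.expect_const]

theorem OddTestAux_two [Fintype A] [Fintype B] (hσ : IsBi σ) (i0 : Fin k)
    (Ψ : (Fin k → A) → (Fin k → B) → ℝ) :
    𝔼 S, 𝔼 g, Ψ S g = 𝔼 S, 𝔼 g, OddTestAux_avg (OddTestAux_sub hσ i0 g) (fun a =>
      OddTestAux_avg (OddTestAux_sub hσ.flip i0 S) (fun b =>
        Ψ (S + fun _ => a) (g + fun _ => b))) := by
  have h1 : 𝔼 S, 𝔼 g, Ψ S g = 𝔼 S, 𝔼 g, OddTestAux_avg (OddTestAux_sub hσ.flip i0 S)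
      (fun b => Ψ S (g + fun _ => b)) :=
    expect_congr rfl fun S _ => OddTestAux_one _ _
  rw [h1, expect_comm]
  refine Eq.trans ?_ (expect_comm _ _ _)
  refine expect_congr rfl fun g _ => ?_
  rw [OddTestAux_one (OddTestAux_sub hσ i0 g)]
  simp only [OddTestAux_shift]

theorem OddTestAux_odd {ι : Type} {h : (ι → ℝ) → ℝ} (hh : ∀ z, h (-z) = -h z) {e : ℝ}
    (he : e = 1 ∨ e = -1) (z : ι → ℝ) : h (fun p => z p * e) = h z * e := by
  rcases he with rfl | rfl
  · simp
  · have : (fun p => z p * -1) = -z := by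
      funext p
      simp
    rw [this, hh]
    ring

theorem OddTestAux_symm {E : Type*} [AddCommGroup E] [Module ℝ E] {U : Set E} (hU : Symm U)
    {e : ℝ} (he : e = 1 ∨ e = -1) {x : E} (hx : x ∈ U) : e • x ∈ U := by
  rcases he with rfl | rfl
  · rwa [one_smul]
  · rw [neg_one_smul]
    exact hU x hx

end Aux

theorem oddTest {E F : Type*} [AddCommGroup E] [Module ℝ E] [AddCommGroup F] [Module ℝ F]
    {β : E →ₗ[ℝ] F →ₗ[ℝ] ℝ} {δ c : ℝ} {U : Set E} {W : Set F} (hδ : 0 ≤ δ) (hc : 0 ≤ c)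
    (hU : Symm U) (hW : Symm W) (hB : Bd β δ c 1 U W)
    {A B : Type} [AddCommGroup A] [Fintype A] [AddCommGroup B] [Fintype B] {σ : A → B → ℝ}
    (hσ : IsBi σ) {k : ℕ} (hk : 0 < k) (h : (Fin k × Fin k → ℝ) → ℝ)
    (hh : ∀ z, h (-z) = -h z) (X : (Fin k → A) → E) (Y : (Fin k → B) → F)
    (hX : ∀ S, X S ∈ U) (hY : ∀ g, Y g ∈ W) :
    |𝔼 S : Fin k → A, 𝔼 g : Fin k → B, h (fun p => σ (S p.1) (g p.2)) * β (X S) (Y g)| ≤
      c * (4 ^ k * kap σ) ^ δ *
        𝔼 S : Fin k → A, 𝔼 g : Fin k → B, |h (fun p => σ (S p.1) (g p.2))| := by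
  classical
  let i0 : Fin k := ⟨0, hk⟩
  rw [OddTestAux_two hσ i0, mul_expect]
  refine (abs_expect_le _ _).trans (expect_le_expect fun S _ => ?_)
  rw [mul_expect]
  refine (abs_expect_le _ _).trans (expect_le_expect fun g _ => ?_)
  set H := OddTestAux_sub hσ i0 g with hH
  set K := OddTestAux_sub hσ.flip i0 S with hK
  have hr : IsBi fun (a : H) (b : K) => σ a b := hσ.comp H.subtype K.subtype
  have h1 := hB H K (fun a b => σ a b) hr hr.kap_le_one
    (fun a => σ a (g i0) • X (S + fun _ => (a : A)))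
    (fun b => σ (S i0) b • Y (g + fun _ => (b : B)))
    (fun a => OddTestAux_symm hU (hσ.eq_or _ _) (hX _))
    (fun b => OddTestAux_symm hW (hσ.eq_or _ _) (hY _))
  have h2 : kap (fun (a : H) (b : K) => σ a b) ≤ 4 ^ k * kap σ := by
    refine (OddTestAux_kap hσ H K (OddTestAux_card hσ i0 g)
      (OddTestAux_card hσ.flip i0 S)).trans (le_of_eq ?_)
    push_cast
    rw [← mul_pow]
    norm_num
  have h3 : OddTestAux_avg H (fun a => OddTestAux_avg K (fun b =>
      h (fun p => σ ((S + fun _ => a : Fin k → A) p.1) ((g + fun _ => b : Fin k → B) p.2)) *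
        β (X (S + fun _ => a)) (Y (g + fun _ => b)))) =
      h (fun p => σ (S p.1) (g p.2)) * 𝔼 a : H, 𝔼 b : K,
        σ a b * β (σ a (g i0) • X (S + fun _ => (a : A)))
          (σ (S i0) b • Y (g + fun _ => (b : B))) := by
    unfold OddTestAux_avg
    rw [mul_expect]
    refine expect_congr rfl fun a _ => ?_
    rw [mul_expect]
    refine expect_congr rfl fun b _ => ?_
    have ha := (OddTestAux_mem hσ i0 g a).1 a.2
    have hb : ∀ l, σ (S l) b = σ (S i0) b := (OddTestAux_mem hσ.flip i0 S b).1 b.2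
    have e1 : (fun p : Fin k × Fin k =>
        σ ((S + fun _ => (a : A) : Fin k → A) p.1) ((g + fun _ => (b : B) : Fin k → B) p.2)) =
        fun p => σ (S p.1) (g p.2) * (σ (S i0) b * σ a (g i0) * σ a b) := by
      funext p
      simp only [Pi.add_apply, hσ.addl, hσ.addr]
      rw [ha p.2, hb p.1]
      ring
    have e2 : σ (S i0) b * σ a (g i0) * σ a b = 1 ∨ σ (S i0) b * σ a (g i0) * σ a b = -1 := by
      rcases hσ.eq_or (S i0) b with e | e <;> rcases hσ.eq_or a (g i0) with e' | e' <;>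
        rcases hσ.eq_or a b with e'' | e'' <;> rw [e, e', e''] <;> norm_num
    beta_reduce
    rw [e1, OddTestAux_odd hh e2]
    simp only [map_smul, LinearMap.smul_apply, smul_eq_mul]
    ring
  rw [h3, abs_mul, mul_comm]
  refine mul_le_mul_of_nonneg_right (h1.trans ?_) (abs_nonneg _)
  exact mul_le_mul_of_nonneg_left (Real.rpow_le_rpow hr.kap_nonneg h2 hδ) hc

end Vale.Agent.P111
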