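import Vale.Agent.P111.Base

namespace Vale.Agent.P111

open Finset
open scoped BigOperators

section Aux

variable {X : Type*} [NormedAddCommGroup X] [NormedSpace ℝ X] {M : ℕ}

theorem WalshTwoAux_le (x : (Fin M → ZMod 2) → X) (b : Fin M → ZMod 2) :
    ‖walsh x b‖ ≤ 2 ^ M * 𝔼 a, ‖x a‖ := by
  rw [expect_cube, mul_div_cancel₀ _ (by positivity)]
  refine (norm_sum_le _ _).trans (le_of_eq (Finset.sum_congr rfl fun a _ => ?_))
  rw [norm_smul, Real.norm_eq_abs, Fou.abs_sg, one_mul]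

theorem WalshTwoAux_smul (c : ℝ) (x : (Fin M → ZMod 2) → X) (b : Fin M → ZMod 2) :
    walsh (fun a => c • x a) b = c • walsh x b := by
  simp only [walsh, Finset.smul_sum, smul_comm c]

theorem WalshTwoAux_l2 (c : ℝ) (hc : 0 ≤ c) (x : (Fin M → ZMod 2) → X) :
    l2 (fun a => c • x a) = c * l2 x := by
  simp only [l2_eq, norm_smul, mul_pow, ← Finset.mul_expect, Real.norm_eq_abs, sq_abs]
  rw [Real.sqrt_mul (sq_nonneg c), Real.sqrt_sq hc]

theorem WalshTwoAux_core {C ρ t : ℝ} (h : Walsh X C ρ) (ht : 0 < t)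
    (x : (Fin M → ZMod 2) → X) (hx : 𝔼 a, ‖x a‖ ^ 2 ≤ 1) (lam : (Fin M → ZMod 2) → ℝ)
    (h0 : ∀ b, 0 ≤ lam b) (hl : 𝔼 b, lam b ^ 2 ≤ 1) :
    𝔼 b, lam b * ‖walsh x b‖ ≤ t⁻¹ * (t⁻¹ * (C * ρ ^ M)) + 2 * (2 ^ M * t) := by
  obtain ⟨x1, x2, e, b1, b2, b3⟩ : ∃ x1 x2 : (Fin M → ZMod 2) → X, (∀ a, x a = x1 a + x2 a) ∧
      (∀ a, t * ‖x1 a‖ ≤ 1) ∧ (∀ a, ‖x1 a‖ ≤ 1 / 2 + 1 / 2 * ‖x a‖ ^ 2) ∧
      ∀ a, ‖x2 a‖ ≤ t * ‖x a‖ ^ 2 := by
    refine ⟨fun a => if t * ‖x a‖ ≤ 1 then x a else 0, fun a => if t * ‖x a‖ ≤ 1 then 0 else x a,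
      fun a => ?_, fun a => ?_, fun a => ?_, fun a => ?_⟩ <;> beta_reduce <;> split_ifs with hh
    · simp
    · simp
    · exact hh
    · simp
    · nlinarith [sq_nonneg (‖x a‖ - 1)]
    · rw [norm_zero]; positivity
    · rw [norm_zero]; positivity
    · nlinarith [norm_nonneg (x a)]
  have e1 : ∀ b, walsh x b = walsh x1 b + walsh x2 b := fun b => by
    simp only [walsh, e, smul_add, Finset.sum_add_distrib]
  have hp : (0 : ℝ) < 2 ^ M := by positivity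
  have c1 : ∀ b, ‖walsh x1 b‖ ≤ 2 ^ M := fun b => by
    refine (WalshTwoAux_le x1 b).trans (mul_le_of_le_one_right hp.le ?_)
    refine (Finset.expect_le_expect fun a _ => b2 a).trans ?_
    rw [Finset.expect_add_distrib, ← Finset.mul_expect, Finset.expect_const Finset.univ_nonempty]
    linarith
  have c2 : ∀ b, ‖walsh x2 b‖ ≤ 2 ^ M * t := fun b => by
    refine (WalshTwoAux_le x2 b).trans (mul_le_mul_of_nonneg_left ?_ hp.le)
    refine (Finset.expect_le_expect fun a _ => b3 a).trans ?_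
    rw [← Finset.mul_expect]
    exact mul_le_of_le_one_right ht.le hx
  have c3 : 𝔼 b, ‖walsh x1 b‖ ≤ t⁻¹ * (C * ρ ^ M) := by
    have := h M (fun a => t • x1 a) fun a => by
      rw [norm_smul, Real.norm_eq_abs, abs_of_pos ht]; exact b1 a
    simp only [WalshTwoAux_smul, norm_smul, Real.norm_eq_abs, abs_of_pos ht,
      ← Finset.mul_expect] at this
    rwa [le_inv_mul_iff₀ ht]
  have c4 : ∀ b, lam b * ‖walsh x b‖ ≤
      t⁻¹ * ‖walsh x1 b‖ + (2 ^ M * t / 2 + 3 / 2 * (2 ^ M * t) * lam b ^ 2) := fun b => by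
    have d1 : lam b ≤ t⁻¹ + t * lam b ^ 2 := by
      have : t * lam b ≤ t * (t⁻¹ + t * lam b ^ 2) := by
        rw [mul_add, mul_inv_cancel₀ ht.ne']
        nlinarith [sq_nonneg (t * lam b - 1), mul_nonneg ht.le (h0 b)]
      exact le_of_mul_le_mul_left this ht
    have d2 := mul_le_mul_of_nonneg_right d1 (norm_nonneg (walsh x1 b))
    have d3 := mul_le_mul_of_nonneg_left (c1 b) (mul_nonneg ht.le (sq_nonneg (lam b)))
    have d4 := mul_le_mul_of_nonneg_left (c2 b) (h0 b)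
    have d5 : lam b * (2 ^ M * t) ≤ (1 / 2 + 1 / 2 * lam b ^ 2) * (2 ^ M * t) :=
      mul_le_mul_of_nonneg_right (by nlinarith [sq_nonneg (lam b - 1)]) (by positivity)
    have d6 := mul_le_mul_of_nonneg_left (norm_add_le (walsh x1 b) (walsh x2 b)) (h0 b)
    rw [e1]
    linarith
  refine (Finset.expect_le_expect fun b _ => c4 b).trans ?_
  rw [Finset.expect_add_distrib, Finset.expect_add_distrib, ← Finset.mul_expect,
    ← Finset.mul_expect, Finset.expect_const Finset.univ_nonempty]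
  have d1 := mul_le_mul_of_nonneg_left c3 (inv_pos.2 ht).le
  have d2 := mul_le_of_le_one_right (show 0 ≤ 3 / 2 * (2 ^ M * t) by positivity) hl
  linarith

omit [NormedSpace ℝ X] in
theorem WalshTwoAux_one {K : ℝ} (hK : 0 ≤ K) (y : (Fin M → ZMod 2) → X)
    (h : ∀ lam : (Fin M → ZMod 2) → ℝ, (∀ b, 0 ≤ lam b) → 𝔼 b, lam b ^ 2 ≤ 1 →
      𝔼 b, lam b * ‖y b‖ ≤ K) : l2 y ≤ K := by
  rcases (l2_nonneg y).eq_or_lt with h0 | h0
  · rwa [← h0]
  have := h (fun b => (l2 y)⁻¹ * ‖y b‖) (fun b => by positivity) (by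
    simp only [mul_pow, ← Finset.mul_expect, ← l2_sq]
    rw [← mul_pow, inv_mul_cancel₀ h0.ne', one_pow])
  simp only [mul_assoc, ← sq, ← Finset.mul_expect, ← l2_sq] at this
  rwa [sq, ← mul_assoc, inv_mul_cancel₀ h0.ne', one_mul] at this

end Aux

theorem walshTwo {X : Type*} [NormedAddCommGroup X] [NormedSpace ℝ X] {C ρ : ℝ}
    (hC : 0 ≤ C) (h1 : 1 ≤ ρ) (h2 : ρ < 2) (h : Walsh X C ρ) :
    ∃ C' ρ' : ℝ, 0 ≤ C' ∧ 0 ≤ ρ' ∧ ρ' < 2 ∧ Walsh2 X C' ρ' := by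
  obtain ⟨θ, h3, h4⟩ : ∃ θ : ℝ, 0 < θ ∧ θ ^ 3 = ρ / 2 :=
    ⟨(ρ / 2) ^ ((3 : ℕ) : ℝ)⁻¹, by positivity, Real.rpow_inv_natCast_pow (by positivity)
      (by norm_num)⟩
  have h5 : θ < 1 := lt_of_pow_lt_pow_left₀ 3 zero_le_one (by rw [h4, one_pow]; linarith)
  refine ⟨C + 2, 2 * θ, by positivity, by positivity, by linarith, fun M x => ?_⟩
  have ht : 0 < θ ^ M := pow_pos h3 M
  have key : ∀ x : (Fin M → ZMod 2) → X, l2 x = 1 → l2 (walsh x) ≤ (C + 2) * (2 * θ) ^ M := by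
    intro x hx
    refine WalshTwoAux_one (by positivity) _ fun lam h0 hl => ?_
    refine (WalshTwoAux_core h ht x (by rw [← l2_sq, hx, one_pow]) lam h0 hl).trans (le_of_eq ?_)
    rw [show ρ = 2 * θ ^ 3 by linarith, mul_pow, mul_pow, ← pow_mul, mul_comm 3 M, pow_mul]
    field_simp
  rcases (l2_nonneg x).eq_or_lt with h0 | h0
  · have h6 := l2_sq x
    rw [← h0, zero_pow two_ne_zero, eq_comm,
      Finset.expect_eq_zero_iff_of_nonneg fun _ _ => sq_nonneg _] at h6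
    have h7 : walsh x = fun _ => 0 := funext fun b => Finset.sum_eq_zero fun a _ => by
      rw [norm_eq_zero.1 (pow_eq_zero_iff two_ne_zero |>.1 (h6 a (Finset.mem_univ a))), smul_zero]
    rw [h7, ← h0]
    simp [l2]
  · have h6 := key (fun a => (l2 x)⁻¹ • x a) (by
      rw [WalshTwoAux_l2 _ (inv_pos.2 h0).le, inv_mul_cancel₀ h0.ne'])
    rw [show walsh (fun a => (l2 x)⁻¹ • x a) = fun b => (l2 x)⁻¹ • walsh x b from
      funext (WalshTwoAux_smul _ x), WalshTwoAux_l2 _ (inv_pos.2 h0).le, inv_mul_le_iff₀ h0] at h6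
    rwa [mul_comm] at h6

theorem walshTwo_LT {X : Type*} [NormedAddCommGroup X] [NormedSpace ℝ X] {C ρ : ℝ}
    (hC : 0 ≤ C) (h1 : 0 ≤ ρ) (h : Walsh2 X C ρ) (s : ℕ) : Walsh2 (LT X s) C ρ := by
  intro M x
  refine le_of_pow_le_pow_left₀ two_ne_zero (mul_nonneg (by positivity) (l2_nonneg x)) ?_
  have e : ∀ b w, walsh x b w = walsh (fun a => x a w) b := fun b w => by
    simp only [walsh, WithLp.ofLp_sum, Finset.sum_apply, PiLp.smul_apply]
  rw [mul_pow, l2_sq, l2_sq]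
  simp only [PiLp.norm_sq_eq_of_L2, e]
  rw [Finset.expect_sum_comm, Finset.expect_sum_comm, Finset.mul_sum]
  refine Finset.sum_le_sum fun w _ => ?_
  rw [← l2_sq, ← l2_sq, ← mul_pow]
  exact pow_le_pow_left₀ (l2_nonneg _) (h M fun a => x a w) 2

end Vale.Agent.P111
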